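import Mathlib

/-!
# Kaplansky's lemma: a locally algebraic operator of bounded degree is algebraic

Helper for P199 (board task KAP of helper53).
-/

namespace Vale.Agent.H71

open Polynomial

/-- (KAP) Kaplansky's lemma: a locally algebraic operator of bounded degree is algebraic. -/
theorem exists_aeval_eq_zero_of_locally {K V : Type*} [Field K] [AddCommGroup V] [Module K V]
    (T : Module.End K V) (d : ℕ)
    (h : ∀ v : V, ∃ p : K[X], p ≠ 0 ∧ p.natDegree ≤ d ∧ aeval T p v = 0) :
    ∃ p : K[X], p ≠ 0 ∧ p.natDegree ≤ d ∧ aeval T p = 0 := by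
  classical
  have hmul : ∀ (p q : K[X]) (v : V), aeval T (p * q) v = aeval T p (aeval T q v) := by
    intro p q v; rw [map_mul, Module.End.mul_apply]
  have hmul' : ∀ (p q : K[X]) (v : V), aeval T (p * q) v = aeval T q (aeval T p v) := by
    intro p q v; rw [mul_comm, hmul]
  have h' : ∀ v : V, ∃ n : ℕ, ∃ p : K[X], p ≠ 0 ∧ p.natDegree = n ∧ aeval T p v = 0 := by
    intro v; obtain ⟨p, hp, -, hpv⟩ := h v; exact ⟨_, p, hp, rfl, hpv⟩
  let e : V → ℕ := fun v => Nat.find (h' v)
  have he_le : ∀ v, e v ≤ d := by
    intro v; obtain ⟨p, hp, hd, hpv⟩ := h v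
    exact le_trans (Nat.find_min' (h' v) ⟨p, hp, rfl, hpv⟩) hd
  have he_min : ∀ v (p : K[X]), p ≠ 0 → aeval T p v = 0 → e v ≤ p.natDegree := by
    intro v p hp hpv; exact Nat.find_min' (h' v) ⟨p, hp, rfl, hpv⟩
  have hbdd : BddAbove (Set.range e) := ⟨d, by rintro _ ⟨v, rfl⟩; exact he_le v⟩
  obtain ⟨v0, hv0⟩ : sSup (Set.range e) ∈ Set.range e := Nat.sSup_mem ⟨_, ⟨0, rfl⟩⟩ hbdd
  have hmax : ∀ v, e v ≤ e v0 := by
    intro v; rw [hv0]; exact le_csSup hbdd ⟨v, rfl⟩
  obtain ⟨m, hm0, hmdeg, hmv0⟩ := Nat.find_spec (h' v0)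
  have hmdeg' : m.natDegree = e v0 := hmdeg
  -- `m` divides every annihilator of `v0`
  have hdiv : ∀ p : K[X], aeval T p v0 = 0 → m ∣ p := by
    intro p hp
    rw [← EuclideanDomain.mod_eq_zero]
    by_contra hr
    have hrv : aeval T (p % m) v0 = 0 := by
      have : p % m = p - m * (p / m) := by
        rw [eq_sub_iff_add_eq]; exact EuclideanDomain.mod_add_div p m
      rw [this, map_sub, LinearMap.sub_apply, hp, hmul', hmv0, map_zero, sub_zero]
    have h1 := he_min v0 _ hr hrv
    have h2 : (p % m).natDegree < m.natDegree :=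
      natDegree_lt_natDegree hr (degree_mod_lt p hm0)
    omega
  have hexists : ∀ u : V, ∃ p : K[X], p ≠ 0 ∧ p.natDegree ≤ m.natDegree ∧ aeval T p u = 0 := by
    intro u
    obtain ⟨p, hp0, hpdeg, hpu⟩ := Nat.find_spec (h' u)
    exact ⟨p, hp0, by rw [hpdeg, hmdeg']; exact hmax u, hpu⟩
  -- main claim
  have hQ : ∀ b : K[X], b ≠ 0 → ∀ w : V, aeval T b w = 0 → aeval T m w = 0 := by
    intro b
    induction b using UniqueFactorizationMonoid.induction_on_coprime with
    | h0 => intro hb; exact absurd rfl hb
    | h1 hx =>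
      rename_i x
      intro _ w hw
      obtain ⟨y, hy⟩ := hx.exists_left_inv
      have hw0 : w = 0 := by
        have := hmul y x w
        rw [hy, map_one, Module.End.one_apply, hw, map_zero] at this
        exact this
      rw [hw0, map_zero]
    | hpr i hp =>
      rename_i p
      intro _ w hw
      have hex : ∃ j, aeval T (p ^ j) w = 0 := ⟨i, hw⟩
      have hjw : aeval T (p ^ (Nat.find hex)) w = 0 := Nat.find_spec hex
      have hjmin : ∀ j', aeval T (p ^ j') w = 0 → Nat.find hex ≤ j' :=
        fun j' hj' => Nat.find_min' hex hj'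
      generalize Nat.find hex = j at hjw hjmin
      have hwdiv : ∀ q : K[X], aeval T q w = 0 → p ^ j ∣ q := by
        intro q hq
        have hg : aeval T (EuclideanDomain.gcd q (p ^ j)) w = 0 := by
          rw [EuclideanDomain.gcd_eq_gcd_ab, map_add, LinearMap.add_apply, hmul', hq, map_zero,
            hmul', hjw, map_zero, add_zero]
        obtain ⟨j', hj'le, hassoc⟩ :=
          (dvd_prime_pow hp j).1 (EuclideanDomain.gcd_dvd_right q (p ^ j))
        have hj'w : aeval T (p ^ j') w = 0 := by
          obtain ⟨c, hc⟩ := hassoc.dvd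
          rw [hc, hmul', hg, map_zero]
        have hjj : j' = j := le_antisymm hj'le (hjmin j' hj'w)
        rw [hjj] at hassoc
        exact hassoc.symm.dvd.trans (EuclideanDomain.gcd_dvd_left q _)
      obtain ⟨k, m1, hm1, hmk⟩ := WfDvdMonoid.max_power_factor hm0 hp.irreducible
      by_cases hjk : j ≤ k
      · have hdvd : p ^ j ∣ m := by rw [hmk]; exact Dvd.dvd.mul_right (pow_dvd_pow p hjk) m1
        obtain ⟨c, hc⟩ := hdvd
        rw [hc, hmul', hjw, map_zero]
      · exfalso
        rw [not_le] at hjk
        obtain ⟨q, hq0, hqdeg, hqu⟩ := hexists (aeval T (p ^ k) v0 + w)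
        have hcop : IsCoprime (p ^ j) m1 :=
          ((hp.irreducible.coprime_iff_not_dvd).2 hm1).pow_left
        have hm10 : m1 ≠ 0 := by rintro rfl; exact hm1 (dvd_zero p)
        have hqu' : aeval T q (aeval T (p ^ k) v0) + aeval T q w = 0 := by
          rw [← map_add]; exact hqu
        have h1 : m1 ∣ q := by
          have hkill : aeval T (p ^ j * q * p ^ k) v0 = 0 := by
            have e1 : aeval T q (aeval T (p ^ k) v0) = - aeval T q w :=
              eq_neg_of_add_eq_zero_left hqu'
            rw [mul_assoc, hmul, hmul, e1, map_neg, ← hmul, mul_comm, hmul, hjw, map_zero,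
              neg_zero]
          have hd := hdiv _ hkill
          rw [hmk] at hd
          have hd' : p ^ k * m1 ∣ p ^ k * (p ^ j * q) := by
            have : p ^ k * (p ^ j * q) = p ^ j * q * p ^ k := by ring
            rw [this]; exact hd
          have hd'' : m1 ∣ p ^ j * q :=
            (mul_dvd_mul_iff_left (pow_ne_zero k hp.ne_zero)).1 hd'
          exact hcop.symm.dvd_of_dvd_mul_left hd''
        have h2 : p ^ j ∣ q := by
          have hkill : aeval T (m1 * q) w = 0 := by
            have e0 : aeval T (m1 * q) (aeval T (p ^ k) v0 + w) = 0 := by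
              rw [hmul, hqu, map_zero]
            have e1 : aeval T (m1 * q) (aeval T (p ^ k) v0) = 0 := by
              rw [← hmul]
              have : m1 * q * p ^ k = q * m := by rw [hmk]; ring
              rw [this, hmul, hmv0, map_zero]
            rw [map_add, e1, zero_add] at e0
            exact e0
          exact hcop.dvd_of_dvd_mul_left (hwdiv _ hkill)
        have h3 : p ^ j * m1 ∣ q := hcop.mul_dvd h2 h1
        have h4 : (p ^ j * m1).natDegree ≤ q.natDegree := natDegree_le_of_dvd h3 hq0
        have hpdeg : 0 < p.natDegree := hp.irreducible.natDegree_pos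
        have h5 : (p ^ j * m1).natDegree = j * p.natDegree + m1.natDegree := by
          rw [natDegree_mul (pow_ne_zero j hp.ne_zero) hm10, natDegree_pow]
        have h6 : m.natDegree = k * p.natDegree + m1.natDegree := by
          rw [hmk, natDegree_mul (pow_ne_zero k hp.ne_zero) hm10, natDegree_pow]
        have h7 : k * p.natDegree < j * p.natDegree := Nat.mul_lt_mul_of_pos_right hjk hpdeg
        omega
    | hcp hxy hx hy =>
      rename_i x y
      intro hb w hw
      have hx0 : x ≠ 0 := left_ne_zero_of_mul hb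
      have hy0 : y ≠ 0 := right_ne_zero_of_mul hb
      obtain ⟨r, s, hrs⟩ := isRelPrime_iff_isCoprime.1 hxy
      have h1 : aeval T m (aeval T (r * x) w) = 0 := by
        apply hy hy0
        rw [← hmul]
        have : y * (r * x) = r * (x * y) := by ring
        rw [this, hmul, hw, map_zero]
      have h2 : aeval T m (aeval T (s * y) w) = 0 := by
        apply hx hx0
        rw [← hmul]
        have : x * (s * y) = s * (x * y) := by ring
        rw [this, hmul, hw, map_zero]
      have hw' : w = aeval T (r * x) w + aeval T (s * y) w := by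
        rw [← LinearMap.add_apply, ← map_add, hrs, map_one, Module.End.one_apply]
      rw [hw', map_add, h1, h2, add_zero]
  refine ⟨m, hm0, by rw [hmdeg']; exact he_le v0, ?_⟩
  ext w
  obtain ⟨b, hb, -, hbw⟩ := h w
  rw [hQ b hb w hbw, LinearMap.zero_apply]

end Vale.Agent.H71
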