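import Mathlib

/-!
# Extending derivations along formally etale maps, and restricting derivations of a fraction field
-/

namespace Vale.Agent.H71

open scoped TensorProduct

/-- A derivation `S → T` extends to a derivation of `T` when `T` is formally etale over `S`. -/
theorem exists_derivation_extension (k S T : Type*) [CommRing k] [CommRing S] [CommRing T]
    [Algebra k S] [Algebra k T] [Algebra S T] [IsScalarTower k S T] [Algebra.FormallyEtale S T]
    (d : Derivation k S T) : ∃ dT : Derivation k T T, ∀ s : S, dT (algebraMap S T s) = d s := by
  refine ⟨KaehlerDifferential.linearMapEquivDerivation k T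
    ((LinearMap.liftBaseChange T d.liftKaehlerDifferential).comp
      (KaehlerDifferential.tensorKaehlerEquivOfFormallyEtale k S T).symm.toLinearMap), ?_⟩
  intro s
  rw [KaehlerDifferential.linearMapEquivDerivation_apply_apply]
  simp only [LinearMap.coe_comp, LinearEquiv.coe_coe, Function.comp_apply]
  rw [KaehlerDifferential.tensorKaehlerEquivOfFormallyEtale_symm_D_algebraMap,
    LinearMap.liftBaseChange_tmul, one_smul, Derivation.liftKaehlerDifferential_comp_D]

/-- If `e * dL` maps `A` into `A`, it restricts to a derivation of `A`. -/
theorem exists_derivation_restrict {k A L : Type*} [CommRing k] [CommRing A] [CommRing L]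
    [Algebra k A] [Algebra k L] [Algebra A L] [IsScalarTower k A L]
    (hinj : Function.Injective (algebraMap A L)) (dL : Derivation k L L) (e : L)
    (h : ∀ a : A, ∃ a' : A, algebraMap A L a' = e * dL (algebraMap A L a)) :
    ∃ Δ : Derivation k A A, ∀ a, algebraMap A L (Δ a) = e * dL (algebraMap A L a) := by
  choose f hf using h
  have hadd : ∀ a b, f (a + b) = f a + f b := by
    intro a b
    apply hinj
    rw [map_add, hf, hf, hf, map_add, map_add, mul_add]
  have hsm : ∀ (r : k) (y : A), algebraMap A L (r • y) = r • algebraMap A L y := by
    intro r y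
    rw [Algebra.smul_def, map_mul, ← IsScalarTower.algebraMap_apply, Algebra.smul_def]
  have hsmul : ∀ (r : k) (a : A), f (r • a) = r • f a := by
    intro r a
    apply hinj
    rw [hf, hsm, hsm, hf, Derivation.map_smul, mul_smul_comm]
  let fl : A →ₗ[k] A :=
    { toFun := f
      map_add' := hadd
      map_smul' := by
        intro r a
        simpa using hsmul r a }
  refine ⟨Derivation.mk' fl ?_, ?_⟩
  · intro a b
    apply hinj
    change algebraMap A L (f (a * b)) = algebraMap A L (a • f b + b • f a)
    simp only [hf, map_mul, map_add, smul_eq_mul, Derivation.leibniz]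
    ring
  · intro a
    exact hf a

/-- A derivation of `A` with values in a field `L ⊇ A` which kills a subring `S` over which `A` is
integral is zero (characteristic zero). -/
theorem derivation_eq_zero_of_integral {S A L : Type*} [CommRing S] [IsDomain S] [CharZero S]
    [CommRing A] [Field L] [Algebra S A] [Algebra A L]
    [Algebra.IsIntegral S A] (hinjS : Function.Injective (algebraMap S A))
    (hinj : Function.Injective (algebraMap A L))
    (E : Derivation ℤ A L) (hE : ∀ s : S, E (algebraMap S A s) = 0) (a : A) : E a = 0 := by
  classical
  have key : ∀ P : Polynomial S, E (Polynomial.aeval a P)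
      = algebraMap A L (Polynomial.aeval a (Polynomial.derivative P)) * E a := by
    intro P
    induction P using Polynomial.induction_on' with
    | add p q hp hq =>
      rw [map_add, map_add, hp, hq, Polynomial.derivative_add, map_add, map_add, add_mul]
    | monomial n s =>
      rw [Polynomial.aeval_monomial, Derivation.leibniz, hE, smul_zero, add_zero,
        Derivation.leibniz_pow, Polynomial.derivative_monomial, Polynomial.aeval_monomial]
      simp only [Algebra.smul_def, map_mul, map_pow, map_natCast, eq_natCast]
      ring
  have hex : ∃ n : ℕ, ∃ P : Polynomial S, P ≠ 0 ∧ P.natDegree = n ∧ Polynomial.aeval a P = 0 := by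
    obtain ⟨P, hP, hPa⟩ := Algebra.IsIntegral.isIntegral (R := S) a
    exact ⟨P.natDegree, P, hP.ne_zero, rfl, by simpa [Polynomial.aeval_def] using hPa⟩
  obtain ⟨P, hP0, hPn, hPa⟩ := Nat.find_spec hex
  have hdeg : P.natDegree ≠ 0 := by
    intro h0
    obtain ⟨c, rfl⟩ := Polynomial.natDegree_eq_zero.1 h0
    rw [Polynomial.aeval_C] at hPa
    have : c = 0 := hinjS (by rw [hPa, map_zero])
    exact hP0 (by rw [this, map_zero])
  have hder0 : Polynomial.derivative P ≠ 0 := by
    intro h
    exact hdeg (Polynomial.derivative_eq_zero.1 h)
  have hlt : (Polynomial.derivative P).natDegree < Nat.find hex := by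
    rw [← hPn]
    exact Polynomial.natDegree_derivative_lt hdeg
  have hne : Polynomial.aeval a (Polynomial.derivative P) ≠ 0 := by
    intro h
    exact Nat.find_min hex hlt ⟨_, hder0, rfl, h⟩
  have h1 := key P
  rw [hPa, map_zero] at h1
  have h2 : algebraMap A L (Polynomial.aeval a (Polynomial.derivative P)) ≠ 0 := by
    intro h
    exact hne (hinj (by rw [h, map_zero]))
  exact (mul_eq_zero.1 h1.symm).resolve_left h2

/-- Function-style version of `derivation_eq_zero_of_integral`. -/
theorem derivation_eq_zero_of_integral' {S A L : Type*} [CommRing S] [IsDomain S] [CharZero S]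
    [CommRing A] [Field L] [Algebra S A] [Algebra A L]
    [Algebra.IsIntegral S A] (hinjS : Function.Injective (algebraMap S A))
    (hinj : Function.Injective (algebraMap A L))
    (E : A → L) (hadd : ∀ a b, E (a + b) = E a + E b)
    (hmul : ∀ a b, E (a * b) = algebraMap A L a * E b + algebraMap A L b * E a)
    (hE : ∀ s : S, E (algebraMap S A s) = 0) (a : A) : E a = 0 :=
  derivation_eq_zero_of_integral hinjS hinj
    (Derivation.mk' (AddMonoidHom.mk' E hadd).toIntLinearMap
      (fun a b => by simp [hmul, Algebra.smul_def])) hE a

end Vale.Agent.H71
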