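import Mathlib

/-!
# Trace of `c * ∂ y` for a derivation compatible with a base ring

If `L` is a finite free `K`-algebra with basis `b`, `∂` is a derivation of `L` which restricts to a
self-map `δ` of `K`, then `Tr (c * ∂ y) = tr (M c * δ (M y))` where `M` is the matrix of left
multiplication in the basis `b` and `δ` is applied entrywise.
-/

namespace Vale.Agent.H71

open Matrix

variable {K L ι : Type*} [CommRing K] [CommRing L] [Algebra K L] [Fintype ι] [DecidableEq ι]

theorem derivation_smul_of_compat (dL : Derivation ℤ L L) (δ : K → K)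
    (hδ : ∀ r, dL (algebraMap K L r) = algebraMap K L (δ r)) (r : K) (z : L) :
    dL (r • z) = δ r • z + r • dL z := by
  rw [Algebra.smul_def, Derivation.leibniz, hδ, smul_eq_mul, smul_eq_mul, Algebra.smul_def,
    Algebra.smul_def]
  ring

theorem leftMulMatrix_derivation (b : Module.Basis ι K L) (dL : Derivation ℤ L L) (δ : K → K)
    (hδ : ∀ r, dL (algebraMap K L r) = algebraMap K L (δ r)) (y : L) :
    Algebra.leftMulMatrix b (dL y) =
      (Algebra.leftMulMatrix b y).map δ
        + Matrix.of (fun i j => b.repr (dL (b j)) i) * Algebra.leftMulMatrix b y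
        - Algebra.leftMulMatrix b y * Matrix.of (fun i j => b.repr (dL (b j)) i) := by
  ext i j
  have h1 : dL y * b j = dL (y * b j) - y * dL (b j) := by
    rw [Derivation.leibniz]
    simp only [smul_eq_mul]
    ring
  have h2 : y * b j = ∑ l, Algebra.leftMulMatrix b y l j • b l := by
    conv_lhs => rw [← b.sum_repr (y * b j)]
    refine Finset.sum_congr rfl fun l _ => ?_
    rw [Algebra.leftMulMatrix_eq_repr_mul]
  have h3 : dL (y * b j) = ∑ l, (δ (Algebra.leftMulMatrix b y l j) • b l
      + Algebra.leftMulMatrix b y l j • dL (b l)) := by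
    rw [h2, map_sum]
    refine Finset.sum_congr rfl fun l _ => ?_
    exact derivation_smul_of_compat dL δ hδ _ _
  rw [Algebra.leftMulMatrix_eq_repr_mul, h1, h3, map_sub, Finset.sum_add_distrib, map_add]
  simp only [map_sum, map_smul, Finsupp.coe_sub, Finsupp.coe_add, Pi.sub_apply, Pi.add_apply,
    Finsupp.coe_finsetSum, Finset.sum_apply, Finsupp.coe_smul, Pi.smul_apply, smul_eq_mul,
    Module.Basis.repr_self, Matrix.sub_apply, Matrix.add_apply, Matrix.map_apply, Matrix.mul_apply,
    Matrix.of_apply]
  have h4 : b.repr (y * dL (b j)) i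
      = ∑ l, Algebra.leftMulMatrix b y i l * b.repr (dL (b j)) l := by
    rw [← Algebra.leftMulMatrix_mulVec_repr]
    rfl
  rw [h4]
  congr 1
  congr 1
  · rw [Finset.sum_eq_single i]
    · simp
    · intro l _ hl
      simp [hl]
    · intro hi
      exact absurd (Finset.mem_univ i) hi
  · refine Finset.sum_congr rfl fun l _ => ?_
    ring

theorem trace_mul_derivation (b : Module.Basis ι K L) (dL : Derivation ℤ L L) (δ : K → K)
    (hδ : ∀ r, dL (algebraMap K L r) = algebraMap K L (δ r)) (c y : L) :
    Algebra.trace K L (c * dL y) =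
      Matrix.trace (Algebra.leftMulMatrix b c * (Algebra.leftMulMatrix b y).map δ) := by
  rw [Algebra.trace_eq_matrix_trace b, map_mul, leftMulMatrix_derivation b dL δ hδ y]
  rw [mul_sub, mul_add, Matrix.trace_sub, Matrix.trace_add]
  have hc : Algebra.leftMulMatrix b c * Algebra.leftMulMatrix b y
      = Algebra.leftMulMatrix b y * Algebra.leftMulMatrix b c := by
    rw [← map_mul, ← map_mul, mul_comm]
  have h5 : Matrix.trace (Algebra.leftMulMatrix b c *
      (Matrix.of (fun i j => b.repr (dL (b j)) i) * Algebra.leftMulMatrix b y))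
      = Matrix.trace (Algebra.leftMulMatrix b c *
      (Algebra.leftMulMatrix b y * Matrix.of (fun i j => b.repr (dL (b j)) i))) := by
    rw [← Matrix.mul_assoc, Matrix.trace_mul_comm, ← Matrix.mul_assoc, ← hc, Matrix.mul_assoc]
  rw [h5]
  ring

end Vale.Agent.H71
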