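import Mathlib
import Vale.Agent.H71.TraceDeriv

/-!
# Derivations and the trace dual over a principal ideal domain
-/

namespace Vale.Agent.H71

open scoped nonZeroDivisors

section

variable {R K L : Type*} [CommRing R] [IsDomain R] [IsPrincipalIdealRing R]
  [Field K] [Field L] [Algebra R K] [IsFractionRing R K] [Algebra K L] [Algebra R L]
  [IsScalarTower R K L] [FiniteDimensional K L] [Algebra.IsSeparable K L]

/-- A derivation of `L` preserving the image of `R` preserves the image of `K = Frac R`. -/
theorem derivation_preserves_fractions (dL : Derivation ℤ L L)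
    (hR : ∀ r : R, ∃ r' : R, dL (algebraMap R L r) = algebraMap R L r') (f : K) :
    ∃ f' : K, dL (algebraMap K L f) = algebraMap K L f' := by
  obtain ⟨u, v, rfl⟩ := IsLocalization.exists_mk'_eq R⁰ f
  obtain ⟨u', hu'⟩ := hR u
  obtain ⟨v', hv'⟩ := hR v
  have hv0 : algebraMap R K (v : R) ≠ 0 :=
    IsFractionRing.to_map_ne_zero_of_mem_nonZeroDivisors v.2
  have hvL : algebraMap K L (algebraMap R K (v : R)) ≠ 0 := by
    simp [hv0]
  refine ⟨(algebraMap R K u' - IsLocalization.mk' K u v * algebraMap R K v')
    / algebraMap R K (v : R), ?_⟩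
  have key : IsLocalization.mk' K u v * algebraMap R K (v : R) = algebraMap R K u :=
    IsLocalization.mk'_spec K u v
  have h1 := congrArg (fun z => dL (algebraMap K L z)) key
  simp only [map_mul, Derivation.leibniz, smul_eq_mul] at h1
  rw [← IsScalarTower.algebraMap_apply R K L, ← IsScalarTower.algebraMap_apply R K L, hu', hv',
    IsScalarTower.algebraMap_apply R K L, IsScalarTower.algebraMap_apply R K L u'] at h1
  rw [map_div₀, map_sub, map_mul, eq_div_iff hvL]
  rw [← h1]
  rw [IsScalarTower.algebraMap_apply R K L (v : R)]
  ring

/-- Key integrality statement: for `c`, `y` integral over the PID `R` and a derivation `dL` of `L`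
preserving the image of `R`, the trace of `c * dL y` lies in `R`. -/
theorem trace_mul_derivation_mem (dL : Derivation ℤ L L)
    (hR : ∀ r : R, ∃ r' : R, dL (algebraMap R L r) = algebraMap R L r')
    (c y : L) (hc : IsIntegral R c) (hy : IsIntegral R y) :
    Algebra.trace K L (c * dL y) ∈ (algebraMap R K).range := by
  classical
  have htf : Module.IsTorsionFree R L := .trans_faithfulSMul R K L
  have hfree : Module.Free R (integralClosure R L) :=
    IsIntegralClosure.module_free R K L (integralClosure R L)
  have hfin : Module.Finite R (integralClosure R L) :=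
    IsIntegralClosure.finite R K L (integralClosure R L)
  have hloc : IsLocalization (Algebra.algebraMapSubmonoid (integralClosure R L) R⁰) L :=
    IsIntegralClosure.isLocalization R K L (integralClosure R L)
  let bR := Module.Free.chooseBasis R (integralClosure R L)
  let b := bR.localizationLocalization K R⁰ L
  choose δ hδ using derivation_preserves_fractions (R := R) (K := K) dL hR
  rw [trace_mul_derivation b dL δ hδ c y]
  let c' : integralClosure R L := ⟨c, hc⟩
  let y' : integralClosure R L := ⟨y, hy⟩
  have hc' : Algebra.leftMulMatrix b c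
      = (algebraMap R K).mapMatrix (Algebra.leftMulMatrix bR c') :=
    (Algebra.map_leftMulMatrix_localization R R⁰ bR c').symm
  have hy' : Algebra.leftMulMatrix b y
      = (algebraMap R K).mapMatrix (Algebra.leftMulMatrix bR y') :=
    (Algebra.map_leftMulMatrix_localization R R⁰ bR y').symm
  have hδR : ∀ r : R, ∃ r' : R, δ (algebraMap R K r) = algebraMap R K r' := by
    intro r
    obtain ⟨r', hr'⟩ := hR r
    refine ⟨r', (algebraMap K L).injective ?_⟩
    rw [← hδ, ← IsScalarTower.algebraMap_apply, hr', IsScalarTower.algebraMap_apply R K L]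
  choose δR hδR' using hδR
  have hmap : (Algebra.leftMulMatrix b y).map δ
      = (algebraMap R K).mapMatrix ((Algebra.leftMulMatrix bR y').map δR) := by
    rw [hy']
    ext i j
    simp [hδR']
  rw [hmap, hc', ← map_mul]
  refine ⟨Matrix.trace (Algebra.leftMulMatrix bR c' * (Algebra.leftMulMatrix bR y').map δR), ?_⟩
  exact AddMonoidHom.map_trace (algebraMap R K) _

end

end Vale.Agent.H71

namespace Vale.Agent.H71

open scoped nonZeroDivisors

section

variable {R K L : Type*} [CommRing R] [IsDomain R] [IsPrincipalIdealRing R]
  [Field K] [Field L] [Algebra R K] [IsFractionRing R K] [Algebra K L] [Algebra R L]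
  [IsScalarTower R K L] [FiniteDimensional K L] [Algebra.IsSeparable K L]

/-- Duality step: if `e * w` is integral for every `e` such that `e * dL` preserves integrality,
then `w` lies in the trace dual of the integral closure. -/
theorem trace_mul_mem_of_forall (dL : Derivation ℤ L L)
    (hR : ∀ r : R, ∃ r' : R, dL (algebraMap R L r) = algebraMap R L r')
    (w : L)
    (hw : ∀ e : L, (∀ y : L, IsIntegral R y → IsIntegral R (e * dL y)) → IsIntegral R (e * w))
    (c : L) (hc : IsIntegral R c) :
    Algebra.trace K L (c * w) ∈ (algebraMap R K).range := by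
  classical
  have hded : IsDedekindDomain (integralClosure R L) := integralClosure.isDedekindDomain R K L
  have hfrac : IsFractionRing (integralClosure R L) L :=
    integralClosure.isFractionRing_of_finite_extension K L
  have hmem1 : ∀ z : L, z ∈ (1 : FractionalIdeal (integralClosure R L)⁰ L) ↔ IsIntegral R z := by
    intro z
    rw [FractionalIdeal.mem_one_iff]
    constructor
    · rintro ⟨z', rfl⟩
      exact z'.2
    · intro hz
      exact ⟨⟨z, hz⟩, rfl⟩
  have h1 : (1 : FractionalIdeal (integralClosure R L)⁰ L) ≠ 0 := one_ne_zero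
  have hI : FractionalIdeal.dual R K (1 : FractionalIdeal (integralClosure R L)⁰ L) ≠ 0 :=
    FractionalIdeal.dual_ne_zero R K h1
  have claim1 : ∀ y : L, IsIntegral R y →
      dL y ∈ FractionalIdeal.dual R K (1 : FractionalIdeal (integralClosure R L)⁰ L) := by
    intro y hy
    rw [FractionalIdeal.mem_dual h1]
    intro a ha
    rw [Algebra.traceForm_apply, mul_comm]
    exact trace_mul_derivation_mem dL hR a y ((hmem1 a).1 ha) hy
  have claim2 : ∀ e : L,
      e ∈ (FractionalIdeal.dual R K (1 : FractionalIdeal (integralClosure R L)⁰ L))⁻¹ →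
      IsIntegral R (e * w) := by
    intro e he
    refine hw e fun y hy => ?_
    rw [← hmem1, ← inv_mul_cancel₀ hI]
    exact FractionalIdeal.mul_mem_mul he (claim1 y hy)
  have claim3 : w ∈ FractionalIdeal.dual R K (1 : FractionalIdeal (integralClosure R L)⁰ L) := by
    rw [← inv_inv (FractionalIdeal.dual R K (1 : FractionalIdeal (integralClosure R L)⁰ L)),
      FractionalIdeal.mem_inv_iff (inv_ne_zero hI)]
    intro e he
    rw [hmem1, mul_comm]
    exact claim2 e he
  rw [FractionalIdeal.mem_dual h1] at claim3
  have := claim3 c ((hmem1 c).2 hc)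
  rwa [Algebra.traceForm_apply, mul_comm] at this

/-- Function-style version of `trace_mul_mem_of_forall`, convenient at use sites. -/
theorem trace_mul_mem_of_forall' (dL : L → L) (hadd : ∀ a b, dL (a + b) = dL a + dL b)
    (hmul : ∀ a b, dL (a * b) = a * dL b + b * dL a)
    (hR : ∀ r : R, ∃ r' : R, dL (algebraMap R L r) = algebraMap R L r')
    (w : L)
    (hw : ∀ e : L, (∀ y : L, IsIntegral R y → IsIntegral R (e * dL y)) → IsIntegral R (e * w))
    (c : L) (hc : IsIntegral R c) :
    Algebra.trace K L (c * w) ∈ (algebraMap R K).range :=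
  trace_mul_mem_of_forall
    (Derivation.mk' (AddMonoidHom.mk' dL hadd).toIntLinearMap
      (fun a b => by simp [hmul])) hR w hw c hc

end

end Vale.Agent.H71
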