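import Mathlib

/-!
# Localising a UFD at a prime element
-/

namespace Vale.Agent.H71

open scoped nonZeroDivisors

/-- The localisation of a Noetherian domain at the prime ideal generated by a prime element is a
principal ideal domain (indeed a discrete valuation ring). -/
theorem isPrincipalIdealRing_localization_span_prime {S : Type*} [CommRing S] [IsDomain S]
    [IsNoetherianRing S] (p : S) (hp : Prime p) [hP : (Ideal.span {p}).IsPrime] :
    IsPrincipalIdealRing (Localization.AtPrime (Ideal.span {p})) := by
  have hmax : IsLocalRing.maximalIdeal (Localization.AtPrime (Ideal.span {p}))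
      = Ideal.span {algebraMap S (Localization.AtPrime (Ideal.span {p})) p} := by
    rw [← Localization.AtPrime.map_eq_maximalIdeal, Ideal.map_span, Set.image_singleton]
  have hp0 : algebraMap S (Localization.AtPrime (Ideal.span {p})) p ≠ 0 := by
    intro h
    have := (IsLocalization.to_map_eq_zero_iff (Localization.AtPrime (Ideal.span {p}))
      (Ideal.span {p}).primeCompl_le_nonZeroDivisors).1 h
    exact hp.ne_zero this
  have hnf : ¬ IsField (Localization.AtPrime (Ideal.span {p})) := by
    rw [IsLocalRing.isField_iff_maximalIdeal_eq, hmax, Ideal.span_singleton_eq_bot]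
    exact hp0
  have hprin : (IsLocalRing.maximalIdeal (Localization.AtPrime (Ideal.span {p}))).IsPrincipal :=
    ⟨⟨_, hmax⟩⟩
  have hdvr : IsDiscreteValuationRing (Localization.AtPrime (Ideal.span {p})) :=
    ((IsDiscreteValuationRing.TFAE (Localization.AtPrime (Ideal.span {p})) hnf).out 0 4).mpr hprin
  infer_instance

/-- In a UFD, an element of the fraction field which has, for every prime `p`, a denominator
prime to `p`, lies in the ring. -/
theorem mem_range_of_forall_prime {S F : Type*} [CommRing S] [IsDomain S]
    [UniqueFactorizationMonoid S] [Field F] [Algebra S F] [IsFractionRing S F] (t : F)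
    (h : ∀ p : S, Prime p → ∃ u v : S, ¬ p ∣ v ∧ t * algebraMap S F v = algebraMap S F u) :
    t ∈ (algebraMap S F).range := by
  obtain ⟨a, b, hab, rfl⟩ := IsFractionRing.exists_reduced_fraction (A := S) t
  by_cases hb : IsUnit (b : S)
  · obtain ⟨c, hc⟩ := hb.exists_left_inv
    refine ⟨a * c, ?_⟩
    rw [eq_comm, IsLocalization.mk'_eq_iff_eq_mul, ← map_mul]
    congr 1
    calc a = a * (c * b) := by rw [hc, mul_one]
      _ = a * c * b := by ring
  · exfalso
    have hb0 : (b : S) ≠ 0 := nonZeroDivisors.coe_ne_zero b
    obtain ⟨p, hpirr, hpb⟩ := WfDvdMonoid.exists_irreducible_factor hb hb0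
    have hp : Prime p := UniqueFactorizationMonoid.irreducible_iff_prime.1 hpirr
    obtain ⟨u, v, hpv, huv⟩ := h p hp
    have key : a * v = u * b := by
      apply IsFractionRing.injective S F
      rw [map_mul, map_mul, ← huv]
      have := IsLocalization.mk'_spec F a b
      rw [mul_assoc, mul_comm (algebraMap S F v), ← mul_assoc, this]
    have hpa : p ∣ a := by
      have : p ∣ a * v := key ▸ Dvd.dvd.mul_left hpb u
      exact (hp.dvd_or_dvd this).resolve_right hpv
    exact hpirr.not_isUnit (hab hpa hpb)

/-- Membership in the image of the localisation at `(p)` gives a denominator prime to `p`. -/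
theorem exists_frac_of_mem_range_localization {S F : Type*} [CommRing S] [IsDomain S]
    [Field F] [Algebra S F] [IsFractionRing S F] (p : S) [hP : (Ideal.span {p}).IsPrime]
    [Algebra (Localization.AtPrime (Ideal.span {p})) F]
    [IsScalarTower S (Localization.AtPrime (Ideal.span {p})) F]
    (t : F) (ht : t ∈ (algebraMap (Localization.AtPrime (Ideal.span {p})) F).range) :
    ∃ u v : S, ¬ p ∣ v ∧ t * algebraMap S F v = algebraMap S F u := by
  obtain ⟨r, rfl⟩ := ht
  obtain ⟨u, v, rfl⟩ := IsLocalization.exists_mk'_eq (Ideal.span {p}).primeCompl r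
  refine ⟨u, v, ?_, ?_⟩
  · have := v.2
    rw [Ideal.mem_primeCompl_iff, Ideal.mem_span_singleton] at this
    exact this
  · rw [IsScalarTower.algebraMap_apply S (Localization.AtPrime (Ideal.span {p})) F,
      IsScalarTower.algebraMap_apply S (Localization.AtPrime (Ideal.span {p})) F, ← map_mul,
      IsLocalization.mk'_spec]

end Vale.Agent.H71
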