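import Mathlib
import Vale.Agent.H71.LocalDual
import Vale.Agent.H71.UFDLocal
import Vale.Agent.H71.ExtendDer

/-!
# Global assembly: derivations of a normal domain finite over a polynomial ring
-/

set_option linter.unusedSectionVars false
set_option linter.style.haveILetI false

namespace Vale.Agent.H71

open scoped nonZeroDivisors

section Global

variable {k : Type*} [Field k] [CharZero k] {d : ℕ}
  {A : Type*} [CommRing A] [IsDomain A] [Algebra k A] [IsIntegrallyClosed A]
  [Algebra (MvPolynomial (Fin d) k) A] [IsScalarTower k (MvPolynomial (Fin d) k) A]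
  [FaithfulSMul (MvPolynomial (Fin d) k) A] [Module.Finite (MvPolynomial (Fin d) k) A]

attribute [local instance] FractionRing.liftAlgebra FractionRing.isScalarTower_liftAlgebra

omit [CharZero k] [IsIntegrallyClosed A] [Module.Finite (MvPolynomial (Fin d) k) A] in
/-- Extension of the property `e * dL a ∈ A` from module generators to all of `A`. -/
theorem span_extend (dL : Derivation k (FractionRing A) (FractionRing A))
    (hdL : ∀ s : MvPolynomial (Fin d) k, ∃ s' : MvPolynomial (Fin d) k,
      dL (algebraMap (MvPolynomial (Fin d) k) (FractionRing A) s)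
        = algebraMap (MvPolynomial (Fin d) k) (FractionRing A) s')
    (e : FractionRing A) (he : ∃ h₀ : A, algebraMap A (FractionRing A) h₀ = e)
    (T : Set A) (hT : Submodule.span (MvPolynomial (Fin d) k) T = ⊤)
    (hgen : ∀ t ∈ T, ∃ a' : A, algebraMap A (FractionRing A) a'
      = e * dL (algebraMap A (FractionRing A) t)) (a : A) :
    ∃ a' : A, algebraMap A (FractionRing A) a' = e * dL (algebraMap A (FractionRing A) a) := by
  have ha : a ∈ Submodule.span (MvPolynomial (Fin d) k) T := by rw [hT]; trivial
  induction ha using Submodule.span_induction with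
  | mem t ht => exact hgen t ht
  | zero => exact ⟨0, by simp⟩
  | add a b _ _ iha ihb =>
    obtain ⟨a', ha'⟩ := iha
    obtain ⟨b', hb'⟩ := ihb
    exact ⟨a' + b', by rw [map_add, ha', hb', map_add, map_add, mul_add]⟩
  | smul s a _ iha =>
    obtain ⟨a', ha'⟩ := iha
    obtain ⟨h₀, rfl⟩ := he
    obtain ⟨s', hs'⟩ := hdL s
    refine ⟨s • a' + h₀ * a * algebraMap (MvPolynomial (Fin d) k) A s', ?_⟩
    rw [Algebra.smul_def, Algebra.smul_def, map_add, map_mul, map_mul, map_mul, map_mul, ha',
      Derivation.leibniz, ← IsScalarTower.algebraMap_apply, ← IsScalarTower.algebraMap_apply,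
      hs']
    simp only [smul_eq_mul]
    ring

omit [CharZero k] [Algebra k A] [IsScalarTower k (MvPolynomial (Fin d) k) A]
  [Module.Finite (MvPolynomial (Fin d) k) A] in
/-- A common multiplier outside `(p)` bringing finitely many `Rp`-integral elements into `A`. -/
theorem exists_common_multiplier (p : MvPolynomial (Fin d) k) [hP : (Ideal.span {p}).IsPrime]
    [Algebra (Localization.AtPrime (Ideal.span {p})) (FractionRing A)]
    [IsScalarTower (MvPolynomial (Fin d) k) (Localization.AtPrime (Ideal.span {p}))
      (FractionRing A)]
    (X : Finset (FractionRing A))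
    (hX : ∀ y ∈ X, IsIntegral (Localization.AtPrime (Ideal.span {p})) y) :
    ∃ s : MvPolynomial (Fin d) k, s ∈ (Ideal.span {p}).primeCompl ∧
      ∀ y ∈ X, ∃ a' : A, algebraMap A (FractionRing A) a'
        = algebraMap (MvPolynomial (Fin d) k) (FractionRing A) s * y := by
  classical
  induction X using Finset.induction_on with
  | empty => exact ⟨1, Submonoid.one_mem _, by simp⟩
  | insert y X hy ih =>
    obtain ⟨s, hs, hsX⟩ := ih fun z hz => hX z (Finset.mem_insert_of_mem hz)
    obtain ⟨m, hm⟩ := IsIntegral.exists_multiple_integral_of_isLocalization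
      (Ideal.span {p}).primeCompl y (hX y (Finset.mem_insert_self y X))
    have hm' : IsIntegral A ((m : MvPolynomial (Fin d) k) • y) := by
      have := hm.tower_top (A := A)
      rwa [Submonoid.smul_def] at this
    obtain ⟨a', ha'⟩ := IsIntegrallyClosed.isIntegral_iff.mp hm'
    refine ⟨(m : MvPolynomial (Fin d) k) * s, Submonoid.mul_mem _ m.2 hs, ?_⟩
    intro z hz
    rcases Finset.mem_insert.1 hz with rfl | hz
    · refine ⟨s • a', ?_⟩
      rw [Algebra.smul_def, map_mul, ha', ← IsScalarTower.algebraMap_apply, Algebra.smul_def,
        map_mul]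
      ring
    · obtain ⟨b', hb'⟩ := hsX z hz
      refine ⟨(m : MvPolynomial (Fin d) k) • b', ?_⟩
      rw [Algebra.smul_def, map_mul, hb', ← IsScalarTower.algebraMap_apply, map_mul]
      ring

omit [CharZero k] in
/-- Elements of `A` are integral over the localisation of the polynomial ring. -/
theorem isIntegral_localization_algebraMap (p : MvPolynomial (Fin d) k)
    [hP : (Ideal.span {p}).IsPrime]
    [Algebra (Localization.AtPrime (Ideal.span {p})) (FractionRing A)]
    [IsScalarTower (MvPolynomial (Fin d) k) (Localization.AtPrime (Ideal.span {p}))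
      (FractionRing A)] (a : A) :
    IsIntegral (Localization.AtPrime (Ideal.span {p})) (algebraMap A (FractionRing A) a) := by
  have h1 : IsIntegral (MvPolynomial (Fin d) k) a := Algebra.IsIntegral.isIntegral a
  have h2 : IsIntegral (MvPolynomial (Fin d) k) (algebraMap A (FractionRing A) a) :=
    h1.algebraMap
  exact h2.tower_top

omit [CharZero k] in
/-- The local integrality statement feeding the duality lemma. -/
theorem isIntegral_mul_w (p : MvPolynomial (Fin d) k) [hP : (Ideal.span {p}).IsPrime]
    [Algebra (Localization.AtPrime (Ideal.span {p})) (FractionRing A)]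
    [IsScalarTower (MvPolynomial (Fin d) k) (Localization.AtPrime (Ideal.span {p}))
      (FractionRing A)]
    (i : Fin d) (dL : Derivation k (FractionRing A) (FractionRing A))
    (hdL : ∀ s : MvPolynomial (Fin d) k,
      dL (algebraMap (MvPolynomial (Fin d) k) (FractionRing A) s)
        = algebraMap (MvPolynomial (Fin d) k) (FractionRing A) (MvPolynomial.pderiv i s))
    (g : A) (hg : g ≠ 0) (Δ : Derivation k A A)
    (hΔ : ∀ a, algebraMap A (FractionRing A) (Δ a)
      = algebraMap A (FractionRing A) g * dL (algebraMap A (FractionRing A) a))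
    (lam : Derivation k A A →ₗ[A] A) (e : FractionRing A)
    (he : ∀ y, IsIntegral (Localization.AtPrime (Ideal.span {p})) y →
      IsIntegral (Localization.AtPrime (Ideal.span {p})) (e * dL y)) :
    IsIntegral (Localization.AtPrime (Ideal.span {p}))
      (e * (algebraMap A (FractionRing A) (lam Δ) / algebraMap A (FractionRing A) g)) := by
  classical
  have hintA := isIntegral_localization_algebraMap (A := A) p
  have he1 : IsIntegral (Localization.AtPrime (Ideal.span {p})) e := by
    have h := he (algebraMap A (FractionRing A)
      (algebraMap (MvPolynomial (Fin d) k) A (MvPolynomial.X i))) (hintA _)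
    rw [← IsScalarTower.algebraMap_apply, hdL, MvPolynomial.pderiv_X_self, map_one, mul_one] at h
    exact h
  obtain ⟨T, hT⟩ := Module.Finite.fg_top (R := MvPolynomial (Fin d) k) (M := A)
  have hXs : ∀ y ∈ insert e (T.image fun t => e * dL (algebraMap A (FractionRing A) t)),
      IsIntegral (Localization.AtPrime (Ideal.span {p})) y := by
    intro y hy
    rcases Finset.mem_insert.1 hy with rfl | hy
    · exact he1
    · obtain ⟨t, -, rfl⟩ := Finset.mem_image.1 hy
      exact he _ (hintA t)
  obtain ⟨s, hs, hsX⟩ := exists_common_multiplier (A := A) p _ hXs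
  have hs0 : algebraMap (MvPolynomial (Fin d) k) (FractionRing A) s ≠ 0 := by
    intro h
    have h' : s = 0 := by
      apply FaithfulSMul.algebraMap_injective (MvPolynomial (Fin d) k) (FractionRing A)
      rw [h, map_zero]
    rw [h'] at hs
    exact hs (Ideal.zero_mem _)
  obtain ⟨h₀, hh₀⟩ := hsX e (Finset.mem_insert_self _ _)
  have hgen : ∀ t ∈ (T : Set A), ∃ a' : A, algebraMap A (FractionRing A) a'
      = (algebraMap (MvPolynomial (Fin d) k) (FractionRing A) s * e)
        * dL (algebraMap A (FractionRing A) t) := by
    intro t ht
    obtain ⟨a', ha'⟩ := hsX (e * dL (algebraMap A (FractionRing A) t))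
      (Finset.mem_insert_of_mem (Finset.mem_image_of_mem _ ht))
    exact ⟨a', by rw [ha', mul_assoc]⟩
  have hall := span_extend dL (fun s => ⟨_, hdL s⟩)
    (algebraMap (MvPolynomial (Fin d) k) (FractionRing A) s * e) ⟨h₀, hh₀⟩ (T : Set A) hT hgen
  obtain ⟨Δ', hΔ'⟩ := exists_derivation_restrict (IsFractionRing.injective A (FractionRing A)) dL
    (algebraMap (MvPolynomial (Fin d) k) (FractionRing A) s * e) hall
  have hrel : g • Δ' = h₀ • Δ := by
    ext a
    apply IsFractionRing.injective A (FractionRing A)
    simp only [Derivation.smul_apply, smul_eq_mul, map_mul, hΔ', hΔ, hh₀]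
    ring
  have hlam : g * lam Δ' = h₀ * lam Δ := by
    have := congrArg lam hrel
    simpa using this
  have hgL : algebraMap A (FractionRing A) g ≠ 0 := by
    intro h
    exact hg (IsFractionRing.injective A (FractionRing A) (by rw [h, map_zero]))
  have h1 : algebraMap A (FractionRing A) g * algebraMap A (FractionRing A) (lam Δ')
      = algebraMap (MvPolynomial (Fin d) k) (FractionRing A) s * e
        * algebraMap A (FractionRing A) (lam Δ) := by
    rw [← map_mul, hlam, map_mul, hh₀]
  have h2 : algebraMap (Localization.AtPrime (Ideal.span {p})) (FractionRing A)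
      (IsLocalization.mk' (Localization.AtPrime (Ideal.span {p})) (1 : MvPolynomial (Fin d) k)
        (⟨s, hs⟩ : (Ideal.span {p}).primeCompl))
      * algebraMap (MvPolynomial (Fin d) k) (FractionRing A) s = 1 := by
    rw [IsScalarTower.algebraMap_apply (MvPolynomial (Fin d) k)
      (Localization.AtPrime (Ideal.span {p})) (FractionRing A), ← map_mul]
    have := IsLocalization.mk'_spec (Localization.AtPrime (Ideal.span {p}))
      (1 : MvPolynomial (Fin d) k) (⟨s, hs⟩ : (Ideal.span {p}).primeCompl)
    rw [this, map_one, map_one]
  have hfinal : e * (algebraMap A (FractionRing A) (lam Δ) / algebraMap A (FractionRing A) g)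
      = algebraMap (Localization.AtPrime (Ideal.span {p})) (FractionRing A)
      (IsLocalization.mk' (Localization.AtPrime (Ideal.span {p})) (1 : MvPolynomial (Fin d) k)
        (⟨s, hs⟩ : (Ideal.span {p}).primeCompl)) * algebraMap A (FractionRing A) (lam Δ') := by
    rw [mul_div_assoc', div_eq_iff hgL]
    calc e * algebraMap A (FractionRing A) (lam Δ)
        = (algebraMap (Localization.AtPrime (Ideal.span {p})) (FractionRing A)
          (IsLocalization.mk' (Localization.AtPrime (Ideal.span {p}))
            (1 : MvPolynomial (Fin d) k) (⟨s, hs⟩ : (Ideal.span {p}).primeCompl))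
          * algebraMap (MvPolynomial (Fin d) k) (FractionRing A) s)
          * (e * algebraMap A (FractionRing A) (lam Δ)) := by rw [h2, one_mul]
      _ = algebraMap (Localization.AtPrime (Ideal.span {p})) (FractionRing A)
          (IsLocalization.mk' (Localization.AtPrime (Ideal.span {p}))
            (1 : MvPolynomial (Fin d) k) (⟨s, hs⟩ : (Ideal.span {p}).primeCompl))
          * (algebraMap (MvPolynomial (Fin d) k) (FractionRing A) s * e
            * algebraMap A (FractionRing A) (lam Δ)) := by ring
      _ = _ := by rw [← h1]; ring
  rw [hfinal]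
  exact isIntegral_algebraMap.mul (hintA _)

omit [CharZero k] [IsIntegrallyClosed A] [Module.Finite (MvPolynomial (Fin d) k) A] in
/-- The extended partial derivative preserves the image of the localisation at `(p)`. -/
theorem derivation_preserves_localization (p : MvPolynomial (Fin d) k)
    [hP : (Ideal.span {p}).IsPrime]
    [Algebra (Localization.AtPrime (Ideal.span {p})) (FractionRing A)]
    [IsScalarTower (MvPolynomial (Fin d) k) (Localization.AtPrime (Ideal.span {p}))
      (FractionRing A)]
    (i : Fin d) (dL : Derivation k (FractionRing A) (FractionRing A))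
    (hdL : ∀ s : MvPolynomial (Fin d) k,
      dL (algebraMap (MvPolynomial (Fin d) k) (FractionRing A) s)
        = algebraMap (MvPolynomial (Fin d) k) (FractionRing A) (MvPolynomial.pderiv i s))
    (r : Localization.AtPrime (Ideal.span {p})) :
    ∃ r' : Localization.AtPrime (Ideal.span {p}),
      dL (algebraMap (Localization.AtPrime (Ideal.span {p})) (FractionRing A) r)
        = algebraMap (Localization.AtPrime (Ideal.span {p})) (FractionRing A) r' := by
  obtain ⟨u, v, rfl⟩ := IsLocalization.exists_mk'_eq (Ideal.span {p}).primeCompl r
  refine ⟨(algebraMap (MvPolynomial (Fin d) k) (Localization.AtPrime (Ideal.span {p}))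
      (MvPolynomial.pderiv i u)
    - IsLocalization.mk' (Localization.AtPrime (Ideal.span {p})) u v
      * algebraMap (MvPolynomial (Fin d) k) (Localization.AtPrime (Ideal.span {p}))
        (MvPolynomial.pderiv i (v : MvPolynomial (Fin d) k)))
    * IsLocalization.mk' (Localization.AtPrime (Ideal.span {p})) (1 : MvPolynomial (Fin d) k) v, ?_⟩
  have hv0 : algebraMap (MvPolynomial (Fin d) k) (FractionRing A) (v : MvPolynomial (Fin d) k)
      ≠ 0 := by
    intro h
    have h' : (v : MvPolynomial (Fin d) k) = 0 := by
      apply FaithfulSMul.algebraMap_injective (MvPolynomial (Fin d) k) (FractionRing A)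
      rw [h, map_zero]
    exact v.2 (h' ▸ Ideal.zero_mem _)
  have h1 : algebraMap (Localization.AtPrime (Ideal.span {p})) (FractionRing A)
      (IsLocalization.mk' (Localization.AtPrime (Ideal.span {p})) u v)
      * algebraMap (MvPolynomial (Fin d) k) (FractionRing A) (v : MvPolynomial (Fin d) k)
      = algebraMap (MvPolynomial (Fin d) k) (FractionRing A) u := by
    rw [IsScalarTower.algebraMap_apply (MvPolynomial (Fin d) k)
      (Localization.AtPrime (Ideal.span {p})) (FractionRing A), ← map_mul,
      IsLocalization.mk'_spec, ← IsScalarTower.algebraMap_apply]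
  have h2 : algebraMap (Localization.AtPrime (Ideal.span {p})) (FractionRing A)
      (IsLocalization.mk' (Localization.AtPrime (Ideal.span {p})) (1 : MvPolynomial (Fin d) k) v)
      * algebraMap (MvPolynomial (Fin d) k) (FractionRing A) (v : MvPolynomial (Fin d) k)
      = 1 := by
    rw [IsScalarTower.algebraMap_apply (MvPolynomial (Fin d) k)
      (Localization.AtPrime (Ideal.span {p})) (FractionRing A), ← map_mul,
      IsLocalization.mk'_spec, map_one, map_one]
  have h3 := congrArg dL h1
  rw [Derivation.leibniz, hdL, hdL] at h3
  simp only [smul_eq_mul] at h3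
  rw [map_mul, map_sub, map_mul, ← IsScalarTower.algebraMap_apply,
    ← IsScalarTower.algebraMap_apply]
  apply mul_right_cancel₀ hv0
  rw [mul_assoc, h2, mul_one, ← h3]
  ring

/-- Core statement: the coefficient `lam Δ / g` lies in the trace dual of `A` over the
polynomial ring. -/
theorem core_trace_mem (i : Fin d) (dL : Derivation k (FractionRing A) (FractionRing A))
    (hdL : ∀ s : MvPolynomial (Fin d) k,
      dL (algebraMap (MvPolynomial (Fin d) k) (FractionRing A) s)
        = algebraMap (MvPolynomial (Fin d) k) (FractionRing A) (MvPolynomial.pderiv i s))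
    (g : A) (hg : g ≠ 0) (Δ : Derivation k A A)
    (hΔ : ∀ a, algebraMap A (FractionRing A) (Δ a)
      = algebraMap A (FractionRing A) g * dL (algebraMap A (FractionRing A) a))
    (lam : Derivation k A A →ₗ[A] A) (z : A) :
    Algebra.trace (FractionRing (MvPolynomial (Fin d) k)) (FractionRing A)
      (algebraMap A (FractionRing A) z
        * (algebraMap A (FractionRing A) (lam Δ) / algebraMap A (FractionRing A) g))
    ∈ (algebraMap (MvPolynomial (Fin d) k) (FractionRing (MvPolynomial (Fin d) k))).range := by
  apply mem_range_of_forall_prime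
  intro p hp
  haveI hP : (Ideal.span {p}).IsPrime := (Ideal.span_singleton_prime hp.ne_zero).2 hp
  haveI := isPrincipalIdealRing_localization_span_prime p hp
  letI : Algebra (Localization.AtPrime (Ideal.span {p})) (FractionRing A) :=
    ((algebraMap (FractionRing (MvPolynomial (Fin d) k)) (FractionRing A)).comp
      (algebraMap (Localization.AtPrime (Ideal.span {p}))
        (FractionRing (MvPolynomial (Fin d) k)))).toAlgebra
  haveI : IsScalarTower (Localization.AtPrime (Ideal.span {p}))
      (FractionRing (MvPolynomial (Fin d) k)) (FractionRing A) :=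
    IsScalarTower.of_algebraMap_eq (fun _ => rfl)
  haveI : IsScalarTower (MvPolynomial (Fin d) k) (Localization.AtPrime (Ideal.span {p}))
      (FractionRing A) :=
    IsScalarTower.of_algebraMap_eq (fun s => by
      rw [IsScalarTower.algebraMap_apply (MvPolynomial (Fin d) k)
        (FractionRing (MvPolynomial (Fin d) k)) (FractionRing A),
        IsScalarTower.algebraMap_apply (MvPolynomial (Fin d) k)
        (Localization.AtPrime (Ideal.span {p})) (FractionRing (MvPolynomial (Fin d) k))]
      rfl)
  haveI : FiniteDimensional (FractionRing (MvPolynomial (Fin d) k)) (FractionRing A) :=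
    .of_isLocalization (MvPolynomial (Fin d) k) A (MvPolynomial (Fin d) k)⁰
  apply exists_frac_of_mem_range_localization p
  have hmul : ∀ a b : FractionRing A, dL (a * b) = a * dL b + b * dL a := by
    intro a b
    rw [Derivation.leibniz]
    simp only [smul_eq_mul]
  exact trace_mul_mem_of_forall' (R := Localization.AtPrime (Ideal.span {p}))
    (K := FractionRing (MvPolynomial (Fin d) k)) (fun y => dL y) (fun a b => map_add dL a b) hmul
    (fun r => derivation_preserves_localization p i dL hdL r)
    (algebraMap A (FractionRing A) (lam Δ) / algebraMap A (FractionRing A) g)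
    (fun e he => isIntegral_mul_w p i dL hdL g hg Δ hΔ lam e he)
    (algebraMap A (FractionRing A) z) (isIntegral_localization_algebraMap p z)

end Global

end Vale.Agent.H71
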