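import Mathlib
import Vale.Agent.H71.Global

/-!
# Derivations preserving a parameter ideal are not unimodular
-/

set_option linter.unusedSectionVars false
set_option linter.style.haveILetI false

namespace Vale.Agent.H71

open scoped nonZeroDivisors

section Global

variable {k : Type*} [Field k] [CharZero k] {d : ℕ}
  {A : Type*} [CommRing A] [IsDomain A] [Algebra k A] [IsIntegrallyClosed A]
  [Algebra (MvPolynomial (Fin d) k) A] [IsScalarTower k (MvPolynomial (Fin d) k) A]
  [FaithfulSMul (MvPolynomial (Fin d) k) A] [Module.Finite (MvPolynomial (Fin d) k) A]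

attribute [local instance] FractionRing.liftAlgebra FractionRing.isScalarTower_liftAlgebra

/-- The partial derivatives extend to derivations of the fraction field of `A`. -/
theorem exists_dL (i : Fin d) :
    ∃ dL : Derivation k (FractionRing A) (FractionRing A), ∀ s : MvPolynomial (Fin d) k,
      dL (algebraMap (MvPolynomial (Fin d) k) (FractionRing A) s)
        = algebraMap (MvPolynomial (Fin d) k) (FractionRing A) (MvPolynomial.pderiv i s) := by
  have : FiniteDimensional (FractionRing (MvPolynomial (Fin d) k)) (FractionRing A) :=
    .of_isLocalization (MvPolynomial (Fin d) k) A (MvPolynomial (Fin d) k)⁰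
  have h1 : Algebra.FormallyEtale (MvPolynomial (Fin d) k)
      (FractionRing (MvPolynomial (Fin d) k)) :=
    Algebra.FormallyEtale.of_isLocalization (MvPolynomial (Fin d) k)⁰
  have h2 : Algebra.FormallyEtale (FractionRing (MvPolynomial (Fin d) k)) (FractionRing A) :=
    Algebra.FormallyEtale.of_isSeparable _ _
  have h3 : Algebra.FormallyEtale (MvPolynomial (Fin d) k) (FractionRing A) :=
    Algebra.FormallyEtale.comp (MvPolynomial (Fin d) k)
      (FractionRing (MvPolynomial (Fin d) k)) (FractionRing A)
  obtain ⟨dL, hdL⟩ := exists_derivation_extension k (MvPolynomial (Fin d) k) (FractionRing A)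
    ((Algebra.linearMap (MvPolynomial (Fin d) k) (FractionRing A)).compDer
      (MvPolynomial.pderiv i))
  exact ⟨dL, fun s => by rw [hdL]; rfl⟩

/-- A common denominator `g` making all `g * dL i` preserve `A`. -/
theorem exists_common_g (dLs : Fin d → Derivation k (FractionRing A) (FractionRing A))
    (hdLs : ∀ i, ∀ s : MvPolynomial (Fin d) k,
      dLs i (algebraMap (MvPolynomial (Fin d) k) (FractionRing A) s)
        = algebraMap (MvPolynomial (Fin d) k) (FractionRing A) (MvPolynomial.pderiv i s)) :
    ∃ g : A, g ≠ 0 ∧ ∀ i, ∀ a : A, ∃ a' : A, algebraMap A (FractionRing A) a'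
      = algebraMap A (FractionRing A) g * dLs i (algebraMap A (FractionRing A) a) := by
  classical
  obtain ⟨T, hT⟩ := Module.Finite.fg_top (R := MvPolynomial (Fin d) k) (M := A)
  obtain ⟨b, hb⟩ := IsLocalization.exist_integer_multiples_of_finset A⁰
    (Finset.univ.biUnion fun i : Fin d =>
      T.image fun t => dLs i (algebraMap A (FractionRing A) t))
  refine ⟨b, nonZeroDivisors.coe_ne_zero b, fun i => ?_⟩
  refine span_extend (dLs i) (fun s => ⟨_, hdLs i s⟩) _ ⟨b, rfl⟩ (T : Set A) hT ?_
  intro t ht
  obtain ⟨a', ha'⟩ := hb (dLs i (algebraMap A (FractionRing A) t))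
    (Finset.mem_biUnion.2 ⟨i, Finset.mem_univ i, Finset.mem_image_of_mem _ ht⟩)
  exact ⟨a', by rw [ha', Algebra.smul_def]⟩

omit [CharZero k] [IsDomain A] [IsIntegrallyClosed A] [FaithfulSMul (MvPolynomial (Fin d) k) A]
  [Module.Finite (MvPolynomial (Fin d) k) A] in
/-- Chain rule for a derivation of `A` on the image of the polynomial ring. -/
theorem chain_rule (D : Derivation k A A) (s : MvPolynomial (Fin d) k) :
    D (algebraMap (MvPolynomial (Fin d) k) A s)
      = ∑ i, D (algebraMap (MvPolynomial (Fin d) k) A (MvPolynomial.X i))
          * algebraMap (MvPolynomial (Fin d) k) A (MvPolynomial.pderiv i s) := by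
  classical
  induction s using MvPolynomial.induction_on with
  | C a =>
    have : algebraMap (MvPolynomial (Fin d) k) A (MvPolynomial.C a) = algebraMap k A a := by
      rw [IsScalarTower.algebraMap_apply k (MvPolynomial (Fin d) k) A, MvPolynomial.algebraMap_eq]
    rw [this, Derivation.map_algebraMap]
    simp
  | add p q hp hq =>
    rw [map_add, map_add, hp, hq, ← Finset.sum_add_distrib]
    refine Finset.sum_congr rfl fun i _ => ?_
    rw [map_add, map_add, mul_add]
  | mul_X p j hp =>
    rw [map_mul, Derivation.leibniz, hp]
    simp only [smul_eq_mul, Derivation.leibniz, MvPolynomial.pderiv_X, map_add, map_mul,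
      mul_add, Finset.sum_add_distrib, Pi.single_apply]
    rw [Finset.mul_sum]
    have h1 : ∑ i : Fin d, D (algebraMap (MvPolynomial (Fin d) k) A (MvPolynomial.X i))
        * (algebraMap (MvPolynomial (Fin d) k) A p
          * algebraMap (MvPolynomial (Fin d) k) A (if j = i then 1 else 0))
        = algebraMap (MvPolynomial (Fin d) k) A p
          * D (algebraMap (MvPolynomial (Fin d) k) A (MvPolynomial.X j)) := by
      rw [Finset.sum_eq_single j]
      · simp [mul_comm]
      · intro i _ hij
        simp [Ne.symm hij]
      · intro hj
        exact absurd (Finset.mem_univ j) hj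
    rw [h1, add_comm]
    have h2 : ∀ i : Fin d, algebraMap (MvPolynomial (Fin d) k) A (MvPolynomial.X j)
        * (D (algebraMap (MvPolynomial (Fin d) k) A (MvPolynomial.X i))
          * algebraMap (MvPolynomial (Fin d) k) A (MvPolynomial.pderiv i p))
        = D (algebraMap (MvPolynomial (Fin d) k) A (MvPolynomial.X i))
          * (algebraMap (MvPolynomial (Fin d) k) A (MvPolynomial.X j)
            * algebraMap (MvPolynomial (Fin d) k) A (MvPolynomial.pderiv i p)) := fun i => by ring
    rw [Finset.sum_congr rfl (fun i _ => h2 i)]
    exact add_comm _ _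

/-- Every derivation of `A` is, inside the fraction field, the combination of the extended
partial derivatives with coefficients `D (x i)`. -/
theorem derivation_decomp (dLs : Fin d → Derivation k (FractionRing A) (FractionRing A))
    (hdLs : ∀ i, ∀ s : MvPolynomial (Fin d) k,
      dLs i (algebraMap (MvPolynomial (Fin d) k) (FractionRing A) s)
        = algebraMap (MvPolynomial (Fin d) k) (FractionRing A) (MvPolynomial.pderiv i s))
    (D : Derivation k A A) (a : A) :
    algebraMap A (FractionRing A) (D a)
      = ∑ i, algebraMap A (FractionRing A)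
          (D (algebraMap (MvPolynomial (Fin d) k) A (MvPolynomial.X i)))
          * dLs i (algebraMap A (FractionRing A) a) := by
  have hint : Algebra.IsIntegral (MvPolynomial (Fin d) k) A := inferInstance
  have key := derivation_eq_zero_of_integral' (S := MvPolynomial (Fin d) k) (A := A)
    (L := FractionRing A) (FaithfulSMul.algebraMap_injective _ _)
    (IsFractionRing.injective A (FractionRing A))
    (fun a => algebraMap A (FractionRing A) (D a)
      - ∑ i, algebraMap A (FractionRing A)
          (D (algebraMap (MvPolynomial (Fin d) k) A (MvPolynomial.X i)))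
          * dLs i (algebraMap A (FractionRing A) a))
    (by
      intro a b
      simp only [map_add, mul_add, Finset.sum_add_distrib]
      ring)
    (by
      intro a b
      simp only [map_mul, Derivation.leibniz, smul_eq_mul, map_add, mul_add,
        Finset.sum_add_distrib, mul_sub, Finset.mul_sum]
      have h1 : ∀ i, algebraMap A (FractionRing A)
          (D (algebraMap (MvPolynomial (Fin d) k) A (MvPolynomial.X i)))
          * (algebraMap A (FractionRing A) a * dLs i (algebraMap A (FractionRing A) b))
          = algebraMap A (FractionRing A) a * (algebraMap A (FractionRing A)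
          (D (algebraMap (MvPolynomial (Fin d) k) A (MvPolynomial.X i)))
          * dLs i (algebraMap A (FractionRing A) b)) := fun i => by ring
      have h2 : ∀ i, algebraMap A (FractionRing A)
          (D (algebraMap (MvPolynomial (Fin d) k) A (MvPolynomial.X i)))
          * (algebraMap A (FractionRing A) b * dLs i (algebraMap A (FractionRing A) a))
          = algebraMap A (FractionRing A) b * (algebraMap A (FractionRing A)
          (D (algebraMap (MvPolynomial (Fin d) k) A (MvPolynomial.X i)))
          * dLs i (algebraMap A (FractionRing A) a)) := fun i => by ring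
      simp only [h1, h2]
      ring)
    (by
      intro s
      rw [chain_rule D s, map_sum, sub_eq_zero]
      refine Finset.sum_congr rfl fun i _ => ?_
      rw [map_mul, ← IsScalarTower.algebraMap_apply, ← IsScalarTower.algebraMap_apply, hdLs])
    a
  exact sub_eq_zero.1 key

/-- **Key lemma.** Let `A` be an integrally closed domain, finite over the polynomial ring
`k[X_1, …, X_d]` (characteristic zero), and `𝔪` the unique maximal ideal containing the images
`x_i` of the variables.  If a `k`-derivation `D` of `A` maps every `x_i` into the ideal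
`(x_1, …, x_d)`, then `lam D ∈ 𝔪` for every `A`-linear functional `lam` on the module of
derivations: `D` is not unimodular at `𝔪`. -/
theorem lam_mem_of_preserves (𝔪 : Ideal A) [h𝔪 : 𝔪.IsMaximal]
    (hrad : (Ideal.span (Set.range fun i : Fin d =>
      algebraMap (MvPolynomial (Fin d) k) A (MvPolynomial.X i))).radical = 𝔪)
    (D : Derivation k A A)
    (hD : ∀ i, D (algebraMap (MvPolynomial (Fin d) k) A (MvPolynomial.X i))
      ∈ Ideal.span (Set.range fun i : Fin d =>
        algebraMap (MvPolynomial (Fin d) k) A (MvPolynomial.X i)))
    (lam : Derivation k A A →ₗ[A] A) : lam D ∈ 𝔪 := by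
  classical
  by_contra hnot
  have htop : Ideal.span {lam D} ⊔ Ideal.span (Set.range fun i : Fin d =>
      algebraMap (MvPolynomial (Fin d) k) A (MvPolynomial.X i)) = ⊤ := by
    by_contra hne
    obtain ⟨𝔫, h𝔫, hle⟩ := Ideal.exists_le_maximal _ hne
    have h1 : Ideal.span (Set.range fun i : Fin d =>
        algebraMap (MvPolynomial (Fin d) k) A (MvPolynomial.X i)) ≤ 𝔫 := le_sup_right.trans hle
    have h2 : 𝔪 ≤ 𝔫 := by
      rw [← hrad]
      exact (Ideal.IsPrime.radical_le_iff h𝔫.isPrime).2 h1
    have h3 : 𝔪 = 𝔫 := h𝔪.eq_of_le h𝔫.ne_top h2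
    apply hnot
    rw [h3]
    exact hle (Ideal.mem_sup_left (Ideal.mem_span_singleton_self _))
  have h1mem : (1 : A) ∈ Ideal.span {lam D} ⊔ Ideal.span (Set.range fun i : Fin d =>
      algebraMap (MvPolynomial (Fin d) k) A (MvPolynomial.X i)) := by
    rw [htop]
    trivial
  obtain ⟨y, hy, q, hq, hyq⟩ := Submodule.mem_sup.1 h1mem
  obtain ⟨z, rfl⟩ := Ideal.mem_span_singleton'.1 hy
  obtain ⟨c, rfl⟩ := (Ideal.mem_span_range_iff_exists_fun).1 hq
  choose dLs hdLs using fun i : Fin d => exists_dL (k := k) (A := A) i
  obtain ⟨g, hg, hgall⟩ := exists_common_g dLs hdLs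
  choose Δs hΔs using fun i => exists_derivation_restrict
    (IsFractionRing.injective A (FractionRing A)) (dLs i) (algebraMap A (FractionRing A) g)
    (hgall i)
  have hgL : algebraMap A (FractionRing A) g ≠ 0 := by
    intro h
    exact hg (IsFractionRing.injective A (FractionRing A) (by rw [h, map_zero]))
  have happ : ∀ (f : Fin d → Derivation k A A) (a : A), (∑ i, f i) a = ∑ i, f i a := by
    intro f a
    rw [← Derivation.coeFnAddMonoidHom_apply, map_sum, Finset.sum_apply]
    rfl
  have hrel : g • D = ∑ i, D (algebraMap (MvPolynomial (Fin d) k) A (MvPolynomial.X i)) • Δs i := by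
    ext a
    apply IsFractionRing.injective A (FractionRing A)
    rw [happ]
    simp only [Derivation.smul_apply, smul_eq_mul, map_mul, map_sum, hΔs]
    rw [derivation_decomp dLs hdLs D a, Finset.mul_sum]
    refine Finset.sum_congr rfl fun i _ => by ring
  have hlam : g * lam D
      = ∑ i, D (algebraMap (MvPolynomial (Fin d) k) A (MvPolynomial.X i)) * lam (Δs i) := by
    have := congrArg lam hrel
    simpa using this
  choose cD hcD using fun i => (Ideal.mem_span_range_iff_exists_fun).1 (hD i)
  have hfd : FiniteDimensional (FractionRing (MvPolynomial (Fin d) k)) (FractionRing A) :=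
    .of_isLocalization (MvPolynomial (Fin d) k) A (MvPolynomial (Fin d) k)⁰
  have hcore : ∀ i l, ∃ t : MvPolynomial (Fin d) k,
      algebraMap (MvPolynomial (Fin d) k) (FractionRing (MvPolynomial (Fin d) k)) t
      = Algebra.trace (FractionRing (MvPolynomial (Fin d) k)) (FractionRing A)
        (algebraMap A (FractionRing A) (z * cD i l)
          * (algebraMap A (FractionRing A) (lam (Δs i)) / algebraMap A (FractionRing A) g)) := by
    intro i l
    obtain ⟨t, ht⟩ := core_trace_mem i (dLs i) (hdLs i) g hg (Δs i) (hΔs i) lam (z * cD i l)
    exact ⟨t, ht⟩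
  choose t ht using hcore
  have hτ : ∀ j, ∃ τ : MvPolynomial (Fin d) k,
      algebraMap (MvPolynomial (Fin d) k) (FractionRing (MvPolynomial (Fin d) k)) τ
      = Algebra.trace (FractionRing (MvPolynomial (Fin d) k)) (FractionRing A)
        (algebraMap A (FractionRing A) (c j)) := by
    intro j
    have hint : IsIntegral (MvPolynomial (Fin d) k) (algebraMap A (FractionRing A) (c j)) :=
      (Algebra.IsIntegral.isIntegral (c j)).algebraMap
    exact IsIntegrallyClosed.isIntegral_iff.mp
      (Algebra.isIntegral_trace (L := FractionRing (MvPolynomial (Fin d) k)) hint)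
  choose τ hτ using hτ
  have htr : ∀ (f : FractionRing (MvPolynomial (Fin d) k)) (y : FractionRing A),
      Algebra.trace (FractionRing (MvPolynomial (Fin d) k)) (FractionRing A)
        (algebraMap (FractionRing (MvPolynomial (Fin d) k)) (FractionRing A) f * y)
      = f * Algebra.trace (FractionRing (MvPolynomial (Fin d) k)) (FractionRing A) y := by
    intro f y
    rw [← Algebra.smul_def, map_smul, smul_eq_mul]
  have hx : ∀ l : Fin d, algebraMap A (FractionRing A)
      (algebraMap (MvPolynomial (Fin d) k) A (MvPolynomial.X l))
      = algebraMap (FractionRing (MvPolynomial (Fin d) k)) (FractionRing A)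
        (algebraMap (MvPolynomial (Fin d) k) (FractionRing (MvPolynomial (Fin d) k))
          (MvPolynomial.X l)) := by
    intro l
    rw [← IsScalarTower.algebraMap_apply, ← IsScalarTower.algebraMap_apply]
  have e1 : algebraMap A (FractionRing A) (lam D)
      = ∑ i, algebraMap A (FractionRing A)
          (D (algebraMap (MvPolynomial (Fin d) k) A (MvPolynomial.X i)))
        * (algebraMap A (FractionRing A) (lam (Δs i)) / algebraMap A (FractionRing A) g) := by
    have h := congrArg (algebraMap A (FractionRing A)) hlam
    simp only [map_mul, map_sum] at h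
    have h' : ∀ i, algebraMap A (FractionRing A)
          (D (algebraMap (MvPolynomial (Fin d) k) A (MvPolynomial.X i)))
        * (algebraMap A (FractionRing A) (lam (Δs i)) / algebraMap A (FractionRing A) g)
        = (algebraMap A (FractionRing A)
          (D (algebraMap (MvPolynomial (Fin d) k) A (MvPolynomial.X i)))
        * algebraMap A (FractionRing A) (lam (Δs i))) / algebraMap A (FractionRing A) g :=
      fun i => (mul_div_assoc _ _ _).symm
    rw [Finset.sum_congr rfl (fun i _ => h' i), ← Finset.sum_div, ← h, mul_div_cancel_left₀ _ hgL]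
  have e2 : ∀ i, algebraMap A (FractionRing A)
      (D (algebraMap (MvPolynomial (Fin d) k) A (MvPolynomial.X i)))
      = ∑ l, algebraMap (FractionRing (MvPolynomial (Fin d) k)) (FractionRing A)
        (algebraMap (MvPolynomial (Fin d) k) (FractionRing (MvPolynomial (Fin d) k))
          (MvPolynomial.X l)) * algebraMap A (FractionRing A) (cD i l) := by
    intro i
    rw [← hcD i, map_sum]
    refine Finset.sum_congr rfl fun l _ => ?_
    rw [map_mul, hx l, mul_comm]
  have h1L := congrArg (algebraMap A (FractionRing A)) hyq
  rw [map_add, map_mul, map_sum, map_one, e1] at h1L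
  have hT := congrArg (Algebra.trace (FractionRing (MvPolynomial (Fin d) k)) (FractionRing A)) h1L
  rw [map_add, map_sum] at hT
  have hA : Algebra.trace (FractionRing (MvPolynomial (Fin d) k)) (FractionRing A)
      (algebraMap A (FractionRing A) z * ∑ i, algebraMap A (FractionRing A)
          (D (algebraMap (MvPolynomial (Fin d) k) A (MvPolynomial.X i)))
        * (algebraMap A (FractionRing A) (lam (Δs i)) / algebraMap A (FractionRing A) g))
      = algebraMap (MvPolynomial (Fin d) k) (FractionRing (MvPolynomial (Fin d) k))
        (∑ i, ∑ l, MvPolynomial.X l * t i l) := by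
    rw [Finset.mul_sum, map_sum, map_sum]
    refine Finset.sum_congr rfl fun i _ => ?_
    rw [e2 i, Finset.sum_mul, Finset.mul_sum, map_sum, map_sum]
    refine Finset.sum_congr rfl fun l _ => ?_
    have h3 : algebraMap A (FractionRing A) z
        * (algebraMap (FractionRing (MvPolynomial (Fin d) k)) (FractionRing A)
          (algebraMap (MvPolynomial (Fin d) k) (FractionRing (MvPolynomial (Fin d) k))
            (MvPolynomial.X l)) * algebraMap A (FractionRing A) (cD i l)
          * (algebraMap A (FractionRing A) (lam (Δs i)) / algebraMap A (FractionRing A) g))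
        = algebraMap (FractionRing (MvPolynomial (Fin d) k)) (FractionRing A)
          (algebraMap (MvPolynomial (Fin d) k) (FractionRing (MvPolynomial (Fin d) k))
            (MvPolynomial.X l))
          * (algebraMap A (FractionRing A) (z * cD i l)
            * (algebraMap A (FractionRing A) (lam (Δs i)) / algebraMap A (FractionRing A) g)) := by
      rw [map_mul]
      ring
    rw [h3, htr, ← ht i l, map_mul]
  have hB : ∀ j, Algebra.trace (FractionRing (MvPolynomial (Fin d) k)) (FractionRing A)
      (algebraMap A (FractionRing A)
        (c j * algebraMap (MvPolynomial (Fin d) k) A (MvPolynomial.X j)))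
      = algebraMap (MvPolynomial (Fin d) k) (FractionRing (MvPolynomial (Fin d) k))
        (MvPolynomial.X j * τ j) := by
    intro j
    rw [map_mul, hx j, mul_comm, htr, ← hτ j, map_mul]
  have hfree : Module.Free (FractionRing (MvPolynomial (Fin d) k)) (FractionRing A) :=
    Module.Free.of_divisionRing _ _
  have hone : Algebra.trace (FractionRing (MvPolynomial (Fin d) k)) (FractionRing A)
      (1 : FractionRing A)
      = (Module.finrank (FractionRing (MvPolynomial (Fin d) k)) (FractionRing A) :
        FractionRing (MvPolynomial (Fin d) k)) := by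
    rw [← map_one (algebraMap (FractionRing (MvPolynomial (Fin d) k)) (FractionRing A)),
      Algebra.trace_algebraMap, nsmul_eq_mul, mul_one]
  rw [hA, Finset.sum_congr rfl (fun j _ => hB j), hone, ← map_sum, ← map_add] at hT
  have hq : (∑ i, ∑ l, MvPolynomial.X l * t i l + ∑ j, MvPolynomial.X j * τ j :
      MvPolynomial (Fin d) k)
      = (Module.finrank (FractionRing (MvPolynomial (Fin d) k)) (FractionRing A) :
        MvPolynomial (Fin d) k) := by
    apply IsFractionRing.injective (MvPolynomial (Fin d) k) (FractionRing (MvPolynomial (Fin d) k))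
    rw [hT, map_natCast]
  have hcc := congrArg MvPolynomial.constantCoeff hq
  simp only [map_add, map_sum, map_mul, MvPolynomial.constantCoeff_X, zero_mul,
    Finset.sum_const_zero, add_zero, map_natCast] at hcc
  have hpos : 0 < Module.finrank (FractionRing (MvPolynomial (Fin d) k)) (FractionRing A) :=
    Module.finrank_pos
  have : (Module.finrank (FractionRing (MvPolynomial (Fin d) k)) (FractionRing A) : k) = 0 :=
    hcc.symm
  exact absurd (Nat.cast_eq_zero.1 this) (ne_of_gt hpos)

end Global

end Vale.Agent.H71
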