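import Mathlib

/-!
# Heights in polynomial rings and a regularity criterion
-/

set_option linter.unusedSectionVars false
set_option linter.style.haveILetI false

namespace Vale.Agent.H71

/-- The endomorphism of the polynomial ring killing the first `j` variables. -/
noncomputable def killFirst (k : Type*) [Field k] (d j : ℕ) :
    MvPolynomial (Fin d) k →ₐ[k] MvPolynomial (Fin d) k :=
  MvPolynomial.aeval fun i : Fin d => if (i : ℕ) < j then 0 else MvPolynomial.X i

theorem killFirst_X (k : Type*) [Field k] (d j : ℕ) (i : Fin d) :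
    killFirst k d j (MvPolynomial.X i) = if (i : ℕ) < j then 0 else MvPolynomial.X i := by
  unfold killFirst
  rw [MvPolynomial.aeval_X]

theorem killFirst_comp (k : Type*) [Field k] (d j : ℕ) :
    (killFirst k d (j + 1)).comp (killFirst k d j) = killFirst k d (j + 1) := by
  apply MvPolynomial.algHom_ext
  intro i
  rw [AlgHom.comp_apply, killFirst_X, killFirst_X]
  by_cases h : (i : ℕ) < j
  · rw [if_pos h, if_pos (Nat.lt_succ_of_lt h), map_zero]
  · rw [if_neg h, killFirst_X]

/-- A prime ideal of `k[X_1, …, X_d]` containing all the variables has height at least `d`. -/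
theorem height_ge_of_X_mem {k : Type*} [Field k] {d : ℕ} (𝔫 : Ideal (MvPolynomial (Fin d) k))
    [𝔫.IsPrime] (h : ∀ i, (MvPolynomial.X i : MvPolynomial (Fin d) k) ∈ 𝔫) :
    (d : ℕ∞) ≤ 𝔫.height := by
  classical
  have hprime : ∀ j, (RingHom.ker (killFirst k d j)).IsPrime := fun j => RingHom.ker_isPrime _
  have hstep : ∀ j, j ≤ d → (j : ℕ∞) ≤ (RingHom.ker (killFirst k d j)).height := by
    intro j
    induction j with
    | zero => intro _; simp
    | succ j ih =>
      intro hj
      have hjd : j < d := hj
      have hlt : RingHom.ker (killFirst k d j) < RingHom.ker (killFirst k d (j + 1)) := by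
        refine lt_of_le_of_ne ?_ ?_
        · intro p hp
          rw [RingHom.mem_ker] at hp ⊢
          rw [← killFirst_comp, AlgHom.comp_apply, hp, map_zero]
        · intro heq
          have h1 : (MvPolynomial.X ⟨j, hjd⟩ : MvPolynomial (Fin d) k)
              ∈ RingHom.ker (killFirst k d (j + 1)) := by
            rw [RingHom.mem_ker, killFirst_X, if_pos (Nat.lt_succ_self j)]
          rw [← heq, RingHom.mem_ker, killFirst_X, if_neg (lt_irrefl j)] at h1
          exact MvPolynomial.X_ne_zero _ h1
      have h2 := Ideal.height_add_one_le_of_lt_of_isPrime hlt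
      have h3 : ((j : ℕ∞) + 1) ≤ (RingHom.ker (killFirst k d j)).height + 1 :=
        add_le_add (ih (le_of_lt hjd)) le_rfl
      calc ((j + 1 : ℕ) : ℕ∞) = (j : ℕ∞) + 1 := by push_cast; rfl
        _ ≤ _ := h3
        _ ≤ _ := h2
  have hsub : ∀ p : MvPolynomial (Fin d) k, p - killFirst k d d p ∈ 𝔫 := by
    intro p
    induction p using MvPolynomial.induction_on with
    | C a =>
      have : killFirst k d d (MvPolynomial.C a) = MvPolynomial.C a := by
        unfold killFirst
        rw [MvPolynomial.aeval_C]
        rfl
      rw [this, sub_self]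
      exact 𝔫.zero_mem
    | add p q hp hq =>
      have : p + q - killFirst k d d (p + q)
          = (p - killFirst k d d p) + (q - killFirst k d d q) := by
        rw [map_add]; ring
      rw [this]
      exact 𝔫.add_mem hp hq
    | mul_X p i hp =>
      rw [map_mul, killFirst_X, if_pos i.isLt, mul_zero, sub_zero]
      exact 𝔫.mul_mem_left _ (h i)
  have hle : RingHom.ker (killFirst k d d) ≤ 𝔫 := by
    intro p hp
    rw [RingHom.mem_ker] at hp
    have := hsub p
    rwa [hp, sub_zero] at this
  exact (hstep d le_rfl).trans (Ideal.height_mono hle)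

/-- A prime of a domain `A` finite over `k[X_1, …, X_d]` containing the images of all the
variables has height at least `d`. -/
theorem height_ge_of_finite {k : Type*} [Field k] {d : ℕ} {A : Type*} [CommRing A] [IsDomain A]
    [Algebra (MvPolynomial (Fin d) k) A] [FaithfulSMul (MvPolynomial (Fin d) k) A]
    [Module.Finite (MvPolynomial (Fin d) k) A] (𝔪 : Ideal A) [𝔪.IsPrime]
    (h : ∀ i, algebraMap (MvPolynomial (Fin d) k) A (MvPolynomial.X i) ∈ 𝔪) :
    (d : ℕ∞) ≤ 𝔪.height := by
  have hnoeth : IsNoetherianRing A := IsNoetherianRing.of_finite (MvPolynomial (Fin d) k) A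
  have h1 : (d : ℕ∞) ≤ (𝔪.under (MvPolynomial (Fin d) k)).height :=
    height_ge_of_X_mem _ (fun i => by rw [Ideal.under_def, Ideal.mem_comap]; exact h i)
  have h2 := Ideal.height_eq_height_add_of_liesOver_of_hasGoingDown
    (𝔪.under (MvPolynomial (Fin d) k)) 𝔪
  rw [h2]
  exact h1.trans le_self_add

/-- A Noetherian local ring whose maximal ideal is generated modulo its square by at most
`dim R` of its elements is regular. -/
theorem isRegularLocalRing_of_finset {R : Type*} [CommRing R] [IsLocalRing R] [IsNoetherianRing R]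
    (s : Finset R) (hs : ∀ a ∈ s, a ∈ IsLocalRing.maximalIdeal R)
    (h : IsLocalRing.maximalIdeal R ≤ Ideal.span (s : Set R) ⊔ IsLocalRing.maximalIdeal R ^ 2)
    (hdim : ((s.card : ℕ) : WithBot ℕ∞) ≤ ringKrullDim R) : IsRegularLocalRing R := by
  have hle : IsLocalRing.maximalIdeal R ≤ Ideal.span (s : Set R) := by
    refine Submodule.le_of_le_smul_of_le_jacobson_bot (I := IsLocalRing.maximalIdeal R)
      (IsNoetherian.noetherian _) ?_ ?_
    · rw [IsLocalRing.jacobson_eq_maximalIdeal ⊥ bot_ne_top]
    · rw [smul_eq_mul, ← pow_two]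
      exact h
  have heq : IsLocalRing.maximalIdeal R = Ideal.span (s : Set R) :=
    le_antisymm hle (Ideal.span_le.2 fun a ha => hs a ha)
  apply IsRegularLocalRing.of_spanFinrank_maximalIdeal_le
  have h1 : (IsLocalRing.maximalIdeal R).spanFinrank ≤ s.card := by
    rw [heq]
    have := Submodule.spanFinrank_span_le_ncard_of_finite (R := R) (s := (s : Set R))
      s.finite_toSet
    rwa [Set.ncard_coe_finset] at this
  exact le_trans (by exact_mod_cast h1) hdim

end Vale.Agent.H71
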