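import Mathlib
import Vale.Agent.H71.Global2
import Vale.Agent.H71.Regular

/-!
# Lipman–Zariski for Euler-like derivations: assembly
-/

set_option linter.unusedSectionVars false
set_option linter.style.haveILetI false

namespace Vale.Agent.H71

open scoped nonZeroDivisors TensorProduct

section Final

variable {k : Type*} [Field k] [CharZero k] {d : ℕ}
  {A : Type*} [CommRing A] [IsDomain A] [Algebra k A] [IsIntegrallyClosed A]
  [Algebra (MvPolynomial (Fin d) k) A] [IsScalarTower k (MvPolynomial (Fin d) k) A]
  [FaithfulSMul (MvPolynomial (Fin d) k) A] [Module.Finite (MvPolynomial (Fin d) k) A]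

/-- Evaluation of derivations at the images of the variables. -/
noncomputable def evVars (k : Type*) [Field k] (d : ℕ) (A : Type*) [CommRing A] [Algebra k A]
    [Algebra (MvPolynomial (Fin d) k) A] : Derivation k A A →ₗ[A] (Fin d → A) where
  toFun θ i := θ (algebraMap (MvPolynomial (Fin d) k) A (MvPolynomial.X i))
  map_add' _ _ := rfl
  map_smul' _ _ := rfl

omit [IsIntegrallyClosed A] in
theorem evVars_injective : Function.Injective (evVars k d A) := by
  rw [← LinearMap.ker_eq_bot, LinearMap.ker_eq_bot']
  intro θ hθ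
  have h0 : ∀ i, θ (algebraMap (MvPolynomial (Fin d) k) A (MvPolynomial.X i)) = 0 :=
    fun i => congrFun hθ i
  have hint : Algebra.IsIntegral (MvPolynomial (Fin d) k) A := inferInstance
  ext a
  have key := derivation_eq_zero_of_integral' (S := MvPolynomial (Fin d) k) (A := A)
    (L := FractionRing A) (FaithfulSMul.algebraMap_injective _ _)
    (IsFractionRing.injective A (FractionRing A))
    (fun a => algebraMap A (FractionRing A) (θ a))
    (by intro a b; rw [map_add, map_add])
    (by
      intro a b
      rw [Derivation.leibniz, map_add, smul_eq_mul, smul_eq_mul, map_mul, map_mul])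
    (by
      intro s
      rw [chain_rule θ s]
      simp [h0])
    a
  exact IsFractionRing.injective A (FractionRing A) (by rw [key, Derivation.zero_apply, map_zero])

/-- Evaluation of derivations at an element. -/
noncomputable def evAt (k : Type*) [Field k] (A : Type*) [CommRing A] [Algebra k A] (f : A) :
    Derivation k A A →ₗ[A] A where
  toFun θ := θ f
  map_add' _ _ := rfl
  map_smul' _ _ := rfl

/-- **Main theorem**, in the form where `A` is an algebra over the polynomial ring. -/
theorem regular_of_euler_like [Module.Projective A (Derivation k A A)]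
    (𝔪 : Ideal A) [h𝔪 : 𝔪.IsMaximal]
    (hrad : (Ideal.span (Set.range fun i : Fin d =>
      algebraMap (MvPolynomial (Fin d) k) A (MvPolynomial.X i))).radical = 𝔪)
    (D : Derivation k A A)
    (hD : ∀ i, D (algebraMap (MvPolynomial (Fin d) k) A (MvPolynomial.X i))
      ∈ Ideal.span (Set.range fun i : Fin d =>
        algebraMap (MvPolynomial (Fin d) k) A (MvPolynomial.X i)))
    (hsurj : ∀ f ∈ 𝔪, ∃ g ∈ 𝔪, f - D g ∈ 𝔪 ^ 2) :
    IsRegularLocalRing (Localization.AtPrime 𝔪) := by
  classical
  have hnoeth : IsNoetherianRing A := IsNoetherianRing.of_finite (MvPolynomial (Fin d) k) A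
  have hfinM : Module.Finite A (Derivation k A A) :=
    Module.Finite.of_injective (evVars k d A) evVars_injective
  have hfree : Module.Free (Localization.AtPrime 𝔪)
      (Localization.AtPrime 𝔪 ⊗[A] Derivation k A A) := Module.free_of_flat_of_isLocalRing
  have hcard : Fintype.card (Module.Free.ChooseBasisIndex (Localization.AtPrime 𝔪)
      (Localization.AtPrime 𝔪 ⊗[A] Derivation k A A)) ≤ d := by
    rw [← Module.finrank_eq_card_chooseBasisIndex]
    have h1 : Function.Injective ((evVars k d A).baseChange (Localization.AtPrime 𝔪)) :=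
      Module.Flat.lTensor_preserves_injective_linearMap (evVars k d A) evVars_injective
    have h2 := LinearMap.finrank_le_finrank_of_injective h1
    have h3 : Module.finrank (Localization.AtPrime 𝔪) (Localization.AtPrime 𝔪 ⊗[A] (Fin d → A))
        = d := by
      rw [Module.finrank_baseChange, Module.finrank_pi, Fintype.card_fin]
    rw [h3] at h2
    exact h2
  obtain ⟨s, hs⟩ := Module.projective_def'.1
    (inferInstance : Module.Projective A (Derivation k A A))
  have hDsum : D = ∑ θ ∈ (s D).support, (s D) θ • θ := by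
    have := congrArg (fun f => f D) hs
    simp only [LinearMap.coe_comp, Function.comp_apply, LinearMap.id_coe, id_eq] at this
    rw [Finsupp.linearCombination_apply, Finsupp.sum] at this
    exact this.symm
  have hcoef : ∀ θ, (s D) θ ∈ 𝔪 := fun θ =>
    lam_mem_of_preserves 𝔪 hrad D hD ((Finsupp.lapply θ).comp s)
  have hmax : Ideal.map (algebraMap A (Localization.AtPrime 𝔪)) 𝔪
      = IsLocalRing.maximalIdeal (Localization.AtPrime 𝔪) :=
    Localization.AtPrime.map_eq_maximalIdeal
  let b := Module.Free.chooseBasis (Localization.AtPrime 𝔪)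
    (Localization.AtPrime 𝔪 ⊗[A] Derivation k A A)
  have hc : ∀ j, b.repr ((1 : Localization.AtPrime 𝔪) ⊗ₜ[A] D) j
      ∈ IsLocalRing.maximalIdeal (Localization.AtPrime 𝔪) := by
    intro j
    have h1 : ((1 : Localization.AtPrime 𝔪) ⊗ₜ[A] D)
        = ∑ θ ∈ (s D).support, algebraMap A (Localization.AtPrime 𝔪) ((s D) θ)
          • ((1 : Localization.AtPrime 𝔪) ⊗ₜ[A] θ) := by
      conv_lhs => rw [hDsum]
      rw [TensorProduct.tmul_sum]
      refine Finset.sum_congr rfl fun θ _ => ?_
      rw [TensorProduct.tmul_smul, TensorProduct.smul_tmul', Algebra.smul_def, mul_one,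
        TensorProduct.smul_tmul', smul_eq_mul, mul_one]
    rw [h1, map_sum, Finsupp.coe_finsetSum, Finset.sum_apply]
    refine Ideal.sum_mem _ fun θ _ => ?_
    rw [map_smul, Finsupp.smul_apply, smul_eq_mul]
    refine Ideal.mul_mem_right _ _ ?_
    rw [← hmax]
    exact Ideal.mem_map_of_mem _ (hcoef θ)
  have hDf : ∀ f : A, algebraMap A (Localization.AtPrime 𝔪) (D f) ∈ Ideal.span
      ((Finset.univ.image fun j => b.repr ((1 : Localization.AtPrime 𝔪) ⊗ₜ[A] D) j :
        Finset (Localization.AtPrime 𝔪)) : Set (Localization.AtPrime 𝔪)) := by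
    intro f
    have h1 : LinearMap.liftBaseChange (Localization.AtPrime 𝔪)
        ((Algebra.linearMap A (Localization.AtPrime 𝔪)).comp (evAt k A f))
        ((1 : Localization.AtPrime 𝔪) ⊗ₜ[A] D)
        = algebraMap A (Localization.AtPrime 𝔪) (D f) := by
      rw [LinearMap.liftBaseChange_tmul, one_smul]
      rfl
    have h2 : LinearMap.liftBaseChange (Localization.AtPrime 𝔪)
        ((Algebra.linearMap A (Localization.AtPrime 𝔪)).comp (evAt k A f))
        ((1 : Localization.AtPrime 𝔪) ⊗ₜ[A] D)
        = ∑ j, LinearMap.liftBaseChange (Localization.AtPrime 𝔪)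
          ((Algebra.linearMap A (Localization.AtPrime 𝔪)).comp (evAt k A f))
          (b.repr ((1 : Localization.AtPrime 𝔪) ⊗ₜ[A] D) j • b j) := by
      rw [← map_sum, b.sum_repr]
    rw [← h1, h2]
    refine Ideal.sum_mem _ fun j _ => ?_
    rw [map_smul, smul_eq_mul]
    refine Ideal.mul_mem_right _ _ (Ideal.subset_span ?_)
    rw [Finset.mem_coe]
    exact Finset.mem_image_of_mem _ (Finset.mem_univ j)
  refine isRegularLocalRing_of_finset
    (Finset.univ.image fun j => b.repr ((1 : Localization.AtPrime 𝔪) ⊗ₜ[A] D) j) ?_ ?_ ?_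
  · intro a ha
    obtain ⟨j, _, rfl⟩ := Finset.mem_image.1 ha
    exact hc j
  · rw [← hmax, Ideal.map_le_iff_le_comap]
    intro f hf
    rw [Ideal.mem_comap]
    obtain ⟨g, hg, hfg⟩ := hsurj f hf
    have h1 : algebraMap A (Localization.AtPrime 𝔪) f
        = algebraMap A (Localization.AtPrime 𝔪) (D g)
          + algebraMap A (Localization.AtPrime 𝔪) (f - D g) := by
      rw [← map_add]; congr 1; ring
    rw [h1]
    refine Ideal.add_mem _ (Ideal.mem_sup_left (hDf g)) (Ideal.mem_sup_right ?_)
    rw [← Ideal.map_pow]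
    exact Ideal.mem_map_of_mem _ hfg
  · rw [IsLocalization.AtPrime.ringKrullDim_eq_height 𝔪 (Localization.AtPrime 𝔪)]
    have h1 : (d : ℕ∞) ≤ 𝔪.height := by
      refine height_ge_of_finite (k := k) 𝔪 fun i => ?_
      rw [← hrad]
      exact Ideal.le_radical (Ideal.subset_span ⟨i, rfl⟩)
    have h2 : (Finset.univ.image fun j =>
        b.repr ((1 : Localization.AtPrime 𝔪) ⊗ₜ[A] D) j).card ≤ d :=
      le_trans Finset.card_image_le (by rw [Finset.card_univ]; exact hcard)
    have h3 : (((Finset.univ.image fun j =>
        b.repr ((1 : Localization.AtPrime 𝔪) ⊗ₜ[A] D) j).card : ℕ) : ℕ∞) ≤ 𝔪.height :=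
      le_trans (by exact_mod_cast h2) h1
    exact_mod_cast h3

end Final

end Vale.Agent.H71
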