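import Mathlib

/-!
# Elements all of whose trace multiples lie in an ideal

Let `A` be a domain integral over `S`, with a finite separable extension `L / F` of fraction
fields.  If `v ∈ A` is such that `Tr (z * v)` lies in an ideal `I` of `S` for every `z ∈ A`, then
`v` lies in every prime of `A` containing `I` whose residue characteristic is zero.  The proof
uses Dedekind's linear independence of characters.
-/

set_option linter.unusedSectionVars false
set_option linter.style.haveILetI false

namespace Vale.Agent.H71

theorem mem_of_forall_trace_mem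
    {S A F L : Type*} [CommRing S] [CommRing A] [IsDomain A] [Field F] [Field L]
    [Algebra S A] [Algebra S F] [Algebra A L] [Algebra F L] [Algebra S L]
    [IsScalarTower S F L] [IsScalarTower S A L] [FaithfulSMul A L]
    [FiniteDimensional F L] [Algebra.IsSeparable F L] [Algebra.IsIntegral S A]
    (I : Ideal S) (𝔪 : Ideal A) [h𝔪 : 𝔪.IsPrime] (hI : ∀ t ∈ I, algebraMap S A t ∈ 𝔪)
    (hchar : ∀ n : ℕ, n ≠ 0 → (n : A) ∉ 𝔪)
    (v : A)
    (hv : ∀ z : A, ∃ t ∈ I, algebraMap S F t = Algebra.trace F L (algebraMap A L (z * v))) :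
    v ∈ 𝔪 := by
  classical
  -- the ring of integers in an algebraic closure, and a prime over `𝔪`
  have hinjA : Function.Injective (algebraMap A (AlgebraicClosure L)) := by
    rw [IsScalarTower.algebraMap_eq A L (AlgebraicClosure L)]
    exact (algebraMap L (AlgebraicClosure L)).injective.comp
      (FaithfulSMul.algebraMap_injective A L)
  have hinjB : Function.Injective
      (algebraMap A (integralClosure A (AlgebraicClosure L))) := by
    intro a b hab
    apply hinjA
    have := congrArg (Subtype.val) hab
    exact this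
  obtain ⟨𝔐, -, h𝔐prime, h𝔐⟩ := Ideal.exists_ideal_over_prime_of_isIntegral 𝔪
    (⊥ : Ideal (integralClosure A (AlgebraicClosure L)))
    (by
      intro a ha
      rw [Ideal.mem_comap, Ideal.mem_bot] at ha
      have : a = 0 := hinjB (by rw [ha, map_zero])
      rw [this]
      exact 𝔪.zero_mem)
  -- the characters
  have hint : ∀ (σ : L →ₐ[F] AlgebraicClosure L) (a : A),
      (σ.toRingHom.comp (algebraMap A L)) a ∈ integralClosure A (AlgebraicClosure L) := by
    intro σ a
    have h1 : IsIntegral S (algebraMap A L a) := (Algebra.IsIntegral.isIntegral a).algebraMap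
    have h2 : IsIntegral S (σ (algebraMap A L a)) := by
      have := h1.map (σ.restrictScalars S)
      exact this
    exact h2.tower_top
  let τ : (L →ₐ[F] AlgebraicClosure L) → A →+* integralClosure A (AlgebraicClosure L) :=
    fun σ => RingHom.codRestrict (σ.toRingHom.comp (algebraMap A L))
      (integralClosure A (AlgebraicClosure L)) (hint σ)
  let χ : (L →ₐ[F] AlgebraicClosure L) →
      A →* (integralClosure A (AlgebraicClosure L) ⧸ 𝔐) :=
    fun σ => ((Ideal.Quotient.mk 𝔐).comp (τ σ)).toMonoidHom
  have hχ : ∀ σ a, χ σ a = Ideal.Quotient.mk 𝔐 (τ σ a) := fun _ _ => rfl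
  have hτ : ∀ σ a, ((τ σ a : integralClosure A (AlgebraicClosure L)) : AlgebraicClosure L)
      = σ (algebraMap A L a) := fun _ _ => rfl
  -- the vanishing relation
  have hrel : ∀ z : A, ∑ σ : L →ₐ[F] AlgebraicClosure L, χ σ v * χ σ z = 0 := by
    intro z
    obtain ⟨t, ht, htr⟩ := hv z
    have h1 : ∑ σ : L →ₐ[F] AlgebraicClosure L, τ σ (z * v)
        = algebraMap A (integralClosure A (AlgebraicClosure L)) (algebraMap S A t) := by
      apply Subtype.ext
      rw [AddSubmonoidClass.coe_finsetSum]
      simp only [hτ]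
      rw [← trace_eq_sum_embeddings (AlgebraicClosure L), ← htr,
        ← IsScalarTower.algebraMap_apply S F (AlgebraicClosure L)]
      change algebraMap S (AlgebraicClosure L) t
        = algebraMap A (AlgebraicClosure L) (algebraMap S A t)
      rw [← IsScalarTower.algebraMap_apply S A (AlgebraicClosure L)]
    have h2 : algebraMap A (integralClosure A (AlgebraicClosure L)) (algebraMap S A t) ∈ 𝔐 := by
      have : algebraMap S A t ∈ Ideal.comap
          (algebraMap A (integralClosure A (AlgebraicClosure L))) 𝔐 := by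
        rw [h𝔐]; exact hI t ht
      exact this
    have h3 : ∑ σ : L →ₐ[F] AlgebraicClosure L, χ σ v * χ σ z
        = Ideal.Quotient.mk 𝔐 (∑ σ : L →ₐ[F] AlgebraicClosure L, τ σ (z * v)) := by
      rw [map_sum]
      refine Finset.sum_congr rfl fun σ _ => ?_
      rw [hχ, hχ, ← map_mul, ← map_mul, mul_comm]
    rw [h3, h1]
    exact Ideal.Quotient.eq_zero_iff_mem.2 h2
  -- Dedekind independence
  have hli := linearIndependent_monoidHom A (integralClosure A (AlgebraicClosure L) ⧸ 𝔐)
  rw [linearIndependent_iff'] at hli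
  let ι : L →ₐ[F] AlgebraicClosure L := IsScalarTower.toAlgHom F L (AlgebraicClosure L)
  have hsum : ∑ ψ ∈ Finset.univ.image χ,
      (∑ σ ∈ Finset.univ.filter (fun σ => χ σ = ψ), χ σ v) • (ψ : A → _) = 0 := by
    funext z
    rw [Finset.sum_apply, Pi.zero_apply, ← hrel z]
    have := Finset.sum_image' (s := (Finset.univ : Finset (L →ₐ[F] AlgebraicClosure L)))
      (g := χ) (f := fun ψ : A →* (integralClosure A (AlgebraicClosure L) ⧸ 𝔐) =>
        ((∑ σ ∈ Finset.univ.filter (fun σ => χ σ = ψ), χ σ v) • (ψ : A → _)) z)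
      (fun σ => χ σ v * χ σ z)
      (by
        intro σ _
        rw [Pi.smul_apply, smul_eq_mul, Finset.sum_mul]
        refine Finset.sum_congr rfl fun σ' hσ' => ?_
        rw [(Finset.mem_filter.1 hσ').2])
    exact this
  have hzero := hli (Finset.univ.image χ) _ hsum (χ ι)
    (Finset.mem_image_of_mem _ (Finset.mem_univ ι))
  have hconst : ∑ σ ∈ Finset.univ.filter (fun σ => χ σ = χ ι), χ σ v
      = ((Finset.univ.filter (fun σ => χ σ = χ ι)).card : ℕ) • χ ι v := by
    rw [← Finset.sum_const]
    refine Finset.sum_congr rfl fun σ hσ => ?_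
    rw [(Finset.mem_filter.1 hσ).2]
  rw [hconst, nsmul_eq_mul] at hzero
  have hcard : (Finset.univ.filter (fun σ => χ σ = χ ι)).card ≠ 0 := by
    apply Finset.card_ne_zero_of_mem (a := ι)
    exact Finset.mem_filter.2 ⟨Finset.mem_univ ι, rfl⟩
  have hτι : ∀ a, τ ι a = algebraMap A (integralClosure A (AlgebraicClosure L)) a := by
    intro a
    apply Subtype.ext
    rw [hτ]
    change algebraMap L (AlgebraicClosure L) (algebraMap A L a) = algebraMap A (AlgebraicClosure L) a
    rw [← IsScalarTower.algebraMap_apply]
  have hmem : ∀ a : A, χ ι a = 0 → a ∈ 𝔪 := by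
    intro a ha
    rw [hχ, hτι, Ideal.Quotient.eq_zero_iff_mem] at ha
    rw [← h𝔐]
    exact ha
  have hnat : ((Finset.univ.filter (fun σ => χ σ = χ ι)).card :
      integralClosure A (AlgebraicClosure L) ⧸ 𝔐) ≠ 0 := by
    intro h0
    apply hchar _ hcard
    apply hmem
    rw [hχ, map_natCast, map_natCast]
    exact h0
  exact hmem v ((mul_eq_zero.1 hzero).resolve_left hnat)

end Vale.Agent.H71
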