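import Mathlib
import Vale.Agent.H71.Global2
import Vale.Agent.H71.TraceIdeal

/-!
# Derivations preserving a parameter ideal locally at a point are not unimodular there
-/

set_option linter.unusedSectionVars false
set_option linter.style.haveILetI false

namespace Vale.Agent.H71

open scoped nonZeroDivisors

section Global

variable {k : Type*} [Field k] [CharZero k] {d : ℕ}
  {A : Type*} [CommRing A] [IsDomain A] [Algebra k A] [IsIntegrallyClosed A]
  [Algebra (MvPolynomial (Fin d) k) A] [IsScalarTower k (MvPolynomial (Fin d) k) A]
  [FaithfulSMul (MvPolynomial (Fin d) k) A] [Module.Finite (MvPolynomial (Fin d) k) A]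

attribute [local instance] FractionRing.liftAlgebra FractionRing.isScalarTower_liftAlgebra

/-- **Key lemma, local form.** Let `A` be an integrally closed domain, finite over the polynomial
ring `k[X_1, …, X_d]` (characteristic zero), and `𝔪` a prime ideal containing the images `x_i` of
the variables.  If a `k`-derivation `D` of `A` maps every `x_i` into the ideal `(x_1, …, x_d)`
locally at `𝔪` (i.e. after multiplication by some `s ∉ 𝔪`), then `lam D ∈ 𝔪` for every `A`-linear
functional `lam` on the module of derivations. -/
theorem lam_mem_of_preserves_local (𝔪 : Ideal A) [h𝔪 : 𝔪.IsPrime]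
    (hxm : ∀ i : Fin d, algebraMap (MvPolynomial (Fin d) k) A (MvPolynomial.X i) ∈ 𝔪)
    (D : Derivation k A A) (s : A) (hs : s ∉ 𝔪)
    (hD : ∀ i, s * D (algebraMap (MvPolynomial (Fin d) k) A (MvPolynomial.X i))
      ∈ Ideal.span (Set.range fun i : Fin d =>
        algebraMap (MvPolynomial (Fin d) k) A (MvPolynomial.X i)))
    (lam : Derivation k A A →ₗ[A] A) : lam D ∈ 𝔪 := by
  classical
  suffices hmem : s * lam D ∈ 𝔪 from (h𝔪.mem_or_mem hmem).resolve_left hs
  have hfd : FiniteDimensional (FractionRing (MvPolynomial (Fin d) k)) (FractionRing A) :=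
    .of_isLocalization (MvPolynomial (Fin d) k) A (MvPolynomial (Fin d) k)⁰
  have hint : Algebra.IsIntegral (MvPolynomial (Fin d) k) A := inferInstance
  have hI : ∀ t ∈ Ideal.span (Set.range (MvPolynomial.X : Fin d → MvPolynomial (Fin d) k)),
      algebraMap (MvPolynomial (Fin d) k) A t ∈ 𝔪 := by
    intro t ht
    have hle : Ideal.span (Set.range (MvPolynomial.X : Fin d → MvPolynomial (Fin d) k))
        ≤ Ideal.comap (algebraMap (MvPolynomial (Fin d) k) A) 𝔪 := by
      rw [Ideal.span_le]
      rintro _ ⟨i, rfl⟩
      exact hxm i
    exact hle ht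
  have hchar : ∀ n : ℕ, n ≠ 0 → (n : A) ∉ 𝔪 := by
    intro n hn hmem
    have hunit : IsUnit (n : A) := by
      have h1 : IsUnit ((n : k)) := IsUnit.mk0 _ (Nat.cast_ne_zero.2 hn)
      have h2 := h1.map (algebraMap k A)
      rwa [map_natCast] at h2
    exact h𝔪.ne_top (Ideal.eq_top_of_isUnit_mem _ hmem hunit)
  refine mem_of_forall_trace_mem (S := MvPolynomial (Fin d) k)
    (F := FractionRing (MvPolynomial (Fin d) k)) (L := FractionRing A)
    (Ideal.span (Set.range (MvPolynomial.X : Fin d → MvPolynomial (Fin d) k))) 𝔪 hI hchar
    (s * lam D) ?_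
  intro z
  choose dLs hdLs using fun i : Fin d => exists_dL (k := k) (A := A) i
  obtain ⟨g, hg, hgall⟩ := exists_common_g dLs hdLs
  choose Δs hΔs using fun i => exists_derivation_restrict
    (IsFractionRing.injective A (FractionRing A)) (dLs i) (algebraMap A (FractionRing A) g)
    (hgall i)
  have hgL : algebraMap A (FractionRing A) g ≠ 0 := by
    intro h
    exact hg (IsFractionRing.injective A (FractionRing A) (by rw [h, map_zero]))
  have happ : ∀ (f : Fin d → Derivation k A A) (a : A), (∑ i, f i) a = ∑ i, f i a := by
    intro f a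
    rw [← Derivation.coeFnAddMonoidHom_apply, map_sum, Finset.sum_apply]
    rfl
  have hrel : g • D = ∑ i, D (algebraMap (MvPolynomial (Fin d) k) A (MvPolynomial.X i)) • Δs i := by
    ext a
    apply IsFractionRing.injective A (FractionRing A)
    rw [happ]
    simp only [Derivation.smul_apply, smul_eq_mul, map_mul, map_sum, hΔs]
    rw [derivation_decomp dLs hdLs D a, Finset.mul_sum]
    refine Finset.sum_congr rfl fun i _ => by ring
  have hlam : g * lam D
      = ∑ i, D (algebraMap (MvPolynomial (Fin d) k) A (MvPolynomial.X i)) * lam (Δs i) := by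
    have := congrArg lam hrel
    simpa using this
  choose cD hcD using fun i => (Ideal.mem_span_range_iff_exists_fun).1 (hD i)
  have hcore : ∀ i l, ∃ t : MvPolynomial (Fin d) k,
      algebraMap (MvPolynomial (Fin d) k) (FractionRing (MvPolynomial (Fin d) k)) t
      = Algebra.trace (FractionRing (MvPolynomial (Fin d) k)) (FractionRing A)
        (algebraMap A (FractionRing A) (z * cD i l)
          * (algebraMap A (FractionRing A) (lam (Δs i)) / algebraMap A (FractionRing A) g)) := by
    intro i l
    obtain ⟨t, ht⟩ := core_trace_mem i (dLs i) (hdLs i) g hg (Δs i) (hΔs i) lam (z * cD i l)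
    exact ⟨t, ht⟩
  choose t ht using hcore
  have htr : ∀ (f : FractionRing (MvPolynomial (Fin d) k)) (y : FractionRing A),
      Algebra.trace (FractionRing (MvPolynomial (Fin d) k)) (FractionRing A)
        (algebraMap (FractionRing (MvPolynomial (Fin d) k)) (FractionRing A) f * y)
      = f * Algebra.trace (FractionRing (MvPolynomial (Fin d) k)) (FractionRing A) y := by
    intro f y
    rw [← Algebra.smul_def, map_smul, smul_eq_mul]
  have hx : ∀ l : Fin d, algebraMap A (FractionRing A)
      (algebraMap (MvPolynomial (Fin d) k) A (MvPolynomial.X l))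
      = algebraMap (FractionRing (MvPolynomial (Fin d) k)) (FractionRing A)
        (algebraMap (MvPolynomial (Fin d) k) (FractionRing (MvPolynomial (Fin d) k))
          (MvPolynomial.X l)) := by
    intro l
    rw [← IsScalarTower.algebraMap_apply, ← IsScalarTower.algebraMap_apply]
  have e1 : algebraMap A (FractionRing A) (lam D)
      = ∑ i, algebraMap A (FractionRing A)
          (D (algebraMap (MvPolynomial (Fin d) k) A (MvPolynomial.X i)))
        * (algebraMap A (FractionRing A) (lam (Δs i)) / algebraMap A (FractionRing A) g) := by
    have h := congrArg (algebraMap A (FractionRing A)) hlam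
    simp only [map_mul, map_sum] at h
    have h' : ∀ i, algebraMap A (FractionRing A)
          (D (algebraMap (MvPolynomial (Fin d) k) A (MvPolynomial.X i)))
        * (algebraMap A (FractionRing A) (lam (Δs i)) / algebraMap A (FractionRing A) g)
        = (algebraMap A (FractionRing A)
          (D (algebraMap (MvPolynomial (Fin d) k) A (MvPolynomial.X i)))
        * algebraMap A (FractionRing A) (lam (Δs i))) / algebraMap A (FractionRing A) g :=
      fun i => (mul_div_assoc _ _ _).symm
    rw [Finset.sum_congr rfl (fun i _ => h' i), ← Finset.sum_div, ← h, mul_div_cancel_left₀ _ hgL]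
  have e2 : ∀ i, algebraMap A (FractionRing A)
      (s * D (algebraMap (MvPolynomial (Fin d) k) A (MvPolynomial.X i)))
      = ∑ l, algebraMap (FractionRing (MvPolynomial (Fin d) k)) (FractionRing A)
        (algebraMap (MvPolynomial (Fin d) k) (FractionRing (MvPolynomial (Fin d) k))
          (MvPolynomial.X l)) * algebraMap A (FractionRing A) (cD i l) := by
    intro i
    rw [← hcD i, map_sum]
    refine Finset.sum_congr rfl fun l _ => ?_
    rw [map_mul, hx l, mul_comm]
  refine ⟨∑ i, ∑ l, MvPolynomial.X l * t i l, ?_, ?_⟩
  · refine Ideal.sum_mem _ fun i _ => Ideal.sum_mem _ fun l _ => ?_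
    exact Ideal.mul_mem_right _ _ (Ideal.subset_span ⟨l, rfl⟩)
  · have h0 : algebraMap A (FractionRing A) (z * (s * lam D))
        = ∑ i, algebraMap A (FractionRing A) z * (algebraMap A (FractionRing A)
          (s * D (algebraMap (MvPolynomial (Fin d) k) A (MvPolynomial.X i)))
        * (algebraMap A (FractionRing A) (lam (Δs i)) / algebraMap A (FractionRing A) g)) := by
      rw [map_mul, map_mul, e1, Finset.mul_sum, Finset.mul_sum]
      refine Finset.sum_congr rfl fun i _ => ?_
      rw [map_mul]
      ring
    rw [h0, map_sum, map_sum]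
    refine Finset.sum_congr rfl fun i _ => ?_
    rw [e2 i, Finset.sum_mul, Finset.mul_sum, map_sum, map_sum]
    refine Finset.sum_congr rfl fun l _ => ?_
    have h3 : algebraMap A (FractionRing A) z
        * (algebraMap (FractionRing (MvPolynomial (Fin d) k)) (FractionRing A)
          (algebraMap (MvPolynomial (Fin d) k) (FractionRing (MvPolynomial (Fin d) k))
            (MvPolynomial.X l)) * algebraMap A (FractionRing A) (cD i l)
          * (algebraMap A (FractionRing A) (lam (Δs i)) / algebraMap A (FractionRing A) g))
        = algebraMap (FractionRing (MvPolynomial (Fin d) k)) (FractionRing A)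
          (algebraMap (MvPolynomial (Fin d) k) (FractionRing (MvPolynomial (Fin d) k))
            (MvPolynomial.X l))
          * (algebraMap A (FractionRing A) (z * cD i l)
            * (algebraMap A (FractionRing A) (lam (Δs i)) / algebraMap A (FractionRing A) g)) := by
      rw [map_mul]
      ring
    rw [h3, htr, ← ht i l, map_mul]

end Global

end Vale.Agent.H71
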