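import Mathlib
import Vale.Agent.H71.Final2

/-!
# A regularity criterion with a splitting of the derivations

Abstract form of the argument for graded rings: besides an Euler-like derivation `D` we are given
a set `I₀` of variables and a set `P ⊆ 𝔪` such that every derivation is the sum of one killing the
variables in `I₀` and one mapping `P` into `𝔪`.
-/

set_option linter.unusedSectionVars false
set_option linter.style.haveILetI false

namespace Vale.Agent.H71

open scoped nonZeroDivisors TensorProduct

section Adapted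

variable {k : Type*} [Field k] [CharZero k] {d : ℕ}
  {A : Type*} [CommRing A] [IsDomain A] [Algebra k A] [IsIntegrallyClosed A]
  [Algebra (MvPolynomial (Fin d) k) A] [IsScalarTower k (MvPolynomial (Fin d) k) A]
  [FaithfulSMul (MvPolynomial (Fin d) k) A] [Module.Finite (MvPolynomial (Fin d) k) A]

/-- Evaluation of derivations at the images of the variables outside a finite set. -/
noncomputable def evCompl (k : Type*) [Field k] (d : ℕ) (A : Type*) [CommRing A] [Algebra k A]
    [Algebra (MvPolynomial (Fin d) k) A] (I₀ : Finset (Fin d)) :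
    Derivation k A A →ₗ[A] ({i : Fin d // i ∉ I₀} → A) where
  toFun θ i := θ (algebraMap (MvPolynomial (Fin d) k) A (MvPolynomial.X i.1))
  map_add' _ _ := rfl
  map_smul' _ _ := rfl

/-- Extension by zero. -/
noncomputable def extZero (d : ℕ) (A : Type*) [CommRing A] (I₀ : Finset (Fin d)) :
    ({i : Fin d // i ∉ I₀} → A) →ₗ[A] (Fin d → A) where
  toFun f i := if h : i ∈ I₀ then 0 else f ⟨i, h⟩
  map_add' f g := by
    funext i
    by_cases h : i ∈ I₀ <;> simp [h]
  map_smul' c f := by
    funext i
    by_cases h : i ∈ I₀ <;> simp [h]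

omit [CharZero k] [IsDomain A] [IsIntegrallyClosed A] [IsScalarTower k (MvPolynomial (Fin d) k) A]
  [FaithfulSMul (MvPolynomial (Fin d) k) A] [Module.Finite (MvPolynomial (Fin d) k) A] in
theorem extZero_evCompl (I₀ : Finset (Fin d)) (θ : Derivation k A A)
    (hθ : ∀ i ∈ I₀, θ (algebraMap (MvPolynomial (Fin d) k) A (MvPolynomial.X i)) = 0) :
    extZero d A I₀ (evCompl k d A I₀ θ) = evVars k d A θ := by
  funext i
  by_cases h : i ∈ I₀
  · simp only [extZero, evCompl, evVars, LinearMap.coe_mk, AddHom.coe_mk, dif_pos h]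
    exact (hθ i h).symm
  · simp only [extZero, evCompl, evVars, LinearMap.coe_mk, AddHom.coe_mk, dif_neg h]

/-- **Regularity criterion with a splitting.** -/
theorem regular_of_split [Module.Projective A (Derivation k A A)]
    (𝔪 : Ideal A) [h𝔪 : 𝔪.IsPrime]
    (hxm : ∀ i : Fin d, algebraMap (MvPolynomial (Fin d) k) A (MvPolynomial.X i) ∈ 𝔪)
    (D : Derivation k A A) (s₀ : A) (hs₀ : s₀ ∉ 𝔪)
    (hD : ∀ i, s₀ * D (algebraMap (MvPolynomial (Fin d) k) A (MvPolynomial.X i))
      ∈ Ideal.span (Set.range fun i : Fin d =>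
        algebraMap (MvPolynomial (Fin d) k) A (MvPolynomial.X i)))
    (I₀ : Finset (Fin d)) (P : Set A)
    (hdec : ∀ θ : Derivation k A A, ∃ θ₁ θ₂ : Derivation k A A, θ = θ₁ + θ₂ ∧
      (∀ i ∈ I₀, θ₁ (algebraMap (MvPolynomial (Fin d) k) A (MvPolynomial.X i)) = 0) ∧
      (∀ p ∈ P, θ₂ p ∈ 𝔪))
    (hsurj : ∀ f ∈ P, ∃ g ∈ P, f - D g ∈ 𝔪 ^ 2)
    (Y : Finset (Localization.AtPrime 𝔪))
    (hYm : ∀ y ∈ Y, y ∈ IsLocalRing.maximalIdeal (Localization.AtPrime 𝔪))
    (hYcard : Y.card ≤ I₀.card)
    (hgen : ∀ a ∈ 𝔪, algebraMap A (Localization.AtPrime 𝔪) a ∈ Ideal.span (Y : Set _)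
        ⊔ Ideal.map (algebraMap A (Localization.AtPrime 𝔪)) (Ideal.span P)
        ⊔ IsLocalRing.maximalIdeal (Localization.AtPrime 𝔪) ^ 2) :
    IsRegularLocalRing (Localization.AtPrime 𝔪) := by
  classical
  have hnoeth : IsNoetherianRing A := IsNoetherianRing.of_finite (MvPolynomial (Fin d) k) A
  have hfinM : Module.Finite A (Derivation k A A) :=
    Module.Finite.of_injective (evVars k d A) evVars_injective
  have hfree : Module.Free (Localization.AtPrime 𝔪)
      (Localization.AtPrime 𝔪 ⊗[A] Derivation k A A) := Module.free_of_flat_of_isLocalRing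
  have hmax : Ideal.map (algebraMap A (Localization.AtPrime 𝔪)) 𝔪
      = IsLocalRing.maximalIdeal (Localization.AtPrime 𝔪) :=
    Localization.AtPrime.map_eq_maximalIdeal
  have hmem𝔪 : ∀ a ∈ 𝔪, algebraMap A (Localization.AtPrime 𝔪) a
      ∈ IsLocalRing.maximalIdeal (Localization.AtPrime 𝔪) := by
    intro a ha
    rw [← hmax]
    exact Ideal.mem_map_of_mem _ ha
  -- `D` lies in `𝔪` times the module of derivations
  obtain ⟨s, hs⟩ := Module.projective_def'.1
    (inferInstance : Module.Projective A (Derivation k A A))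
  have hDsum : D = ∑ θ ∈ (s D).support, (s D) θ • θ := by
    have := congrArg (fun f => f D) hs
    simp only [LinearMap.coe_comp, Function.comp_apply, LinearMap.id_coe, id_eq] at this
    rw [Finsupp.linearCombination_apply, Finsupp.sum] at this
    exact this.symm
  have hcoef : ∀ θ, (s D) θ ∈ 𝔪 := fun θ =>
    lam_mem_of_preserves_local 𝔪 hxm D s₀ hs₀ hD ((Finsupp.lapply θ).comp s)
  have hDM : ((1 : Localization.AtPrime 𝔪) ⊗ₜ[A] D)
      ∈ IsLocalRing.maximalIdeal (Localization.AtPrime 𝔪)
        • (⊤ : Submodule (Localization.AtPrime 𝔪)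
          (Localization.AtPrime 𝔪 ⊗[A] Derivation k A A)) := by
    have h1 : ((1 : Localization.AtPrime 𝔪) ⊗ₜ[A] D)
        = ∑ θ ∈ (s D).support, algebraMap A (Localization.AtPrime 𝔪) ((s D) θ)
          • ((1 : Localization.AtPrime 𝔪) ⊗ₜ[A] θ) := by
      conv_lhs => rw [hDsum]
      rw [TensorProduct.tmul_sum]
      refine Finset.sum_congr rfl fun θ _ => ?_
      rw [TensorProduct.tmul_smul, TensorProduct.smul_tmul', Algebra.smul_def, mul_one,
        TensorProduct.smul_tmul', smul_eq_mul, mul_one]
    rw [h1]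
    exact Submodule.sum_mem _ fun θ _ =>
      Submodule.smul_mem_smul (hmem𝔪 _ (hcoef θ)) Submodule.mem_top
  -- the two submodules
  have hNH : Submodule.span (Localization.AtPrime 𝔪)
      ((fun θ : Derivation k A A => (1 : Localization.AtPrime 𝔪) ⊗ₜ[A] θ) ''
        {θ | ∀ i ∈ I₀, θ (algebraMap (MvPolynomial (Fin d) k) A (MvPolynomial.X i)) = 0})
      ⊔ Submodule.span (Localization.AtPrime 𝔪)
      ((fun θ : Derivation k A A => (1 : Localization.AtPrime 𝔪) ⊗ₜ[A] θ) ''
        {θ | ∀ p ∈ P, θ p ∈ 𝔪}) = ⊤ := by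
    rw [eq_top_iff]
    intro m hm
    clear hm
    induction m using TensorProduct.induction_on with
    | zero => exact Submodule.zero_mem _
    | tmul r θ =>
      obtain ⟨θ₁, θ₂, rfl, h1, h2⟩ := hdec θ
      have : r ⊗ₜ[A] (θ₁ + θ₂) = r • ((1 : Localization.AtPrime 𝔪) ⊗ₜ[A] θ₁)
          + r • ((1 : Localization.AtPrime 𝔪) ⊗ₜ[A] θ₂) := by
        rw [TensorProduct.tmul_add, TensorProduct.smul_tmul', TensorProduct.smul_tmul',
          smul_eq_mul, mul_one]
      rw [this]
      exact Submodule.add_mem _
        (Submodule.mem_sup_left (Submodule.smul_mem _ _ (Submodule.subset_span ⟨θ₁, h1, rfl⟩)))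
        (Submodule.mem_sup_right (Submodule.smul_mem _ _ (Submodule.subset_span ⟨θ₂, h2, rfl⟩)))
    | add x y hx hy => exact Submodule.add_mem _ hx hy
  -- a family of derivations killing the variables in `I₀`, independent modulo `𝔪`
  obtain ⟨b, hbS, hspan, hli⟩ := exists_linearIndependent
    (IsLocalRing.ResidueField (Localization.AtPrime 𝔪))
    ((TensorProduct.mk (Localization.AtPrime 𝔪)
      (IsLocalRing.ResidueField (Localization.AtPrime 𝔪))
      (Localization.AtPrime 𝔪 ⊗[A] Derivation k A A) 1) ''
      ((fun θ : Derivation k A A => (1 : Localization.AtPrime 𝔪) ⊗ₜ[A] θ) ''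
        {θ | ∀ i ∈ I₀, θ (algebraMap (MvPolynomial (Fin d) k) A (MvPolynomial.X i)) = 0}))
  have hbfin : b.Finite := hli.setFinite
  haveI : Fintype b := hbfin.fintype
  have hch : ∀ y : b, ∃ θ : Derivation k A A,
      (∀ i ∈ I₀, θ (algebraMap (MvPolynomial (Fin d) k) A (MvPolynomial.X i)) = 0) ∧
      (TensorProduct.mk (Localization.AtPrime 𝔪)
        (IsLocalRing.ResidueField (Localization.AtPrime 𝔪))
        (Localization.AtPrime 𝔪 ⊗[A] Derivation k A A) 1)
        ((1 : Localization.AtPrime 𝔪) ⊗ₜ[A] θ) = (y : _) := by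
    intro y
    obtain ⟨m, ⟨θ, hθ, rfl⟩, hm⟩ := hbS y.2
    exact ⟨θ, hθ, hm⟩
  choose v hv₁ hv₂ using hch
  have huli : LinearIndependent (Localization.AtPrime 𝔪)
      (fun y : b => ((1 : Localization.AtPrime 𝔪) ⊗ₜ[A] v y :
        Localization.AtPrime 𝔪 ⊗[A] Derivation k A A)) := by
    apply Module.IsLocalRing.linearIndependent_of_flat
    have : ((TensorProduct.mk (Localization.AtPrime 𝔪)
        (IsLocalRing.ResidueField (Localization.AtPrime 𝔪))
        (Localization.AtPrime 𝔪 ⊗[A] Derivation k A A) 1) ∘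
        fun y : b => ((1 : Localization.AtPrime 𝔪) ⊗ₜ[A] v y :
          Localization.AtPrime 𝔪 ⊗[A] Derivation k A A)) = Subtype.val := by
      funext y
      exact hv₂ y
    rw [this]
    exact hli
  -- at most `d - |I₀|` of them
  have hcardb : Fintype.card b + I₀.card ≤ d := by
    have hinj : Function.Injective ((evVars k d A).baseChange (Localization.AtPrime 𝔪)) :=
      Module.Flat.lTensor_preserves_injective_linearMap (evVars k d A) evVars_injective
    have heq : ∀ m ∈ Submodule.span (Localization.AtPrime 𝔪)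
        (Set.range fun y : b => ((1 : Localization.AtPrime 𝔪) ⊗ₜ[A] v y :
          Localization.AtPrime 𝔪 ⊗[A] Derivation k A A)),
        ((extZero d A I₀).baseChange (Localization.AtPrime 𝔪))
          (((evCompl k d A I₀).baseChange (Localization.AtPrime 𝔪)) m)
        = ((evVars k d A).baseChange (Localization.AtPrime 𝔪)) m := by
      intro m hm
      induction hm using Submodule.span_induction with
      | mem m hm =>
        obtain ⟨y, rfl⟩ := hm
        rw [LinearMap.baseChange_tmul, LinearMap.baseChange_tmul, LinearMap.baseChange_tmul,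
          extZero_evCompl I₀ (v y) (hv₁ y)]
      | zero => simp
      | add x y _ _ hx hy => rw [map_add, map_add, map_add, hx, hy]
      | smul r x _ hx => rw [map_smul, map_smul, map_smul, hx]
    have hli2 : LinearIndependent (Localization.AtPrime 𝔪)
        (fun y : b => ((evCompl k d A I₀).baseChange (Localization.AtPrime 𝔪))
          ((1 : Localization.AtPrime 𝔪) ⊗ₜ[A] v y)) := by
      rw [linearIndependent_iff']
      intro t g hg y hy
      have h0 : ((evCompl k d A I₀).baseChange (Localization.AtPrime 𝔪))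
          (∑ y ∈ t, g y • ((1 : Localization.AtPrime 𝔪) ⊗ₜ[A] v y)) = 0 := by
        rw [map_sum, ← hg]
        refine Finset.sum_congr rfl fun y _ => ?_
        rw [map_smul]
      have hmem : (∑ y ∈ t, g y • ((1 : Localization.AtPrime 𝔪) ⊗ₜ[A] v y))
          ∈ Submodule.span (Localization.AtPrime 𝔪)
            (Set.range fun y : b => ((1 : Localization.AtPrime 𝔪) ⊗ₜ[A] v y :
              Localization.AtPrime 𝔪 ⊗[A] Derivation k A A)) :=
        Submodule.sum_mem _ fun y _ =>
          Submodule.smul_mem _ _ (Submodule.subset_span ⟨y, rfl⟩)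
      have h1 := heq _ hmem
      rw [h0, map_zero] at h1
      have h2 : (∑ y ∈ t, g y • ((1 : Localization.AtPrime 𝔪) ⊗ₜ[A] v y) :
          Localization.AtPrime 𝔪 ⊗[A] Derivation k A A) = 0 :=
        hinj (by rw [← h1, map_zero])
      exact (linearIndependent_iff'.1 huli) t g h2 y hy
    have h3 := hli2.fintype_card_le_finrank
    have h4 : Module.finrank (Localization.AtPrime 𝔪)
        (Localization.AtPrime 𝔪 ⊗[A] ({i : Fin d // i ∉ I₀} → A))
        = Fintype.card {i : Fin d // i ∉ I₀} := by
      rw [Module.finrank_baseChange, Module.finrank_pi]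
    have h5 : Fintype.card {i : Fin d // i ∉ I₀} + I₀.card = d := by
      have := Fintype.card_subtype_compl (fun i : Fin d => i ∈ I₀)
      rw [this, Fintype.card_fin, Fintype.card_coe]
      exact Nat.sub_add_cancel (by simpa using Finset.card_le_univ I₀)
    rw [h4] at h3
    omega
  -- Nakayama: these derivations and those mapping `P` into `𝔪` generate
  have hW : Submodule.span (Localization.AtPrime 𝔪)
      (Set.range fun y : b => ((1 : Localization.AtPrime 𝔪) ⊗ₜ[A] v y :
        Localization.AtPrime 𝔪 ⊗[A] Derivation k A A))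
      ⊔ Submodule.span (Localization.AtPrime 𝔪)
      ((fun θ : Derivation k A A => (1 : Localization.AtPrime 𝔪) ⊗ₜ[A] θ) ''
        {θ | ∀ p ∈ P, θ p ∈ 𝔪}) = ⊤ := by
    rw [← IsLocalRing.map_tensorProduct_mk_eq_top, eq_top_iff]
    have hspanle : ∀ t ∈ Submodule.span (IsLocalRing.ResidueField (Localization.AtPrime 𝔪)) b,
        t ∈ Submodule.map (TensorProduct.mk (Localization.AtPrime 𝔪)
          (IsLocalRing.ResidueField (Localization.AtPrime 𝔪))
          (Localization.AtPrime 𝔪 ⊗[A] Derivation k A A) 1)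
          (Submodule.span (Localization.AtPrime 𝔪)
            (Set.range fun y : b => ((1 : Localization.AtPrime 𝔪) ⊗ₜ[A] v y :
              Localization.AtPrime 𝔪 ⊗[A] Derivation k A A))
          ⊔ Submodule.span (Localization.AtPrime 𝔪)
            ((fun θ : Derivation k A A => (1 : Localization.AtPrime 𝔪) ⊗ₜ[A] θ) ''
              {θ | ∀ p ∈ P, θ p ∈ 𝔪})) := by
      intro t ht
      induction ht using Submodule.span_induction with
      | mem t ht =>
        have h3 := Submodule.mem_map_of_mem (f := TensorProduct.mk (Localization.AtPrime 𝔪)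
          (IsLocalRing.ResidueField (Localization.AtPrime 𝔪))
          (Localization.AtPrime 𝔪 ⊗[A] Derivation k A A) 1)
          (Submodule.mem_sup_left (Submodule.subset_span ⟨⟨t, ht⟩, rfl⟩) :
            ((1 : Localization.AtPrime 𝔪) ⊗ₜ[A] v ⟨t, ht⟩ :
              Localization.AtPrime 𝔪 ⊗[A] Derivation k A A) ∈
            Submodule.span (Localization.AtPrime 𝔪)
              (Set.range fun y : b => ((1 : Localization.AtPrime 𝔪) ⊗ₜ[A] v y :
                Localization.AtPrime 𝔪 ⊗[A] Derivation k A A))
            ⊔ Submodule.span (Localization.AtPrime 𝔪)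
              ((fun θ : Derivation k A A => (1 : Localization.AtPrime 𝔪) ⊗ₜ[A] θ) ''
                {θ | ∀ p ∈ P, θ p ∈ 𝔪}))
        rwa [hv₂ ⟨t, ht⟩] at h3
      | zero => exact Submodule.zero_mem _
      | add x y _ _ hx hy => exact Submodule.add_mem _ hx hy
      | smul c x _ hx =>
        obtain ⟨r, rfl⟩ := IsLocalRing.residue_surjective c
        have : (IsLocalRing.residue (Localization.AtPrime 𝔪) r) • x = r • x := by
          rw [← algebraMap_smul (IsLocalRing.ResidueField (Localization.AtPrime 𝔪)) r x]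
          rfl
        rw [this]
        exact Submodule.smul_mem _ _ hx
    have hN' : ∀ n' ∈ Submodule.span (Localization.AtPrime 𝔪)
        ((fun θ : Derivation k A A => (1 : Localization.AtPrime 𝔪) ⊗ₜ[A] θ) ''
          {θ | ∀ i ∈ I₀, θ (algebraMap (MvPolynomial (Fin d) k) A (MvPolynomial.X i)) = 0}),
        (TensorProduct.mk (Localization.AtPrime 𝔪)
          (IsLocalRing.ResidueField (Localization.AtPrime 𝔪))
          (Localization.AtPrime 𝔪 ⊗[A] Derivation k A A) 1) n'
        ∈ Submodule.map (TensorProduct.mk (Localization.AtPrime 𝔪)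
          (IsLocalRing.ResidueField (Localization.AtPrime 𝔪))
          (Localization.AtPrime 𝔪 ⊗[A] Derivation k A A) 1)
          (Submodule.span (Localization.AtPrime 𝔪)
            (Set.range fun y : b => ((1 : Localization.AtPrime 𝔪) ⊗ₜ[A] v y :
              Localization.AtPrime 𝔪 ⊗[A] Derivation k A A))
          ⊔ Submodule.span (Localization.AtPrime 𝔪)
            ((fun θ : Derivation k A A => (1 : Localization.AtPrime 𝔪) ⊗ₜ[A] θ) ''
              {θ | ∀ p ∈ P, θ p ∈ 𝔪})) := by
      intro n' hn'
      induction hn' using Submodule.span_induction with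
      | mem n' hn' =>
        apply hspanle
        rw [hspan]
        exact Submodule.subset_span ⟨n', hn', rfl⟩
      | zero => rw [map_zero]; exact Submodule.zero_mem _
      | add x y _ _ hx hy => rw [map_add]; exact Submodule.add_mem _ hx hy
      | smul r x _ hx => rw [map_smul]; exact Submodule.smul_mem _ _ hx
    intro z _
    obtain ⟨m, rfl⟩ := TensorProduct.mk_surjective (Localization.AtPrime 𝔪)
      (Localization.AtPrime 𝔪 ⊗[A] Derivation k A A)
      (IsLocalRing.ResidueField (Localization.AtPrime 𝔪)) IsLocalRing.residue_surjective z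
    have hm : m ∈ (⊤ : Submodule (Localization.AtPrime 𝔪)
        (Localization.AtPrime 𝔪 ⊗[A] Derivation k A A)) := Submodule.mem_top
    rw [← hNH] at hm
    obtain ⟨n', hn', h, hh, rfl⟩ := Submodule.mem_sup.1 hm
    rw [map_add]
    exact Submodule.add_mem _ (hN' n' hn')
      (Submodule.mem_map_of_mem (Submodule.mem_sup_right hh))
  -- decompose `D` accordingly
  rw [← hW, Submodule.smul_sup] at hDM
  obtain ⟨m₁, hm₁, m₂, hm₂, hsum⟩ := Submodule.mem_sup.1 hDM
  obtain ⟨c, hc, hcsum⟩ := (Submodule.mem_ideal_smul_span_iff_exists_sum _ _ m₁).1 hm₁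
  -- evaluation at an element of `P`
  have hev : ∀ g ∈ P, algebraMap A (Localization.AtPrime 𝔪) (D g) ∈ Ideal.span
      ((Finset.univ.image fun y : b => c y : Finset (Localization.AtPrime 𝔪)) :
        Set (Localization.AtPrime 𝔪))
      ⊔ IsLocalRing.maximalIdeal (Localization.AtPrime 𝔪) ^ 2 := by
    intro g hg
    have h1 : LinearMap.liftBaseChange (Localization.AtPrime 𝔪)
        ((Algebra.linearMap A (Localization.AtPrime 𝔪)).comp (evAt k A g))
        ((1 : Localization.AtPrime 𝔪) ⊗ₜ[A] D)
        = algebraMap A (Localization.AtPrime 𝔪) (D g) := by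
      rw [LinearMap.liftBaseChange_tmul, one_smul]
      rfl
    have hH : ∀ h ∈ Submodule.span (Localization.AtPrime 𝔪)
        ((fun θ : Derivation k A A => (1 : Localization.AtPrime 𝔪) ⊗ₜ[A] θ) ''
          {θ | ∀ p ∈ P, θ p ∈ 𝔪}),
        LinearMap.liftBaseChange (Localization.AtPrime 𝔪)
          ((Algebra.linearMap A (Localization.AtPrime 𝔪)).comp (evAt k A g)) h
        ∈ IsLocalRing.maximalIdeal (Localization.AtPrime 𝔪) := by
      intro h hh
      induction hh using Submodule.span_induction with
      | mem h hh =>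
        obtain ⟨θ, hθ, rfl⟩ := hh
        rw [LinearMap.liftBaseChange_tmul, one_smul]
        exact hmem𝔪 _ (hθ g hg)
      | zero => rw [map_zero]; exact Ideal.zero_mem _
      | add x y _ _ hx hy => rw [map_add]; exact Ideal.add_mem _ hx hy
      | smul r x _ hx => rw [map_smul, smul_eq_mul]; exact Ideal.mul_mem_left _ _ hx
    have hm₂' : LinearMap.liftBaseChange (Localization.AtPrime 𝔪)
        ((Algebra.linearMap A (Localization.AtPrime 𝔪)).comp (evAt k A g)) m₂
        ∈ IsLocalRing.maximalIdeal (Localization.AtPrime 𝔪) ^ 2 := by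
      refine Submodule.smul_induction_on hm₂ ?_ ?_
      · intro r hr n hn
        rw [map_smul, smul_eq_mul, pow_two]
        exact Ideal.mul_mem_mul hr (hH n hn)
      · intro x y hx hy
        rw [map_add]
        exact Ideal.add_mem _ hx hy
    have hm₁' : LinearMap.liftBaseChange (Localization.AtPrime 𝔪)
        ((Algebra.linearMap A (Localization.AtPrime 𝔪)).comp (evAt k A g)) m₁
        ∈ Ideal.span ((Finset.univ.image fun y : b => c y : Finset (Localization.AtPrime 𝔪)) :
          Set (Localization.AtPrime 𝔪)) := by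
      rw [← hcsum, Finsupp.sum, map_sum]
      refine Ideal.sum_mem _ fun y _ => ?_
      rw [map_smul, smul_eq_mul]
      refine Ideal.mul_mem_right _ _ (Ideal.subset_span ?_)
      rw [Finset.mem_coe]
      exact Finset.mem_image_of_mem _ (Finset.mem_univ y)
    rw [← h1, ← hsum, map_add]
    exact Ideal.add_mem _ (Ideal.mem_sup_left hm₁') (Ideal.mem_sup_right hm₂')
  -- the generators
  have hPle : Ideal.map (algebraMap A (Localization.AtPrime 𝔪)) (Ideal.span P)
      ≤ Ideal.span ((Finset.univ.image fun y : b => c y : Finset (Localization.AtPrime 𝔪)) :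
        Set (Localization.AtPrime 𝔪))
      ⊔ IsLocalRing.maximalIdeal (Localization.AtPrime 𝔪) ^ 2 := by
    rw [Ideal.map_span, Ideal.span_le]
    rintro _ ⟨f, hf, rfl⟩
    obtain ⟨g, hg, hfg⟩ := hsurj f hf
    have h1 : algebraMap A (Localization.AtPrime 𝔪) f
        = algebraMap A (Localization.AtPrime 𝔪) (D g)
          + algebraMap A (Localization.AtPrime 𝔪) (f - D g) := by
      rw [← map_add]; congr 1; ring
    rw [SetLike.mem_coe, h1]
    have h3 : algebraMap A (Localization.AtPrime 𝔪) (f - D g)
        ∈ IsLocalRing.maximalIdeal (Localization.AtPrime 𝔪) ^ 2 := by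
      rw [← hmax, ← Ideal.map_pow]
      exact Ideal.mem_map_of_mem _ hfg
    exact Ideal.add_mem _ (hev g hg) (Ideal.mem_sup_right h3)
  refine isRegularLocalRing_of_finset (Y ∪ (Finset.univ.image fun y : b => c y)) ?_ ?_ ?_
  · intro a ha
    rcases Finset.mem_union.1 ha with ha | ha
    · exact hYm a ha
    · obtain ⟨y, _, rfl⟩ := Finset.mem_image.1 ha
      exact hc y
  · rw [← hmax, Ideal.map_le_iff_le_comap]
    intro a ha
    rw [Ideal.mem_comap, hmax]
    have hle : Ideal.span (Y : Set (Localization.AtPrime 𝔪))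
        ⊔ Ideal.map (algebraMap A (Localization.AtPrime 𝔪)) (Ideal.span P)
        ⊔ IsLocalRing.maximalIdeal (Localization.AtPrime 𝔪) ^ 2
        ≤ Ideal.span (((Y ∪ (Finset.univ.image fun y : b => c y) :
            Finset (Localization.AtPrime 𝔪)) : Set (Localization.AtPrime 𝔪)))
          ⊔ IsLocalRing.maximalIdeal (Localization.AtPrime 𝔪) ^ 2 := by
      refine sup_le (sup_le ?_ ?_) le_sup_right
      · refine le_trans (Ideal.span_mono ?_) le_sup_left
        intro t ht
        rw [Finset.mem_coe] at ht ⊢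
        exact Finset.mem_union_left _ ht
      · refine le_trans hPle (sup_le ?_ le_sup_right)
        refine le_trans (Ideal.span_mono ?_) le_sup_left
        intro t ht
        rw [Finset.mem_coe] at ht ⊢
        exact Finset.mem_union_right _ ht
    exact hle (hgen a ha)
  · rw [IsLocalization.AtPrime.ringKrullDim_eq_height 𝔪 (Localization.AtPrime 𝔪)]
    have h1 : (d : ℕ∞) ≤ 𝔪.height := height_ge_of_finite (k := k) 𝔪 hxm
    have h2 : (Y ∪ (Finset.univ.image fun y : b => c y)).card ≤ d := by
      refine le_trans (Finset.card_union_le _ _) ?_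
      have h4 : (Finset.univ.image fun y : b => c y).card ≤ Fintype.card b := by
        refine le_trans Finset.card_image_le ?_
        rw [Finset.card_univ]
      omega
    have h3 : (((Y ∪ (Finset.univ.image fun y : b => c y)).card : ℕ) : ℕ∞) ≤ 𝔪.height :=
      le_trans (by exact_mod_cast h2) h1
    exact_mod_cast h3

end Adapted

end Vale.Agent.H71
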