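import Mathlib

/-!
# Localisations of a quotient ring

For an ideal `I` of `A` and a prime `𝔮` of `A ⧸ I` with preimage `𝔪` in `A`: a lower bound for the
height of `𝔪` in terms of the height of `𝔮`, and generators of the maximal ideal of `A_𝔪` modulo
`I` coming from a regular local ring `(A ⧸ I)_𝔮`.
-/

set_option linter.unusedSectionVars false
set_option linter.style.haveILetI false

namespace Vale.Agent.H71

section QuotLocal

variable {A : Type*} [CommRing A]

/-- If every prime between `I` and the preimage `𝔪` of `𝔮` has height at least `j`, then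
`j + ht 𝔮 ≤ ht 𝔪`. -/
theorem height_comap_quotient_ge [IsNoetherianRing A] (I : Ideal A) (𝔮 : Ideal (A ⧸ I))
    [𝔮.IsPrime] (j : ℕ)
    (hj : ∀ 𝔭 : Ideal A, 𝔭.IsPrime → I ≤ 𝔭 → 𝔭 ≤ 𝔮.comap (Ideal.Quotient.mk I) →
      (j : ℕ∞) ≤ 𝔭.height) :
    (j : ℕ∞) + 𝔮.height ≤ (𝔮.comap (Ideal.Quotient.mk I)).height := by
  obtain ⟨l, hlast, hlen⟩ := Ideal.exists_ltSeries_length_eq_height 𝔮
  have hIle : ∀ p : Ideal (A ⧸ I), I ≤ p.comap (Ideal.Quotient.mk I) := by
    intro p a ha
    rw [Ideal.mem_comap, Ideal.Quotient.eq_zero_iff_mem.2 ha]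
    exact p.zero_mem
  have key : ∀ i : ℕ, ∀ hi : i ≤ l.length,
      ((j : ℕ∞) + i) ≤ ((l ⟨i, Nat.lt_succ_of_le hi⟩).asIdeal.comap (Ideal.Quotient.mk I)).height := by
    intro i
    induction i with
    | zero =>
      intro hi
      rw [Nat.cast_zero, add_zero]
      refine hj _ inferInstance (hIle _) (Ideal.comap_mono ?_)
      have h1 : l ⟨0, Nat.lt_succ_of_le hi⟩ ≤ l.last :=
        l.strictMono.monotone (Fin.le_last _)
      rw [hlast] at h1
      exact (PrimeSpectrum.asIdeal_le_asIdeal _ _).2 h1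
    | succ i ih =>
      intro hi
      have hi' : i ≤ l.length := Nat.le_of_succ_le hi
      have hlt : l ⟨i, Nat.lt_succ_of_le hi'⟩ < l ⟨i + 1, Nat.lt_succ_of_le hi⟩ :=
        l.strictMono (Fin.mk_lt_mk.2 (Nat.lt_succ_self i))
      have hlt' : (l ⟨i, Nat.lt_succ_of_le hi'⟩).asIdeal.comap (Ideal.Quotient.mk I)
          < (l ⟨i + 1, Nat.lt_succ_of_le hi⟩).asIdeal.comap (Ideal.Quotient.mk I) := by
        refine lt_of_le_of_ne (Ideal.comap_mono (le_of_lt
          ((PrimeSpectrum.asIdeal_lt_asIdeal _ _).2 hlt))) ?_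
        intro heq
        have := Ideal.comap_injective_of_surjective (Ideal.Quotient.mk I)
          Ideal.Quotient.mk_surjective heq
        exact (ne_of_lt ((PrimeSpectrum.asIdeal_lt_asIdeal _ _).2 hlt)) this
      have h2 := Ideal.height_add_one_le_of_lt_of_isPrime hlt'
      calc ((j : ℕ∞) + ((i + 1 : ℕ) : ℕ∞)) = ((j : ℕ∞) + i) + 1 := by push_cast; rw [add_assoc]
        _ ≤ _ := add_le_add (ih hi') le_rfl
        _ ≤ _ := h2
  have h3 := key l.length le_rfl
  have h4 : l ⟨l.length, Nat.lt_succ_of_le le_rfl⟩ = ⟨𝔮, inferInstance⟩ := hlast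
  rw [h4, hlen] at h3
  exact h3

/-- Generators of the maximal ideal of `A_𝔪` modulo `I`, when `(A ⧸ I)_𝔮` is regular. -/
theorem exists_finset_gen_of_quotient_regular (I : Ideal A) (𝔮 : Ideal (A ⧸ I)) [𝔮.IsPrime]
    (hreg : IsRegularLocalRing (Localization.AtPrime 𝔮)) :
    ∃ Y : Finset (Localization.AtPrime (𝔮.comap (Ideal.Quotient.mk I))),
      (∀ y ∈ Y, y ∈ IsLocalRing.maximalIdeal
        (Localization.AtPrime (𝔮.comap (Ideal.Quotient.mk I)))) ∧
      ((Y.card : ℕ∞) ≤ 𝔮.height) ∧
      (∀ a ∈ 𝔮.comap (Ideal.Quotient.mk I),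
        algebraMap A (Localization.AtPrime (𝔮.comap (Ideal.Quotient.mk I))) a
          ∈ Ideal.span (Y : Set (Localization.AtPrime (𝔮.comap (Ideal.Quotient.mk I))))
            ⊔ Ideal.map (algebraMap A (Localization.AtPrime (𝔮.comap (Ideal.Quotient.mk I)))) I) := by
  classical
  haveI hnoeth : IsNoetherianRing (Localization.AtPrime 𝔮) := hreg.toIsNoetherian
  have hfg : Submodule.FG (IsLocalRing.maximalIdeal (Localization.AtPrime 𝔮)) :=
    IsNoetherian.noetherian _
  have hgfin := Submodule.FG.finite_generators hfg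
  -- the surjection `A_𝔪 → (A ⧸ I)_𝔮`
  have hsurj : Function.Surjective (Localization.localRingHom (𝔮.comap (Ideal.Quotient.mk I)) 𝔮
      (Ideal.Quotient.mk I) rfl) := by
    intro z
    obtain ⟨b, s, rfl⟩ := IsLocalization.exists_mk'_eq 𝔮.primeCompl z
    obtain ⟨a, rfl⟩ := Ideal.Quotient.mk_surjective b
    obtain ⟨t, ht⟩ := Ideal.Quotient.mk_surjective (s : A ⧸ I)
    have ht' : t ∈ (𝔮.comap (Ideal.Quotient.mk I)).primeCompl := by
      intro hmem
      have hmem' : Ideal.Quotient.mk I t ∈ 𝔮 := hmem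
      rw [ht] at hmem'
      exact s.2 hmem'
    refine ⟨IsLocalization.mk' _ a (⟨t, ht'⟩ : (𝔮.comap (Ideal.Quotient.mk I)).primeCompl), ?_⟩
    rw [Localization.localRingHom_mk']
    congr 1
    exact Subtype.ext ht
  have hker : ∀ r : Localization.AtPrime (𝔮.comap (Ideal.Quotient.mk I)),
      Localization.localRingHom (𝔮.comap (Ideal.Quotient.mk I)) 𝔮 (Ideal.Quotient.mk I) rfl r = 0 →
      r ∈ Ideal.map (algebraMap A (Localization.AtPrime (𝔮.comap (Ideal.Quotient.mk I)))) I := by
    intro r hr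
    obtain ⟨a, t, rfl⟩ := IsLocalization.exists_mk'_eq (𝔮.comap (Ideal.Quotient.mk I)).primeCompl r
    rw [Localization.localRingHom_mk', IsLocalization.mk'_eq_zero_iff] at hr
    obtain ⟨m, hm⟩ := hr
    obtain ⟨v, hv⟩ := Ideal.Quotient.mk_surjective (m : A ⧸ I)
    rw [IsLocalization.mk'_mem_map_algebraMap_iff (𝔮.comap (Ideal.Quotient.mk I)).primeCompl]
    refine ⟨v, ?_, ?_⟩
    · intro hmem
      have hmem' : Ideal.Quotient.mk I v ∈ 𝔮 := hmem
      rw [hv] at hmem'
      exact m.2 hmem'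
    · rw [← Ideal.Quotient.eq_zero_iff_mem, map_mul, hv]
      exact hm
  have hlocal : IsLocalHom (Localization.localRingHom (𝔮.comap (Ideal.Quotient.mk I)) 𝔮
      (Ideal.Quotient.mk I) rfl) := Localization.isLocalHom_localRingHom _ _ _ rfl
  refine ⟨hgfin.toFinset.image (Function.surjInv hsurj), ?_, ?_, ?_⟩
  · intro y hy
    obtain ⟨z, hz, rfl⟩ := Finset.mem_image.1 hy
    rw [Set.Finite.mem_toFinset] at hz
    have hz' := Submodule.FG.generators_mem _ hz
    rw [← Function.surjInv_eq hsurj z] at hz'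
    rw [SetLike.mem_coe, IsLocalRing.mem_maximalIdeal, mem_nonunits_iff] at hz'
    rw [IsLocalRing.mem_maximalIdeal, mem_nonunits_iff]
    exact fun hu => hz' (hu.map _)
  · have h1 : (hgfin.toFinset.image (Function.surjInv hsurj)).card
        ≤ (IsLocalRing.maximalIdeal (Localization.AtPrime 𝔮)).spanFinrank := by
      refine le_trans Finset.card_image_le ?_
      rw [← hfg.generators_ncard, Set.ncard_eq_toFinset_card _ hgfin]
    have h2 := hreg.spanFinrank_maximalIdeal
    rw [IsLocalization.AtPrime.ringKrullDim_eq_height 𝔮 (Localization.AtPrime 𝔮)] at h2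
    have h4 : (((IsLocalRing.maximalIdeal (Localization.AtPrime 𝔮)).spanFinrank : ℕ) : ℕ∞)
        = 𝔮.height := by
      exact_mod_cast h2
    rw [← h4]
    exact_mod_cast h1
  · intro a ha
    have h5 : Localization.localRingHom (𝔮.comap (Ideal.Quotient.mk I)) 𝔮 (Ideal.Quotient.mk I) rfl
        (algebraMap A _ a) ∈ IsLocalRing.maximalIdeal (Localization.AtPrime 𝔮) := by
      rw [Localization.localRingHom_to_map, ← Localization.AtPrime.map_eq_maximalIdeal]
      exact Ideal.mem_map_of_mem _ ha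
    have h6 : Ideal.map (Localization.localRingHom (𝔮.comap (Ideal.Quotient.mk I)) 𝔮
        (Ideal.Quotient.mk I) rfl)
        (Ideal.span ((hgfin.toFinset.image (Function.surjInv hsurj) :
          Finset (Localization.AtPrime (𝔮.comap (Ideal.Quotient.mk I)))) : Set _))
        = IsLocalRing.maximalIdeal (Localization.AtPrime 𝔮) := by
      rw [Ideal.map_span, Finset.coe_image, Set.Finite.coe_toFinset, Set.image_image]
      have : (fun z => Localization.localRingHom (𝔮.comap (Ideal.Quotient.mk I)) 𝔮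
          (Ideal.Quotient.mk I) rfl (Function.surjInv hsurj z)) = id := by
        funext z
        exact Function.surjInv_eq hsurj z
      rw [this, Set.image_id]
      exact Submodule.span_generators _
    rw [← h6, Ideal.mem_map_iff_of_surjective _ hsurj] at h5
    obtain ⟨y', hy', hy'eq⟩ := h5
    have h7 : algebraMap A (Localization.AtPrime (𝔮.comap (Ideal.Quotient.mk I))) a
        = y' + (algebraMap A (Localization.AtPrime (𝔮.comap (Ideal.Quotient.mk I))) a - y') := by
      ring
    rw [h7]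
    refine Ideal.add_mem _ (Ideal.mem_sup_left hy') (Ideal.mem_sup_right (hker _ ?_))
    rw [map_sub, hy'eq, sub_self]

end QuotLocal

end Vale.Agent.H71
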