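import Mathlib

/-!
# Derivations and minimal primes in characteristic zero

A minimal prime over an ideal stable under a derivation is stable under that derivation
(Seidenberg).  Only the elementary part needed later is proved.
-/

set_option linter.unusedSectionVars false

namespace Vale.Agent.H71

section Seidenberg

variable {k : Type*} [Field k] [CharZero k] {A : Type*} [CommRing A] [Algebra k A]

/-- Division by a nonzero natural number inside an ideal of a `ℚ`-algebra. -/
theorem mem_of_nsmul_mem (k : Type*) [Field k] [CharZero k] {A : Type*} [CommRing A] [Algebra k A]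
    (J : Ideal A) {c : ℕ} (hc : c ≠ 0) {z : A} (h : c • z ∈ J) : z ∈ J := by
  have hz : z = algebraMap k A ((c : k)⁻¹) * (c • z) := by
    rw [nsmul_eq_mul, ← mul_assoc, ← map_natCast (algebraMap k A) c, ← map_mul,
      inv_mul_cancel₀ (Nat.cast_ne_zero.2 hc), map_one, one_mul]
  rw [hz]
  exact J.mul_mem_left _ h

theorem mul_derivation_pow (θ : Derivation k A A) (b : A) (N : ℕ) :
    b * θ (b ^ N) = N • (b ^ N * θ b) := by
  cases N with
  | zero => simp
  | succ N =>
    rw [Derivation.leibniz_pow, Nat.add_sub_cancel, smul_eq_mul, nsmul_eq_mul, nsmul_eq_mul,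
      pow_succ]
    ring

/-- If an ideal `J` is stable under a derivation `θ` and `x ^ n ∈ J`, then
`(θ x) ^ (2 * n) ∈ J`. -/
theorem derivation_pow_mem (θ : Derivation k A A) (J : Ideal A) (hJ : ∀ u ∈ J, θ u ∈ J)
    (x : A) (n : ℕ) (hx : x ^ n ∈ J) : (θ x) ^ (2 * n) ∈ J := by
  have key : ∀ m, m ≤ n → x ^ (n - m) * (θ x) ^ (2 * m) ∈ J := by
    intro m
    induction m with
    | zero => intro _; simpa using hx
    | succ m ih =>
      intro hm
      have hP := ih (Nat.le_of_succ_le hm)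
      obtain ⟨a, ha⟩ : ∃ a, n - m = a + 1 := ⟨n - m - 1, by omega⟩
      have ha' : n - (m + 1) = a := by omega
      rw [ha] at hP
      rw [ha']
      have h1 := J.mul_mem_left (θ x) (hJ _ hP)
      have h2 : θ x * θ (x ^ (a + 1) * (θ x) ^ (2 * m))
          = (2 * m) • (θ (θ x) * (x ^ (a + 1) * (θ x) ^ (2 * m)))
            + (a + 1) • (x ^ a * (θ x) ^ (2 * (m + 1))) := by
        have e1 := mul_derivation_pow θ (θ x) (2 * m)
        have e2 : θ (x ^ (a + 1)) = (a + 1) • (x ^ a * θ x) := by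
          rw [Derivation.leibniz_pow, Nat.add_sub_cancel, smul_eq_mul]
        rw [Derivation.leibniz, smul_eq_mul, smul_eq_mul, e2]
        have e3 : θ x * (x ^ (a + 1) * θ ((θ x) ^ (2 * m)) + (θ x) ^ (2 * m) * (a + 1) • (x ^ a * θ x))
            = x ^ (a + 1) * (θ x * θ ((θ x) ^ (2 * m)))
              + (a + 1) • (x ^ a * ((θ x) ^ (2 * m) * θ x * θ x)) := by
          rw [nsmul_eq_mul, nsmul_eq_mul]; ring
        rw [e3, e1]
        have e4 : (θ x) ^ (2 * m) * θ x * θ x = (θ x) ^ (2 * (m + 1)) := by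
          rw [Nat.mul_succ, pow_add]; ring
        rw [e4, nsmul_eq_mul, nsmul_eq_mul]
        push_cast
        ring
      rw [h2] at h1
      have h3 : (2 * m) • (θ (θ x) * (x ^ (a + 1) * (θ x) ^ (2 * m))) ∈ J := by
        rw [nsmul_eq_mul]
        exact J.mul_mem_left _ (J.mul_mem_left _ hP)
      have h4 : (a + 1) • (x ^ a * (θ x) ^ (2 * (m + 1))) ∈ J := by
        have := J.sub_mem h1 h3
        rwa [add_sub_cancel_left] at this
      exact mem_of_nsmul_mem k J (Nat.succ_ne_zero a) h4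
  have := key n le_rfl
  rwa [Nat.sub_self, pow_zero, one_mul] at this

/-- **Seidenberg's lemma** (minimal primes).  A minimal prime over an ideal stable under a
derivation is stable under that derivation (characteristic zero). -/
theorem derivation_mem_of_mem_minimalPrimes (θ : Derivation k A A) (J : Ideal A)
    (hJ : ∀ u ∈ J, θ u ∈ J) (𝔭 : Ideal A) (h𝔭 : 𝔭 ∈ J.minimalPrimes) (x : A) (hx : x ∈ 𝔭) :
    θ x ∈ 𝔭 := by
  have hprime : 𝔭.IsPrime := h𝔭.1.1
  have hJ𝔭 : J ≤ 𝔭 := h𝔭.1.2
  -- the saturation of `J` at `𝔭`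
  let J' : Ideal A :=
    { carrier := {a | ∃ s, s ∉ 𝔭 ∧ s * a ∈ J}
      add_mem' := by
        rintro a b ⟨s, hs, hsa⟩ ⟨t, ht, htb⟩
        refine ⟨s * t, fun h => (hprime.mem_or_mem h).elim hs ht, ?_⟩
        have : s * t * (a + b) = t * (s * a) + s * (t * b) := by ring
        rw [this]
        exact J.add_mem (J.mul_mem_left _ hsa) (J.mul_mem_left _ htb)
      zero_mem' := ⟨1, fun h => hprime.ne_top ((Ideal.eq_top_iff_one _).2 h), by simp⟩
      smul_mem' := by
        rintro c a ⟨s, hs, hsa⟩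
        refine ⟨s, hs, ?_⟩
        have : s * (c • a) = c * (s * a) := by rw [smul_eq_mul]; ring
        rw [this]
        exact J.mul_mem_left _ hsa }
  have hJ'mem : ∀ a, a ∈ J' ↔ ∃ s, s ∉ 𝔭 ∧ s * a ∈ J := fun a => Iff.rfl
  have hJ'θ : ∀ u ∈ J', θ u ∈ J' := by
    intro u hu
    obtain ⟨s, hs, hsu⟩ := (hJ'mem u).1 hu
    refine (hJ'mem _).2 ⟨s * s, fun h => (hprime.mem_or_mem h).elim hs hs, ?_⟩
    have h1 := hJ _ hsu
    rw [Derivation.leibniz, smul_eq_mul, smul_eq_mul] at h1
    have : s * s * θ u = s * (s * θ u + u * θ s) - θ s * (s * u) := by ring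
    rw [this]
    exact J.sub_mem (J.mul_mem_left _ h1) (J.mul_mem_left _ hsu)
  have hJ'le : J' ≤ 𝔭 := by
    intro a ha
    obtain ⟨s, hs, hsa⟩ := (hJ'mem a).1 ha
    exact (hprime.mem_or_mem (hJ𝔭 hsa)).resolve_left hs
  -- a power of `x` lies in the saturation
  obtain ⟨n, hn⟩ : ∃ n, x ^ n ∈ J' := by
    have h1 := IsLocalization.AtPrime.radical_map_of_mem_minimalPrimes
      (A := Localization.AtPrime 𝔭) 𝔭 J h𝔭
    have h2 : algebraMap A (Localization.AtPrime 𝔭) x
        ∈ (J.map (algebraMap A (Localization.AtPrime 𝔭))).radical := by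
      rw [h1]
      exact Ideal.mem_map_of_mem _ hx
    obtain ⟨n, hn⟩ := h2
    rw [← map_pow, IsLocalization.algebraMap_mem_map_algebraMap_iff 𝔭.primeCompl] at hn
    obtain ⟨s, hs, hsx⟩ := hn
    exact ⟨n, (hJ'mem _).2 ⟨s, hs, hsx⟩⟩
  exact hprime.mem_of_pow_mem _ (hJ'le (derivation_pow_mem θ J' hJ'θ x n hn))

end Seidenberg

end Vale.Agent.H71
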