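import Mathlib
import Vale.Agent.H71.Seidenberg

/-!
# Triangular families of elements and derivations

Elements `g a` of an ideal `I ⊆ 𝔪` and derivations `θ a` with `θ a (g b) = 0` for `b < a` and
`θ a (g a) ∉ 𝔪`.  Such a family of length `j` forces every prime between `I` and `𝔪` to have
height at least `j`; a family of maximal length controls the conormal space of `I` at `𝔪`.
-/

set_option linter.unusedSectionVars false

namespace Vale.Agent.H71

section Triangular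

variable {k : Type*} [Field k] [CharZero k] {A : Type*} [CommRing A] [Algebra k A]

/-- A triangular family of length `j` in the ideal `I`, relative to the prime `𝔪`. -/
def IsTriangular (𝔪 I : Ideal A) (j : ℕ) (g : ℕ → A) (θ : ℕ → Derivation k A A) : Prop :=
  (∀ a < j, g a ∈ I) ∧ (∀ a < j, ∀ b < a, θ a (g b) = 0) ∧ (∀ a < j, θ a (g a) ∉ 𝔪)

omit [CharZero k] in
theorem IsTriangular.pred {𝔪 I : Ideal A} {j : ℕ} {g : ℕ → A} {θ : ℕ → Derivation k A A}
    (h : IsTriangular 𝔪 I (j + 1) g θ) : IsTriangular 𝔪 I j g θ :=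
  ⟨fun a ha => h.1 a (Nat.lt_succ_of_lt ha), fun a ha b hb => h.2.1 a (Nat.lt_succ_of_lt ha) b hb,
    fun a ha => h.2.2 a (Nat.lt_succ_of_lt ha)⟩

omit [CharZero k] in
/-- A derivation killing the generators of an ideal preserves it. -/
theorem derivation_span_mem (ϑ : Derivation k A A) (j : ℕ) (g : ℕ → A)
    (hϑ : ∀ b < j, ϑ (g b) = 0) (w : A) (hw : w ∈ Ideal.span {y | ∃ a < j, y = g a}) :
    ϑ w ∈ Ideal.span {y | ∃ a < j, y = g a} := by
  induction hw using Submodule.span_induction with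
  | mem y hy =>
    obtain ⟨a, ha, rfl⟩ := hy
    rw [hϑ a ha]
    exact Ideal.zero_mem _
  | zero => rw [map_zero]; exact Ideal.zero_mem _
  | add x y _ _ hx hy => rw [map_add]; exact Ideal.add_mem _ hx hy
  | smul r x hx hx' =>
    rw [smul_eq_mul, Derivation.leibniz, smul_eq_mul, smul_eq_mul]
    exact Ideal.add_mem _ (Ideal.mul_mem_left _ _ hx') (Ideal.mul_mem_right _ _ hx)

/-- A prime below `𝔪` containing the elements of a triangular family of length `j` has height at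
least `j`. -/
theorem height_ge_of_triangular (𝔪 I : Ideal A) (j : ℕ) (g : ℕ → A)
    (θ : ℕ → Derivation k A A) (h : IsTriangular 𝔪 I j g θ) (𝔮 : Ideal A) [𝔮.IsPrime]
    (h𝔮 : 𝔮 ≤ 𝔪) (hg : ∀ a < j, g a ∈ 𝔮) : (j : ℕ∞) ≤ 𝔮.height := by
  induction j generalizing 𝔮 with
  | zero => simp
  | succ j ih =>
    have hJ𝔮 : Ideal.span {y | ∃ a < j, y = g a} ≤ 𝔮 := by
      rw [Ideal.span_le]
      rintro y ⟨a, ha, rfl⟩
      exact hg a (Nat.lt_succ_of_lt ha)
    obtain ⟨𝔭, h𝔭, h𝔭𝔮⟩ := Ideal.exists_minimalPrimes_le hJ𝔮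
    have : 𝔭.IsPrime := h𝔭.1.1
    have hstab : ∀ u ∈ Ideal.span {y | ∃ a < j, y = g a},
        θ j u ∈ Ideal.span {y | ∃ a < j, y = g a} :=
      fun u hu => derivation_span_mem (θ j) j g (fun b hb => h.2.1 j (Nat.lt_succ_self j) b hb) u hu
    have hgj : g j ∉ 𝔭 := by
      intro hmem
      have := derivation_mem_of_mem_minimalPrimes (θ j) _ hstab 𝔭 h𝔭 (g j) hmem
      exact h.2.2 j (Nat.lt_succ_self j) (h𝔮 (h𝔭𝔮 this))
    have hlt : 𝔭 < 𝔮 :=
      lt_of_le_of_ne h𝔭𝔮 (fun heq => hgj (heq ▸ hg j (Nat.lt_succ_self j)))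
    have h1 : (j : ℕ∞) ≤ 𝔭.height :=
      ih h.pred 𝔭 (h𝔭𝔮.trans h𝔮) (fun a ha => h𝔭.1.2 (Ideal.subset_span ⟨a, ha, rfl⟩))
    have h2 := Ideal.height_add_one_le_of_lt_of_isPrime hlt
    calc ((j + 1 : ℕ) : ℕ∞) = (j : ℕ∞) + 1 := by push_cast; rfl
      _ ≤ 𝔭.height + 1 := add_le_add h1 le_rfl
      _ ≤ 𝔮.height := h2

omit [CharZero k] in
/-- Elimination on the side of derivations. -/
theorem exists_derivation_killing (𝔪 I : Ideal A) [h𝔪 : 𝔪.IsPrime] (j : ℕ) (g : ℕ → A)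
    (θ : ℕ → Derivation k A A) (h : IsTriangular 𝔪 I j g θ) (ϑ : Derivation k A A) :
    ∃ ϑ' : Derivation k A A, ∃ t : A, t ∉ 𝔪 ∧ (∀ b < j, ϑ' (g b) = 0) ∧
      (∀ u : A, (∀ a < j, θ a u ∈ 𝔪) → ϑ' u - t * ϑ u ∈ 𝔪) := by
  induction j with
  | zero =>
    refine ⟨ϑ, 1, fun h1 => h𝔪.ne_top ((Ideal.eq_top_iff_one _).2 h1), fun b hb => ?_,
      fun u _ => ?_⟩
    · exact absurd hb (Nat.not_lt_zero b)
    · rw [one_mul, sub_self]; exact 𝔪.zero_mem
  | succ j ih =>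
    obtain ⟨ϑ₁, t₁, ht₁, hkill, hcong⟩ := ih h.pred
    have htj : θ j (g j) ∉ 𝔪 := h.2.2 j (Nat.lt_succ_self j)
    refine ⟨θ j (g j) • ϑ₁ - ϑ₁ (g j) • θ j, θ j (g j) * t₁,
      fun hmem => (h𝔪.mem_or_mem hmem).elim htj ht₁, fun b hb => ?_, fun u hu => ?_⟩
    · rw [Derivation.sub_apply, Derivation.smul_apply, Derivation.smul_apply, smul_eq_mul,
        smul_eq_mul]
      rcases Nat.lt_succ_iff_lt_or_eq.1 hb with hb' | rfl
      · rw [hkill b hb', h.2.1 j (Nat.lt_succ_self j) b hb', mul_zero, mul_zero, sub_zero]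
      · ring
    · rw [Derivation.sub_apply, Derivation.smul_apply, Derivation.smul_apply, smul_eq_mul,
        smul_eq_mul]
      have h1 := hcong u (fun a ha => hu a (Nat.lt_succ_of_lt ha))
      have h2 := hu j (Nat.lt_succ_self j)
      have : θ j (g j) * ϑ₁ u - ϑ₁ (g j) * θ j u - θ j (g j) * t₁ * ϑ u
          = θ j (g j) * (ϑ₁ u - t₁ * ϑ u) - ϑ₁ (g j) * θ j u := by ring
      rw [this]
      exact 𝔪.sub_mem (𝔪.mul_mem_left _ h1) (𝔪.mul_mem_left _ h2)

omit [CharZero k] in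
/-- Elimination on the side of elements. -/
theorem exists_elt_orthogonal (𝔪 I : Ideal A) [h𝔪 : 𝔪.IsPrime] (hI : I ≤ 𝔪) (j : ℕ)
    (g : ℕ → A) (θ : ℕ → Derivation k A A) (h : IsTriangular 𝔪 I j g θ) (u : A) (hu : u ∈ I) :
    ∃ u' ∈ I, ∃ t : A, t ∉ 𝔪 ∧ t * u - u' ∈ Ideal.span {y | ∃ a < j, y = g a} ∧
      (∀ a < j, θ a u' ∈ 𝔪) := by
  induction j generalizing u with
  | zero =>
    refine ⟨u, hu, 1, fun h1 => h𝔪.ne_top ((Ideal.eq_top_iff_one _).2 h1), ?_, fun a ha => ?_⟩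
    · rw [one_mul, sub_self]; exact Ideal.zero_mem _
    · exact absurd ha (Nat.not_lt_zero a)
  | succ j ih =>
    have htj : θ j (g j) ∉ 𝔪 := h.2.2 j (Nat.lt_succ_self j)
    have hgj : g j ∈ I := h.1 j (Nat.lt_succ_self j)
    have hu₁ : θ j (g j) * u - θ j u * g j ∈ I :=
      I.sub_mem (I.mul_mem_left _ hu) (I.mul_mem_left _ hgj)
    obtain ⟨u', hu', t₁, ht₁, hspan, horth⟩ := ih h.pred _ hu₁
    have hle : Ideal.span {y | ∃ a < j, y = g a} ≤ Ideal.span {y | ∃ a < j + 1, y = g a} :=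
      Ideal.span_mono (fun y ⟨a, ha, hy⟩ => ⟨a, Nat.lt_succ_of_lt ha, hy⟩)
    refine ⟨u', hu', t₁ * θ j (g j), fun hmem => (h𝔪.mem_or_mem hmem).elim ht₁ htj, ?_,
      fun a ha => ?_⟩
    · have : t₁ * θ j (g j) * u - u'
          = (t₁ * (θ j (g j) * u - θ j u * g j) - u') + t₁ * θ j u * g j := by ring
      rw [this]
      exact Ideal.add_mem _ (hle hspan)
        (Ideal.mul_mem_left _ _ (Ideal.subset_span ⟨j, Nat.lt_succ_self j, rfl⟩))
    · rcases Nat.lt_succ_iff_lt_or_eq.1 ha with ha' | rfl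
      · exact horth a ha'
      · -- `θ a u' ∈ 𝔪`
        have hw := derivation_span_mem (θ a) a g
          (fun b hb => h.2.1 a (Nat.lt_succ_self a) b hb) _ hspan
        have hw𝔪 : θ a (t₁ * (θ a (g a) * u - θ a u * g a) - u') ∈ 𝔪 := by
          refine hI ?_
          have hsub : Ideal.span {y | ∃ b < a, y = g b} ≤ I := by
            rw [Ideal.span_le]
            rintro y ⟨b, hb, rfl⟩
            exact h.1 b (Nat.lt_succ_of_lt hb)
          exact hsub hw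
        have h1 : θ a (t₁ * (θ a (g a) * u - θ a u * g a)) ∈ 𝔪 := by
          rw [Derivation.leibniz, smul_eq_mul, smul_eq_mul]
          refine 𝔪.add_mem (𝔪.mul_mem_left _ ?_) (𝔪.mul_mem_right _ (hI hu₁))
          rw [map_sub, Derivation.leibniz, Derivation.leibniz, smul_eq_mul, smul_eq_mul,
            smul_eq_mul, smul_eq_mul]
          have : θ a (g a) * θ a u + u * θ a (θ a (g a)) - (θ a u * θ a (g a) + g a * θ a (θ a u))
              = u * θ a (θ a (g a)) - g a * θ a (θ a u) := by ring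
          rw [this]
          exact 𝔪.sub_mem (𝔪.mul_mem_right _ (hI hu)) (𝔪.mul_mem_right _ (hI hgj))
        have : θ a u' = θ a (t₁ * (θ a (g a) * u - θ a u * g a))
            - θ a (t₁ * (θ a (g a) * u - θ a u * g a) - u') := by
          rw [map_sub]; ring
        rw [this]
        exact 𝔪.sub_mem h1 hw𝔪

/-- A triangular family of maximal length. -/
theorem exists_triangular_max (𝔪 I : Ideal A) [h𝔪 : 𝔪.IsPrime] (hI : I ≤ 𝔪)
    (hfin : 𝔪.height ≠ ⊤) :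
    ∃ (j : ℕ) (g : ℕ → A) (θ : ℕ → Derivation k A A), IsTriangular 𝔪 I j g θ ∧
      (∀ u ∈ I, (∀ a < j, θ a u ∈ 𝔪) → ∀ ϑ : Derivation k A A, ϑ u ∈ 𝔪) := by
  classical
  have hbdd : BddAbove {j : ℕ | ∃ (g : ℕ → A) (θ : ℕ → Derivation k A A),
      IsTriangular 𝔪 I j g θ} := by
    refine ⟨𝔪.height.toNat, ?_⟩
    rintro j ⟨g, θ, h⟩
    have h1 := height_ge_of_triangular 𝔪 I j g θ h 𝔪 le_rfl (fun a ha => hI (h.1 a ha))
    rw [← ENat.natCast_toNat hfin] at h1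
    exact_mod_cast h1
  have hne : {j : ℕ | ∃ (g : ℕ → A) (θ : ℕ → Derivation k A A),
      IsTriangular 𝔪 I j g θ}.Nonempty :=
    ⟨0, fun _ => 0, fun _ => 0, fun a ha => absurd ha (Nat.not_lt_zero a),
      fun a ha => absurd ha (Nat.not_lt_zero a), fun a ha => absurd ha (Nat.not_lt_zero a)⟩
  obtain ⟨g, θ, h⟩ := Nat.sSup_mem hne hbdd
  refine ⟨_, g, θ, h, ?_⟩
  intro u hu horth ϑ
  by_contra hϑ
  obtain ⟨ϑ', t, ht, hkill, hcong⟩ := exists_derivation_killing 𝔪 I _ g θ h ϑ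
  have hϑ' : ϑ' u ∉ 𝔪 := by
    intro hmem
    have := 𝔪.sub_mem hmem (hcong u horth)
    rw [sub_sub_cancel] at this
    exact (h𝔪.mem_or_mem this).elim ht hϑ
  set j := sSup {j : ℕ | ∃ (g : ℕ → A) (θ : ℕ → Derivation k A A), IsTriangular 𝔪 I j g θ}
    with hj
  have hnew : IsTriangular 𝔪 I (j + 1) (Function.update g j u) (Function.update θ j ϑ') := by
    refine ⟨fun a ha => ?_, fun a ha b hb => ?_, fun a ha => ?_⟩
    · rcases Nat.lt_succ_iff_lt_or_eq.1 ha with ha' | rfl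
      · rw [Function.update_of_ne (ne_of_lt ha')]
        exact h.1 a ha'
      · rw [Function.update_self]
        exact hu
    · have hbj : b ≠ j := ne_of_lt (lt_of_lt_of_le hb (Nat.lt_succ_iff.1 ha))
      rw [Function.update_of_ne hbj]
      rcases Nat.lt_succ_iff_lt_or_eq.1 ha with ha' | rfl
      · rw [Function.update_of_ne (ne_of_lt ha')]
        exact h.2.1 a ha' b hb
      · rw [Function.update_self]
        exact hkill b hb
    · rcases Nat.lt_succ_iff_lt_or_eq.1 ha with ha' | rfl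
      · rw [Function.update_of_ne (ne_of_lt ha'), Function.update_of_ne (ne_of_lt ha')]
        exact h.2.2 a ha'
      · rw [Function.update_self, Function.update_self]
        exact hϑ'
  have hle : j + 1 ≤ j := le_csSup hbdd ⟨_, _, hnew⟩
  exact Nat.not_succ_le_self j hle

omit [CharZero k] in
/-- The image under `D` of the ideal generated by the family. -/
theorem derivation_span_mem_sup (𝔪 : Ideal A) (D : Derivation k A A) (hD𝔪 : ∀ a, D a ∈ 𝔪)
    (j : ℕ) (g : ℕ → A) (hg : ∀ a < j, g a ∈ 𝔪) (w : A)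
    (hw : w ∈ Ideal.span {y | ∃ a < j, y = g a}) :
    D w ∈ Ideal.span {y | ∃ a < j, y = D (g a)} ⊔ 𝔪 ^ 2 := by
  induction hw using Submodule.span_induction with
  | mem y hy =>
    obtain ⟨a, ha, rfl⟩ := hy
    exact Ideal.mem_sup_left (Ideal.subset_span ⟨a, ha, rfl⟩)
  | zero => rw [map_zero]; exact Ideal.zero_mem _
  | add x y _ _ hx hy => rw [map_add]; exact Ideal.add_mem _ hx hy
  | smul r x hx hx' =>
    rw [smul_eq_mul, Derivation.leibniz, smul_eq_mul, smul_eq_mul]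
    refine Ideal.add_mem _ (Ideal.mul_mem_left _ _ hx') (Ideal.mem_sup_right ?_)
    have hx𝔪 : x ∈ 𝔪 := by
      have hle : Ideal.span {y | ∃ a < j, y = g a} ≤ 𝔪 := by
        rw [Ideal.span_le]
        rintro y ⟨a, ha, rfl⟩
        exact hg a ha
      exact hle hx
    rw [pow_two]
    exact Ideal.mul_mem_mul hx𝔪 (hD𝔪 r)

omit [CharZero k] in
/-- For a triangular family of maximal length, the ideal `I` is generated at `𝔪`, modulo `𝔪 ^ 2`,
by the images under `D` of the elements of the family. -/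
theorem exists_mul_mem_span_of_max (𝔪 I : Ideal A) [h𝔪 : 𝔪.IsPrime] (hI : I ≤ 𝔪)
    (D : Derivation k A A) (hD𝔪 : ∀ a, D a ∈ 𝔪)
    (hkey : ∀ u, (∀ ϑ : Derivation k A A, ϑ u ∈ 𝔪) → D u ∈ 𝔪 ^ 2)
    (hsurj : ∀ f ∈ I, ∃ u ∈ I, f - D u ∈ 𝔪 ^ 2)
    (j : ℕ) (g : ℕ → A) (θ : ℕ → Derivation k A A) (h : IsTriangular 𝔪 I j g θ)
    (hmax : ∀ u ∈ I, (∀ a < j, θ a u ∈ 𝔪) → ∀ ϑ : Derivation k A A, ϑ u ∈ 𝔪)
    (f : A) (hf : f ∈ I) :
    ∃ t : A, t ∉ 𝔪 ∧ t * f ∈ Ideal.span {y | ∃ a < j, y = D (g a)} ⊔ 𝔪 ^ 2 := by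
  obtain ⟨u, hu, hfu⟩ := hsurj f hf
  obtain ⟨u', hu', t, ht, hspan, horth⟩ := exists_elt_orthogonal 𝔪 I hI j g θ h u hu
  have hDu' : D u' ∈ 𝔪 ^ 2 := hkey u' (hmax u' hu' horth)
  have hDw := derivation_span_mem_sup 𝔪 D hD𝔪 j g (fun a ha => hI (h.1 a ha)) _ hspan
  rw [map_sub, Derivation.leibniz, smul_eq_mul, smul_eq_mul] at hDw
  refine ⟨t, ht, ?_⟩
  have : t * f = (t * D u + u * D t - D u') - u * D t + D u' + t * (f - D u) := by ring
  rw [this]
  refine Ideal.add_mem _ (Ideal.add_mem _ (Ideal.sub_mem _ hDw (Ideal.mem_sup_right ?_))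
    (Ideal.mem_sup_right hDu')) (Ideal.mem_sup_right (Ideal.mul_mem_left _ _ hfu))
  rw [pow_two]
  exact Ideal.mul_mem_mul (hI hu) (hD𝔪 t)

end Triangular

end Vale.Agent.H71
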