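import Mathlib
import Vale.Agent.H71.Final2
import Vale.Agent.H71.Triangular
import Vale.Agent.H71.QuotLocal

/-!
# Lipman–Zariski along a regular subscheme with an Euler-like derivation

Let `A` be a normal domain finite over `k[X_1, …, X_d]` with projective module of derivations,
`I` an ideal and `𝔪` a prime containing `I` and the `x_i`.  If a derivation `D` preserves the
parameter ideal `(x)` locally at `𝔪` and acts surjectively on the image of `I` in `𝔪 / 𝔪 ^ 2`, and
the local ring of `A ⧸ I` at `𝔪` is regular, then `A_𝔪` is regular.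
-/

set_option linter.unusedSectionVars false
set_option linter.style.haveILetI false

namespace Vale.Agent.H71

open scoped nonZeroDivisors TensorProduct

section Conormal

variable {k : Type*} [Field k] [CharZero k] {d : ℕ}
  {A : Type*} [CommRing A] [IsDomain A] [Algebra k A] [IsIntegrallyClosed A]
  [Algebra (MvPolynomial (Fin d) k) A] [IsScalarTower k (MvPolynomial (Fin d) k) A]
  [FaithfulSMul (MvPolynomial (Fin d) k) A] [Module.Finite (MvPolynomial (Fin d) k) A]

/-- **Regularity along a regular subscheme.** -/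
theorem regular_of_conormal [Module.Projective A (Derivation k A A)]
    (I : Ideal A) (𝔮 : Ideal (A ⧸ I)) [h𝔮 : 𝔮.IsPrime]
    (hxm : ∀ i : Fin d, algebraMap (MvPolynomial (Fin d) k) A (MvPolynomial.X i)
      ∈ 𝔮.comap (Ideal.Quotient.mk I))
    (D : Derivation k A A) (s₀ : A) (hs₀ : s₀ ∉ 𝔮.comap (Ideal.Quotient.mk I))
    (hD : ∀ i, s₀ * D (algebraMap (MvPolynomial (Fin d) k) A (MvPolynomial.X i))
      ∈ Ideal.span (Set.range fun i : Fin d =>
        algebraMap (MvPolynomial (Fin d) k) A (MvPolynomial.X i)))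
    (hsurj : ∀ f ∈ I, ∃ g ∈ I, f - D g ∈ (𝔮.comap (Ideal.Quotient.mk I)) ^ 2)
    (hreg : IsRegularLocalRing (Localization.AtPrime 𝔮)) :
    IsRegularLocalRing (Localization.AtPrime (𝔮.comap (Ideal.Quotient.mk I))) := by
  classical
  have hnoeth : IsNoetherianRing A := IsNoetherianRing.of_finite (MvPolynomial (Fin d) k) A
  have hprime : (𝔮.comap (Ideal.Quotient.mk I)).IsPrime := inferInstance
  have hI : I ≤ 𝔮.comap (Ideal.Quotient.mk I) := by
    intro a ha
    rw [Ideal.mem_comap, Ideal.Quotient.eq_zero_iff_mem.2 ha]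
    exact 𝔮.zero_mem
  have hmax : Ideal.map (algebraMap A (Localization.AtPrime (𝔮.comap (Ideal.Quotient.mk I))))
      (𝔮.comap (Ideal.Quotient.mk I))
      = IsLocalRing.maximalIdeal (Localization.AtPrime (𝔮.comap (Ideal.Quotient.mk I))) :=
    Localization.AtPrime.map_eq_maximalIdeal
  have hmem𝔪 : ∀ a ∈ 𝔮.comap (Ideal.Quotient.mk I),
      algebraMap A (Localization.AtPrime (𝔮.comap (Ideal.Quotient.mk I))) a
      ∈ IsLocalRing.maximalIdeal (Localization.AtPrime (𝔮.comap (Ideal.Quotient.mk I))) := by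
    intro a ha
    rw [← hmax]
    exact Ideal.mem_map_of_mem _ ha
  -- `D` lies in `𝔪` times the module of derivations
  obtain ⟨s, hs⟩ := Module.projective_def'.1
    (inferInstance : Module.Projective A (Derivation k A A))
  have hDsum : D = ∑ θ ∈ (s D).support, (s D) θ • θ := by
    have := congrArg (fun f => f D) hs
    simp only [LinearMap.coe_comp, Function.comp_apply, LinearMap.id_coe, id_eq] at this
    rw [Finsupp.linearCombination_apply, Finsupp.sum] at this
    exact this.symm
  have hcoef : ∀ θ, (s D) θ ∈ 𝔮.comap (Ideal.Quotient.mk I) := fun θ =>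
    lam_mem_of_preserves_local (𝔮.comap (Ideal.Quotient.mk I)) hxm D s₀ hs₀ hD
      ((Finsupp.lapply θ).comp s)
  have hDa : ∀ a, D a = ∑ θ ∈ (s D).support, (s D) θ * θ a := by
    intro a
    conv_lhs => rw [hDsum]
    rw [← Derivation.coeFnAddMonoidHom_apply, map_sum, Finset.sum_apply]
    rfl
  have hD𝔪 : ∀ a, D a ∈ 𝔮.comap (Ideal.Quotient.mk I) := by
    intro a
    rw [hDa a]
    exact Ideal.sum_mem _ fun θ _ => Ideal.mul_mem_right _ _ (hcoef θ)
  have hkey : ∀ u, (∀ ϑ : Derivation k A A, ϑ u ∈ 𝔮.comap (Ideal.Quotient.mk I)) →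
      D u ∈ (𝔮.comap (Ideal.Quotient.mk I)) ^ 2 := by
    intro u hu
    rw [hDa u, pow_two]
    exact Ideal.sum_mem _ fun θ _ => Ideal.mul_mem_mul (hcoef θ) (hu θ)
  -- a triangular family of maximal length
  have hfin : (𝔮.comap (Ideal.Quotient.mk I)).height ≠ ⊤ := Ideal.height_ne_top_of_isPrime
  obtain ⟨j, g, θ, htri, hmaxfam⟩ := exists_triangular_max (k := k)
    (𝔮.comap (Ideal.Quotient.mk I)) I hI hfin
  have hheight := height_comap_quotient_ge I 𝔮 j (fun 𝔭 h𝔭 hI𝔭 h𝔭𝔪 =>
    haveI := h𝔭
    height_ge_of_triangular (𝔮.comap (Ideal.Quotient.mk I)) I j g θ htri 𝔭 h𝔭𝔪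
      (fun a ha => hI𝔭 (htri.1 a ha)))
  obtain ⟨Y, hYm, hYcard, hYgen⟩ := exists_finset_gen_of_quotient_regular I 𝔮 hreg
  -- the ideal `I` is generated at `𝔪`, modulo `𝔪 ^ 2`, by the `D (g a)`
  have hIle : Ideal.map (algebraMap A (Localization.AtPrime (𝔮.comap (Ideal.Quotient.mk I)))) I
      ≤ Ideal.span (((Finset.range j).image fun a =>
          algebraMap A (Localization.AtPrime (𝔮.comap (Ideal.Quotient.mk I))) (D (g a)) :
          Finset (Localization.AtPrime (𝔮.comap (Ideal.Quotient.mk I)))) : Set _)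
        ⊔ IsLocalRing.maximalIdeal (Localization.AtPrime (𝔮.comap (Ideal.Quotient.mk I))) ^ 2 := by
    rw [Ideal.map_le_iff_le_comap]
    intro f hf
    rw [Ideal.mem_comap]
    obtain ⟨t, ht, htf⟩ := exists_mul_mem_span_of_max (𝔮.comap (Ideal.Quotient.mk I)) I hI D hD𝔪
      hkey hsurj j g θ htri hmaxfam f hf
    have hunit : IsUnit (algebraMap A (Localization.AtPrime (𝔮.comap (Ideal.Quotient.mk I))) t) :=
      IsLocalization.map_units (Localization.AtPrime (𝔮.comap (Ideal.Quotient.mk I)))
        (⟨t, ht⟩ : (𝔮.comap (Ideal.Quotient.mk I)).primeCompl)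
    rw [← Ideal.unit_mul_mem_iff_mem _ hunit, ← map_mul]
    have hle : Ideal.span {y | ∃ a < j, y = D (g a)} ⊔ (𝔮.comap (Ideal.Quotient.mk I)) ^ 2
        ≤ Ideal.comap (algebraMap A (Localization.AtPrime (𝔮.comap (Ideal.Quotient.mk I))))
          (Ideal.span (((Finset.range j).image fun a =>
            algebraMap A (Localization.AtPrime (𝔮.comap (Ideal.Quotient.mk I))) (D (g a)) :
            Finset (Localization.AtPrime (𝔮.comap (Ideal.Quotient.mk I)))) : Set _)
          ⊔ IsLocalRing.maximalIdeal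
            (Localization.AtPrime (𝔮.comap (Ideal.Quotient.mk I))) ^ 2) := by
      refine sup_le ?_ ?_
      · rw [Ideal.span_le]
        rintro y ⟨a, ha, rfl⟩
        rw [SetLike.mem_coe, Ideal.mem_comap]
        refine Ideal.mem_sup_left (Ideal.subset_span ?_)
        rw [Finset.mem_coe]
        exact Finset.mem_image_of_mem _ (Finset.mem_range.2 ha)
      · rw [← Ideal.map_le_iff_le_comap, Ideal.map_pow, hmax]
        exact le_sup_right
    exact hle htf
  refine isRegularLocalRing_of_finset (Y ∪ (Finset.range j).image fun a =>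
    algebraMap A (Localization.AtPrime (𝔮.comap (Ideal.Quotient.mk I))) (D (g a))) ?_ ?_ ?_
  · intro a ha
    rcases Finset.mem_union.1 ha with ha | ha
    · exact hYm a ha
    · obtain ⟨b, _, rfl⟩ := Finset.mem_image.1 ha
      exact hmem𝔪 _ (hD𝔪 _)
  · rw [← hmax, Ideal.map_le_iff_le_comap]
    intro a ha
    rw [Ideal.mem_comap, hmax]
    have hle : Ideal.span (Y : Set (Localization.AtPrime (𝔮.comap (Ideal.Quotient.mk I))))
        ⊔ Ideal.map (algebraMap A (Localization.AtPrime (𝔮.comap (Ideal.Quotient.mk I)))) I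
        ≤ Ideal.span (((Y ∪ (Finset.range j).image fun a =>
            algebraMap A (Localization.AtPrime (𝔮.comap (Ideal.Quotient.mk I))) (D (g a)) :
            Finset (Localization.AtPrime (𝔮.comap (Ideal.Quotient.mk I)))) : Set _))
          ⊔ IsLocalRing.maximalIdeal
            (Localization.AtPrime (𝔮.comap (Ideal.Quotient.mk I))) ^ 2 := by
      refine sup_le ?_ ?_
      · refine le_trans (Ideal.span_mono ?_) le_sup_left
        intro t ht
        rw [Finset.mem_coe] at ht ⊢
        exact Finset.mem_union_left _ ht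
      · refine le_trans hIle (sup_le ?_ le_sup_right)
        refine le_trans (Ideal.span_mono ?_) le_sup_left
        intro t ht
        rw [Finset.mem_coe] at ht ⊢
        exact Finset.mem_union_right _ ht
    exact hle (hYgen a ha)
  · rw [IsLocalization.AtPrime.ringKrullDim_eq_height (𝔮.comap (Ideal.Quotient.mk I))
      (Localization.AtPrime (𝔮.comap (Ideal.Quotient.mk I)))]
    have h2 : (Y ∪ (Finset.range j).image fun a =>
        algebraMap A (Localization.AtPrime (𝔮.comap (Ideal.Quotient.mk I))) (D (g a))).card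
        ≤ Y.card + j := by
      refine le_trans (Finset.card_union_le _ _) (Nat.add_le_add_left ?_ _)
      refine le_trans Finset.card_image_le ?_
      rw [Finset.card_range]
    have h3 : (((Y ∪ (Finset.range j).image fun a =>
        algebraMap A (Localization.AtPrime (𝔮.comap (Ideal.Quotient.mk I))) (D (g a))).card : ℕ) : ℕ∞)
        ≤ (𝔮.comap (Ideal.Quotient.mk I)).height := by
      calc (((Y ∪ (Finset.range j).image fun a =>
          algebraMap A (Localization.AtPrime (𝔮.comap (Ideal.Quotient.mk I))) (D (g a))).card : ℕ) : ℕ∞)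
          ≤ ((Y.card + j : ℕ) : ℕ∞) := by exact_mod_cast h2
        _ = (j : ℕ∞) + (Y.card : ℕ∞) := by push_cast; rw [add_comm]
        _ ≤ (j : ℕ∞) + 𝔮.height := add_le_add le_rfl hYcard
        _ ≤ _ := hheight
    exact_mod_cast h3

end Conormal

end Vale.Agent.H71
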