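import Mathlib

/-!
# Derivations of a nonnegatively graded algebra

The Euler derivation, and the part of a derivation that lowers degrees.
-/

set_option linter.unusedSectionVars false
set_option linter.style.haveILetI false

namespace Vale.Agent.H71

section Graded

variable {k : Type*} [Field k] {A : Type*} [CommRing A] [Algebra k A]
  (𝒜 : ℕ → Submodule k A) [GradedAlgebra 𝒜]

/-- The linear map which is `f n` on the homogeneous elements of degree `n`. -/
noncomputable def pieceMap (f : ℕ → A →ₗ[k] A) : A →ₗ[k] A :=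
  (DirectSum.toModule k ℕ A (fun n => (f n).comp (𝒜 n).subtype)).comp
    (DirectSum.decomposeLinearEquiv 𝒜).toLinearMap

theorem pieceMap_of_mem (f : ℕ → A →ₗ[k] A) {n : ℕ} {a : A} (ha : a ∈ 𝒜 n) :
    pieceMap 𝒜 f a = f n a := by
  unfold pieceMap
  rw [LinearMap.comp_apply]
  have h1 : (DirectSum.decomposeLinearEquiv 𝒜).toLinearMap a
      = DirectSum.lof k ℕ (fun i => 𝒜 i) n ⟨a, ha⟩ := by
    change DirectSum.decompose 𝒜 a = _
    rw [DirectSum.decompose_of_mem 𝒜 ha]
    rfl
  rw [h1, DirectSum.toModule_lof]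
  rfl

/-- A linear map satisfying the Leibniz rule on homogeneous elements satisfies it everywhere. -/
theorem leibniz_of_homogeneous (φ : A →ₗ[k] A)
    (h : ∀ i j : ℕ, ∀ a ∈ 𝒜 i, ∀ b ∈ 𝒜 j, φ (a * b) = a * φ b + b * φ a) (a b : A) :
    φ (a * b) = a * φ b + b * φ a := by
  induction a using DirectSum.Decomposition.inductionOn 𝒜 with
  | zero => simp
  | @homogeneous i a =>
    induction b using DirectSum.Decomposition.inductionOn 𝒜 with
    | zero => simp
    | @homogeneous j b => exact h i j a a.2 b b.2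
    | add b b' hb hb' =>
      rw [mul_add, map_add, hb, hb', map_add]
      ring
  | add a a' ha ha' =>
    rw [add_mul, map_add, ha, ha', map_add]
    ring

/-- The Euler derivation: multiplication by the degree on homogeneous elements. -/
noncomputable def euler : Derivation k A A :=
  Derivation.mk' (pieceMap 𝒜 fun n => (n : k) • LinearMap.id) (by
    intro a b
    rw [smul_eq_mul, smul_eq_mul]
    refine leibniz_of_homogeneous 𝒜 _ ?_ a b
    intro i j a ha b hb
    rw [pieceMap_of_mem 𝒜 _ (SetLike.mul_mem_graded ha hb), pieceMap_of_mem 𝒜 _ ha,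
      pieceMap_of_mem 𝒜 _ hb]
    change ((i + j : ℕ) : k) • (a * b) = a * ((j : k) • b) + b * ((i : k) • a)
    rw [Nat.cast_add, add_smul, mul_smul_comm, mul_smul_comm, mul_comm b a]
    exact add_comm _ _)

theorem euler_of_mem {n : ℕ} {a : A} (ha : a ∈ 𝒜 n) : euler 𝒜 a = (n : k) • a := by
  change pieceMap 𝒜 (fun n => (n : k) • LinearMap.id) a = _
  rw [pieceMap_of_mem 𝒜 _ ha]
  rfl

/-- The part of a derivation lowering degrees. -/
noncomputable def lower (θ : Derivation k A A) : Derivation k A A :=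
  Derivation.mk' (pieceMap 𝒜 fun n =>
      ∑ m ∈ Finset.range n, (GradedAlgebra.proj 𝒜 m).comp θ.toLinearMap) (by
    intro a b
    rw [smul_eq_mul, smul_eq_mul]
    refine leibniz_of_homogeneous 𝒜 _ ?_ a b
    intro i j a ha b hb
    rw [pieceMap_of_mem 𝒜 _ (SetLike.mul_mem_graded ha hb), pieceMap_of_mem 𝒜 _ ha,
      pieceMap_of_mem 𝒜 _ hb]
    simp only [LinearMap.coe_sum, Finset.sum_apply, LinearMap.comp_apply, Derivation.coeFn_coe,
      Derivation.leibniz, smul_eq_mul, map_add, GradedAlgebra.proj_apply]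
    rw [Finset.sum_add_distrib]
    congr 1
    · rw [Finset.sum_range_add, Finset.mul_sum]
      have h0 : ∑ m ∈ Finset.range i, ((DirectSum.decompose 𝒜 (a * θ b) m : 𝒜 m) : A) = 0 := by
        refine Finset.sum_eq_zero fun m hm => ?_
        exact DirectSum.coe_decompose_mul_of_left_mem_of_not_le 𝒜 ha
          (not_le.2 (Finset.mem_range.1 hm))
      rw [h0, zero_add]
      refine Finset.sum_congr rfl fun m _ => ?_
      rw [DirectSum.coe_decompose_mul_of_left_mem_of_le 𝒜 ha (Nat.le_add_right i m),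
        Nat.add_sub_cancel_left]
    · rw [add_comm i j, Finset.sum_range_add, Finset.mul_sum]
      have h0 : ∑ m ∈ Finset.range j, ((DirectSum.decompose 𝒜 (b * θ a) m : 𝒜 m) : A) = 0 := by
        refine Finset.sum_eq_zero fun m hm => ?_
        exact DirectSum.coe_decompose_mul_of_left_mem_of_not_le 𝒜 hb
          (not_le.2 (Finset.mem_range.1 hm))
      rw [h0, zero_add]
      refine Finset.sum_congr rfl fun m _ => ?_
      rw [DirectSum.coe_decompose_mul_of_left_mem_of_le 𝒜 hb (Nat.le_add_right j m),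
        Nat.add_sub_cancel_left])

theorem lower_of_mem (θ : Derivation k A A) {n : ℕ} {a : A} (ha : a ∈ 𝒜 n) :
    lower 𝒜 θ a = ∑ m ∈ Finset.range n, ((DirectSum.decompose 𝒜 (θ a) m : 𝒜 m) : A) := by
  change pieceMap 𝒜 (fun n => ∑ m ∈ Finset.range n,
    (GradedAlgebra.proj 𝒜 m).comp θ.toLinearMap) a = _
  rw [pieceMap_of_mem 𝒜 _ ha]
  simp only [LinearMap.coe_sum, Finset.sum_apply, LinearMap.comp_apply, Derivation.coeFn_coe,
    GradedAlgebra.proj_apply]

theorem lower_zero (θ : Derivation k A A) {a : A} (ha : a ∈ 𝒜 0) : lower 𝒜 θ a = 0 := by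
  rw [lower_of_mem 𝒜 θ ha, Finset.range_zero, Finset.sum_empty]

/-- Removing the components of degree `< n` from any element leaves an element of an ideal
containing all homogeneous elements of positive degree, when `n` is positive. -/
theorem sub_sum_proj_mem (𝔪 : Ideal A) (hplus : ∀ n, 0 < n → ∀ a ∈ 𝒜 n, a ∈ 𝔪) {n : ℕ}
    (hn : 0 < n) (c : A) :
    c - ∑ m ∈ Finset.range n, ((DirectSum.decompose 𝒜 c m : 𝒜 m) : A) ∈ 𝔪 := by
  classical
  induction c using DirectSum.Decomposition.inductionOn 𝒜 with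
  | zero => simp
  | @homogeneous j c =>
    have h1 : ∀ m, ((DirectSum.decompose 𝒜 (c : A) m : 𝒜 m) : A) = if m = j then (c : A) else 0 := by
      intro m
      by_cases hm : m = j
      · subst hm
        rw [if_pos rfl, DirectSum.decompose_of_mem_same 𝒜 c.2]
      · rw [if_neg hm, DirectSum.decompose_of_mem_ne 𝒜 c.2 (Ne.symm hm)]
    rw [Finset.sum_congr rfl (fun m _ => h1 m), Finset.sum_ite_eq']
    by_cases hj : j ∈ Finset.range n
    · rw [if_pos hj, sub_self]
      exact 𝔪.zero_mem
    · rw [if_neg hj, sub_zero]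
      have : n ≤ j := not_lt.1 (fun h => hj (Finset.mem_range.2 h))
      exact hplus j (lt_of_lt_of_le hn this) c c.2
  | add c c' hc hc' =>
    have : c + c' - ∑ m ∈ Finset.range n, ((DirectSum.decompose 𝒜 (c + c') m : 𝒜 m) : A)
        = (c - ∑ m ∈ Finset.range n, ((DirectSum.decompose 𝒜 c m : 𝒜 m) : A))
          + (c' - ∑ m ∈ Finset.range n, ((DirectSum.decompose 𝒜 c' m : 𝒜 m) : A)) := by
      simp only [DirectSum.decompose_add, DirectSum.add_apply, Submodule.coe_add,
        Finset.sum_add_distrib]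
      ring
    rw [this]
    exact 𝔪.add_mem hc hc'

theorem sub_lower_mem (𝔪 : Ideal A) (hplus : ∀ n, 0 < n → ∀ a ∈ 𝒜 n, a ∈ 𝔪)
    (θ : Derivation k A A) {n : ℕ} (hn : 0 < n) {a : A} (ha : a ∈ 𝒜 n) :
    (θ - lower 𝒜 θ) a ∈ 𝔪 := by
  rw [Derivation.sub_apply, lower_of_mem 𝒜 θ ha]
  exact sub_sum_proj_mem 𝒜 𝔪 hplus hn (θ a)

/-- Every element is its degree-zero component plus an element of the ideal generated by the
homogeneous elements of positive degree. -/
theorem sub_proj_zero_mem (c : A) :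
    c - ((DirectSum.decompose 𝒜 c 0 : 𝒜 0) : A) ∈ Ideal.span {a : A | ∃ n, 0 < n ∧ a ∈ 𝒜 n} := by
  classical
  induction c using DirectSum.Decomposition.inductionOn 𝒜 with
  | zero => simp
  | @homogeneous j c =>
    by_cases hj : j = 0
    · subst hj
      rw [DirectSum.decompose_of_mem_same 𝒜 c.2, sub_self]
      exact Ideal.zero_mem _
    · rw [DirectSum.decompose_of_mem_ne 𝒜 c.2 hj, sub_zero]
      exact Ideal.subset_span ⟨j, Nat.pos_of_ne_zero hj, c.2⟩
  | add c c' hc hc' =>
    have : c + c' - ((DirectSum.decompose 𝒜 (c + c') 0 : 𝒜 0) : A)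
        = (c - ((DirectSum.decompose 𝒜 c 0 : 𝒜 0) : A))
          + (c' - ((DirectSum.decompose 𝒜 c' 0 : 𝒜 0) : A)) := by
      simp only [DirectSum.decompose_add, DirectSum.add_apply, Submodule.coe_add]
      ring
    rw [this]
    exact Ideal.add_mem _ hc hc'

end Graded

end Vale.Agent.H71
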