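import Mathlib
import Vale.Agent.H71.Regular
import Vale.Agent.H71.Graded

/-!
# The degree-zero part of a graded algebra finite over a polynomial ring
-/

set_option linter.unusedSectionVars false
set_option linter.style.haveILetI false

namespace Vale.Agent.H71

/-- Modulo an ideal containing the variables, a polynomial is its constant coefficient. -/
theorem sub_C_constantCoeff_mem {k : Type*} [Field k] {d : ℕ}
    (𝔫 : Ideal (MvPolynomial (Fin d) k))
    (h : ∀ i, (MvPolynomial.X i : MvPolynomial (Fin d) k) ∈ 𝔫) (p : MvPolynomial (Fin d) k) :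
    p - MvPolynomial.C (MvPolynomial.constantCoeff p) ∈ 𝔫 := by
  induction p using MvPolynomial.induction_on with
  | C a =>
    rw [MvPolynomial.constantCoeff_C, sub_self]
    exact 𝔫.zero_mem
  | add p q hp hq =>
    have : p + q - MvPolynomial.C (MvPolynomial.constantCoeff (p + q))
        = (p - MvPolynomial.C (MvPolynomial.constantCoeff p))
          + (q - MvPolynomial.C (MvPolynomial.constantCoeff q)) := by
      rw [map_add, map_add]; ring
    rw [this]
    exact 𝔫.add_mem hp hq
  | mul_X p i hp =>
    rw [map_mul, MvPolynomial.constantCoeff_X, mul_zero, map_zero, sub_zero]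
    exact 𝔫.mul_mem_left _ (h i)

/-- A prime ideal of a polynomial ring over a field containing all the variables is maximal. -/
theorem isMaximal_of_X_mem {k : Type*} [Field k] {d : ℕ} (𝔫 : Ideal (MvPolynomial (Fin d) k))
    [h𝔫 : 𝔫.IsPrime] (h : ∀ i, (MvPolynomial.X i : MvPolynomial (Fin d) k) ∈ 𝔫) :
    𝔫.IsMaximal := by
  have hker : RingHom.ker (MvPolynomial.constantCoeff : MvPolynomial (Fin d) k →+* k) ≤ 𝔫 := by
    intro p hp
    have := sub_C_constantCoeff_mem 𝔫 h p
    rw [RingHom.mem_ker] at hp
    rwa [hp, map_zero, sub_zero] at this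
  have hmax : (RingHom.ker
      (MvPolynomial.constantCoeff : MvPolynomial (Fin d) k →+* k)).IsMaximal :=
    RingHom.ker_isMaximal_of_surjective _ (fun c => ⟨MvPolynomial.C c,
      MvPolynomial.constantCoeff_C _ c⟩)
  have := hmax.eq_of_le h𝔫.ne_top hker
  rw [← this]
  exact hmax

section

variable {k : Type*} [Field k] {d : ℕ} {A : Type*} [CommRing A] [IsDomain A] [Algebra k A]
  [Algebra (MvPolynomial (Fin d) k) A] [Module.Finite (MvPolynomial (Fin d) k) A]
  (𝒜 : ℕ → Submodule k A) [GradedAlgebra 𝒜]

/-- The contraction to the degree-zero subring of a prime containing the (homogeneous) variables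
has height at most the number of variables of degree zero. -/
theorem height_gradeZero_le (w : Fin d → ℕ)
    (hxw : ∀ i, algebraMap (MvPolynomial (Fin d) k) A (MvPolynomial.X i) ∈ 𝒜 (w i))
    (𝔪 : Ideal A) [h𝔪 : 𝔪.IsPrime]
    (hxm : ∀ i, algebraMap (MvPolynomial (Fin d) k) A (MvPolynomial.X i) ∈ 𝔪) :
    (𝔪.comap (algebraMap (𝒜 0) A)).height
      ≤ ((Finset.univ.filter fun i : Fin d => w i = 0).card : ℕ∞) := by
  classical
  have hnoeth : IsNoetherianRing A := IsNoetherianRing.of_finite (MvPolynomial (Fin d) k) A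
  have hnoeth0 : IsNoetherianRing (𝒜 0) := GradedRing.GradeZero.isNoetherianRing 𝒜
  have hcard : ((Finset.univ.filter fun i : Fin d => w i = 0).image
      (fun i => GradedRing.projZeroRingHom' 𝒜
        (algebraMap (MvPolynomial (Fin d) k) A (MvPolynomial.X i)))).card
      ≤ (Finset.univ.filter fun i : Fin d => w i = 0).card := Finset.card_image_le
  refine le_trans (Ideal.height_le_card_of_mem_minimalPrimes_span_finset
    (s := (Finset.univ.filter fun i : Fin d => w i = 0).image
      (fun i => GradedRing.projZeroRingHom' 𝒜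
        (algebraMap (MvPolynomial (Fin d) k) A (MvPolynomial.X i))))
    ?_) (by exact_mod_cast hcard)
  refine ⟨⟨inferInstance, ?_⟩, ?_⟩
  · rw [Ideal.span_le]
    intro a ha
    rw [Finset.mem_coe] at ha
    obtain ⟨i, hi, rfl⟩ := Finset.mem_image.1 ha
    have hw : w i = 0 := (Finset.mem_filter.1 hi).2
    have hmem : algebraMap (MvPolynomial (Fin d) k) A (MvPolynomial.X i) ∈ 𝒜 0 := by
      have := hxw i
      rwa [hw] at this
    rw [SetLike.mem_coe, Ideal.mem_comap]
    have h1 : algebraMap (𝒜 0) A (GradedRing.projZeroRingHom' 𝒜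
        (algebraMap (MvPolynomial (Fin d) k) A (MvPolynomial.X i)))
        = algebraMap (MvPolynomial (Fin d) k) A (MvPolynomial.X i) := by
      change ((GradedRing.projZeroRingHom' 𝒜
        (algebraMap (MvPolynomial (Fin d) k) A (MvPolynomial.X i)) : 𝒜 0) : A) = _
      rw [GradedRing.coe_projZeroRingHom'_apply, GradedRing.projZeroRingHom_apply,
        DirectSum.decompose_of_mem_same 𝒜 hmem]
    rw [h1]
    exact hxm i
  · rintro q ⟨hq, hle⟩ hq𝔪
    have hf : Function.Surjective (GradedRing.projZeroRingHom' 𝒜) :=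
      GradedRing.projZeroRingHom'_surjective 𝒜
    have hx𝔮 : ∀ i, algebraMap (MvPolynomial (Fin d) k) A (MvPolynomial.X i)
        ∈ q.comap (GradedRing.projZeroRingHom' 𝒜) := by
      intro i
      rw [Ideal.mem_comap]
      by_cases hw : w i = 0
      · apply hle
        apply Ideal.subset_span
        rw [Finset.mem_coe]
        exact Finset.mem_image.2 ⟨i, Finset.mem_filter.2 ⟨Finset.mem_univ i, hw⟩, rfl⟩
      · have h1 : GradedRing.projZeroRingHom' 𝒜
            (algebraMap (MvPolynomial (Fin d) k) A (MvPolynomial.X i)) = 0 := by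
          apply Subtype.ext
          rw [GradedRing.coe_projZeroRingHom'_apply, GradedRing.projZeroRingHom_apply,
            DirectSum.decompose_of_mem_ne 𝒜 (hxw i) hw]
          rfl
        rw [h1]
        exact q.zero_mem
    have h𝔮prime : (q.comap (GradedRing.projZeroRingHom' 𝒜)).IsPrime := Ideal.comap_isPrime _ _
    have h𝔫max : ((q.comap (GradedRing.projZeroRingHom' 𝒜)).comap
        (algebraMap (MvPolynomial (Fin d) k) A)).IsMaximal :=
      isMaximal_of_X_mem _ (fun i => hx𝔮 i)
    have h𝔮max : (q.comap (GradedRing.projZeroRingHom' 𝒜)).IsMaximal :=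
      Ideal.isMaximal_of_isIntegral_of_isMaximal_comap _ h𝔫max
    have hker : RingHom.ker (GradedRing.projZeroRingHom' 𝒜)
        ≤ q.comap (GradedRing.projZeroRingHom' 𝒜) := by
      intro a ha
      rw [Ideal.mem_comap, RingHom.mem_ker.1 ha]
      exact q.zero_mem
    have hqmax : q.IsMaximal := by
      have := Ideal.IsMaximal.map_of_surjective_of_ker_le hf hker
      rwa [Ideal.map_comap_of_surjective _ hf] at this
    have hne : 𝔪.comap (algebraMap (𝒜 0) A) ≠ ⊤ := Ideal.IsPrime.ne_top inferInstance
    exact le_of_eq (hqmax.eq_of_le hne hq𝔪).symm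

end

end Vale.Agent.H71
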