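import Mathlib
import Vale.Agent.H71.Adapted
import Vale.Agent.H71.GradedBase

/-!
# Lipman–Zariski for graded algebras whose degree-zero part is regular
-/

set_option linter.unusedSectionVars false
set_option linter.style.haveILetI false

namespace Vale.Agent.H71

open scoped nonZeroDivisors TensorProduct

section GradedMain

variable {k : Type*} [Field k] [CharZero k] {d : ℕ}
  {A : Type*} [CommRing A] [IsDomain A] [Algebra k A] [IsIntegrallyClosed A]
  [Algebra (MvPolynomial (Fin d) k) A] [IsScalarTower k (MvPolynomial (Fin d) k) A]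
  [FaithfulSMul (MvPolynomial (Fin d) k) A] [Module.Finite (MvPolynomial (Fin d) k) A]

/-- **Graded theorem**, in the form where `A` is an algebra over the polynomial ring. -/
theorem regular_of_graded [Module.Projective A (Derivation k A A)]
    (𝒜 : ℕ → Submodule k A) [GradedAlgebra 𝒜] (w : Fin d → ℕ)
    (hxw : ∀ i, algebraMap (MvPolynomial (Fin d) k) A (MvPolynomial.X i) ∈ 𝒜 (w i))
    (𝔪 : Ideal A) [h𝔪 : 𝔪.IsPrime]
    (hxm : ∀ i : Fin d, algebraMap (MvPolynomial (Fin d) k) A (MvPolynomial.X i) ∈ 𝔪)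
    (hplus : ∀ n, 0 < n → ∀ a ∈ 𝒜 n, a ∈ 𝔪)
    (hreg : IsRegularLocalRing (Localization.AtPrime (𝔪.comap (algebraMap (𝒜 0) A)))) :
    IsRegularLocalRing (Localization.AtPrime 𝔪) := by
  classical
  have hPm : ∀ a ∈ Ideal.span {a : A | ∃ n, 0 < n ∧ a ∈ 𝒜 n}, a ∈ 𝔪 := by
    intro a ha
    have hle : Ideal.span {a : A | ∃ n, 0 < n ∧ a ∈ 𝒜 n} ≤ 𝔪 := by
      rw [Ideal.span_le]
      rintro a ⟨n, hn, ha⟩
      exact hplus n hn a ha
    exact hle ha
  -- generators of the maximal ideal of the degree-zero part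
  haveI hnoeth₀ : IsNoetherianRing (Localization.AtPrime (𝔪.comap (algebraMap (𝒜 0) A))) :=
    hreg.toIsNoetherian
  have hfg : Submodule.FG (IsLocalRing.maximalIdeal
      (Localization.AtPrime (𝔪.comap (algebraMap (𝒜 0) A)))) := IsNoetherian.noetherian _
  have hgfin := Submodule.FG.finite_generators hfg
  have hlocal : IsLocalHom (Localization.localRingHom (𝔪.comap (algebraMap (𝒜 0) A)) 𝔪
      (algebraMap (𝒜 0) A) rfl) := Localization.isLocalHom_localRingHom _ _ _ rfl
  refine regular_of_split 𝔪 hxm (euler 𝒜) 1 (fun h => h𝔪.ne_top ((Ideal.eq_top_iff_one _).2 h))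
    ?_ (Finset.univ.filter fun i : Fin d => w i = 0) {a : A | ∃ n, 0 < n ∧ a ∈ 𝒜 n} ?_ ?_
    (hgfin.toFinset.image (Localization.localRingHom (𝔪.comap (algebraMap (𝒜 0) A)) 𝔪
      (algebraMap (𝒜 0) A) rfl)) ?_ ?_ ?_
  · intro i
    rw [one_mul, euler_of_mem 𝒜 (hxw i), Algebra.smul_def]
    exact Ideal.mul_mem_left _ _ (Ideal.subset_span ⟨i, rfl⟩)
  · intro θ
    refine ⟨lower 𝒜 θ, θ - lower 𝒜 θ, by abel, ?_, ?_⟩
    · intro i hi
      have hw : w i = 0 := (Finset.mem_filter.1 hi).2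
      have hmem : algebraMap (MvPolynomial (Fin d) k) A (MvPolynomial.X i) ∈ 𝒜 0 := by
        have := hxw i
        rwa [hw] at this
      exact lower_zero 𝒜 θ hmem
    · rintro p ⟨n, hn, hp⟩
      exact sub_lower_mem 𝒜 𝔪 hplus θ hn hp
  · rintro f ⟨n, hn, hf⟩
    refine ⟨(n : k)⁻¹ • f, ⟨n, hn, (𝒜 n).smul_mem _ hf⟩, ?_⟩
    rw [euler_of_mem 𝒜 ((𝒜 n).smul_mem _ hf), smul_smul,
      mul_inv_cancel₀ (Nat.cast_ne_zero.2 (Nat.pos_iff_ne_zero.1 hn)), one_smul, sub_self]
    exact Ideal.zero_mem _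
  · intro y hy
    obtain ⟨g, hg, rfl⟩ := Finset.mem_image.1 hy
    rw [Set.Finite.mem_toFinset] at hg
    exact map_nonunit _ g (Submodule.FG.generators_mem _ hg)
  · have h1 : (hgfin.toFinset.image (Localization.localRingHom
        (𝔪.comap (algebraMap (𝒜 0) A)) 𝔪 (algebraMap (𝒜 0) A) rfl)).card
        ≤ (IsLocalRing.maximalIdeal
          (Localization.AtPrime (𝔪.comap (algebraMap (𝒜 0) A)))).spanFinrank := by
      refine le_trans Finset.card_image_le ?_
      rw [← hfg.generators_ncard, Set.ncard_eq_toFinset_card _ hgfin]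
    have h2 := hreg.spanFinrank_maximalIdeal
    rw [IsLocalization.AtPrime.ringKrullDim_eq_height (𝔪.comap (algebraMap (𝒜 0) A))
      (Localization.AtPrime (𝔪.comap (algebraMap (𝒜 0) A)))] at h2
    have h3 := height_gradeZero_le 𝒜 w hxw 𝔪 hxm
    have h4 : (((IsLocalRing.maximalIdeal
        (Localization.AtPrime (𝔪.comap (algebraMap (𝒜 0) A)))).spanFinrank : ℕ) : ℕ∞)
        = (𝔪.comap (algebraMap (𝒜 0) A)).height := by
      exact_mod_cast h2
    rw [← h4] at h3
    exact le_trans h1 (by exact_mod_cast h3)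
  · intro a ha
    have hsub := sub_proj_zero_mem 𝒜 a
    have ha0 : ((DirectSum.decompose 𝒜 a 0 : 𝒜 0) : A) ∈ 𝔪 := by
      have := 𝔪.sub_mem ha (hPm _ hsub)
      rwa [sub_sub_cancel] at this
    have hsplit : algebraMap A (Localization.AtPrime 𝔪) a
        = algebraMap A (Localization.AtPrime 𝔪) ((DirectSum.decompose 𝒜 a 0 : 𝒜 0) : A)
          + algebraMap A (Localization.AtPrime 𝔪)
            (a - ((DirectSum.decompose 𝒜 a 0 : 𝒜 0) : A)) := by
      rw [← map_add]; congr 1; ring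
    rw [hsplit]
    refine Ideal.add_mem _ (Ideal.mem_sup_left (Ideal.mem_sup_left ?_))
      (Ideal.mem_sup_left (Ideal.mem_sup_right (Ideal.mem_map_of_mem _ hsub)))
    -- the degree-zero part
    have hmem₀ : (DirectSum.decompose 𝒜 a 0 : 𝒜 0) ∈ 𝔪.comap (algebraMap (𝒜 0) A) := ha0
    have h5 : algebraMap (𝒜 0) (Localization.AtPrime (𝔪.comap (algebraMap (𝒜 0) A)))
        (DirectSum.decompose 𝒜 a 0 : 𝒜 0)
        ∈ IsLocalRing.maximalIdeal (Localization.AtPrime (𝔪.comap (algebraMap (𝒜 0) A))) := by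
      rw [← Localization.AtPrime.map_eq_maximalIdeal]
      exact Ideal.mem_map_of_mem _ hmem₀
    rw [← Submodule.span_generators (IsLocalRing.maximalIdeal
      (Localization.AtPrime (𝔪.comap (algebraMap (𝒜 0) A))))] at h5
    have h6 := Ideal.mem_map_of_mem (Localization.localRingHom
      (𝔪.comap (algebraMap (𝒜 0) A)) 𝔪 (algebraMap (𝒜 0) A) rfl) h5
    rw [Localization.localRingHom_to_map] at h6
    have h7 : Ideal.map (Localization.localRingHom
        (𝔪.comap (algebraMap (𝒜 0) A)) 𝔪 (algebraMap (𝒜 0) A) rfl)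
        (Submodule.span _ (IsLocalRing.maximalIdeal
          (Localization.AtPrime (𝔪.comap (algebraMap (𝒜 0) A)))).generators)
        = Ideal.span ((hgfin.toFinset.image (Localization.localRingHom
          (𝔪.comap (algebraMap (𝒜 0) A)) 𝔪 (algebraMap (𝒜 0) A) rfl) :
            Finset (Localization.AtPrime 𝔪)) : Set (Localization.AtPrime 𝔪)) := by
      rw [Finset.coe_image, Set.Finite.coe_toFinset]
      exact Ideal.map_span _ _
    rw [h7] at h6
    exact h6

end GradedMain

end Vale.Agent.H71
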