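import Mathlib

/-!
# The Euler derivation of an integer-graded algebra
-/

set_option linter.unusedSectionVars false
set_option linter.style.haveILetI false

namespace Vale.Agent.H71

section GradedZ

variable {k : Type*} [Field k] {A : Type*} [CommRing A] [Algebra k A]
  (𝒜 : ℤ → Submodule k A) [GradedAlgebra 𝒜]

/-- The linear map which is `f n` on the homogeneous elements of degree `n`. -/
noncomputable def pieceMapZ (f : ℤ → A →ₗ[k] A) : A →ₗ[k] A :=
  (DirectSum.toModule k ℤ A (fun n => (f n).comp (𝒜 n).subtype)).comp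
    (DirectSum.decomposeLinearEquiv 𝒜).toLinearMap

theorem pieceMapZ_of_mem (f : ℤ → A →ₗ[k] A) {n : ℤ} {a : A} (ha : a ∈ 𝒜 n) :
    pieceMapZ 𝒜 f a = f n a := by
  unfold pieceMapZ
  rw [LinearMap.comp_apply]
  have h1 : (DirectSum.decomposeLinearEquiv 𝒜).toLinearMap a
      = DirectSum.lof k ℤ (fun i => 𝒜 i) n ⟨a, ha⟩ := by
    change DirectSum.decompose 𝒜 a = _
    rw [DirectSum.decompose_of_mem 𝒜 ha]
    rfl
  rw [h1, DirectSum.toModule_lof]
  rfl

/-- A linear map satisfying the Leibniz rule on homogeneous elements satisfies it everywhere. -/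
theorem leibniz_of_homogeneousZ (φ : A →ₗ[k] A)
    (h : ∀ i j : ℤ, ∀ a ∈ 𝒜 i, ∀ b ∈ 𝒜 j, φ (a * b) = a * φ b + b * φ a) (a b : A) :
    φ (a * b) = a * φ b + b * φ a := by
  induction a using DirectSum.Decomposition.inductionOn 𝒜 with
  | zero => simp
  | @homogeneous i a =>
    induction b using DirectSum.Decomposition.inductionOn 𝒜 with
    | zero => simp
    | @homogeneous j b => exact h i j a a.2 b b.2
    | add b b' hb hb' =>
      rw [mul_add, map_add, hb, hb', map_add]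
      ring
  | add a a' ha ha' =>
    rw [add_mul, map_add, ha, ha', map_add]
    ring

/-- The Euler derivation: multiplication by the degree on homogeneous elements. -/
noncomputable def eulerZ : Derivation k A A :=
  Derivation.mk' (pieceMapZ 𝒜 fun n => (n : k) • LinearMap.id) (by
    intro a b
    rw [smul_eq_mul, smul_eq_mul]
    refine leibniz_of_homogeneousZ 𝒜 _ ?_ a b
    intro i j a ha b hb
    rw [pieceMapZ_of_mem 𝒜 _ (SetLike.mul_mem_graded ha hb), pieceMapZ_of_mem 𝒜 _ ha,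
      pieceMapZ_of_mem 𝒜 _ hb]
    change ((i + j : ℤ) : k) • (a * b) = a * ((j : k) • b) + b * ((i : k) • a)
    rw [Int.cast_add, add_smul, mul_smul_comm, mul_smul_comm, mul_comm b a]
    exact add_comm _ _)

theorem eulerZ_of_mem {n : ℤ} {a : A} (ha : a ∈ 𝒜 n) : eulerZ 𝒜 a = (n : k) • a := by
  change pieceMapZ 𝒜 (fun n => (n : k) • LinearMap.id) a = _
  rw [pieceMapZ_of_mem 𝒜 _ ha]
  rfl

/-- The Euler derivation takes values in the ideal generated by the homogeneous elements of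
nonzero degree. -/
theorem eulerZ_mem_span (c : A) :
    eulerZ 𝒜 c ∈ Ideal.span {a : A | ∃ n : ℤ, n ≠ 0 ∧ a ∈ 𝒜 n} := by
  classical
  induction c using DirectSum.Decomposition.inductionOn 𝒜 with
  | zero => rw [map_zero]; exact Ideal.zero_mem _
  | @homogeneous j c =>
    rw [eulerZ_of_mem 𝒜 c.2]
    by_cases hj : j = 0
    · subst hj
      rw [Int.cast_zero, zero_smul]
      exact Ideal.zero_mem _
    · exact Ideal.subset_span ⟨j, hj, (𝒜 j).smul_mem _ c.2⟩
  | add c c' hc hc' =>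
    rw [map_add]
    exact Ideal.add_mem _ hc hc'

/-- The Euler derivation is surjective on the ideal generated by the homogeneous elements of
nonzero degree, modulo the square of that ideal (characteristic zero). -/
theorem exists_eulerZ_sub_mem [CharZero k] (f : A)
    (hf : f ∈ Ideal.span {a : A | ∃ n : ℤ, n ≠ 0 ∧ a ∈ 𝒜 n}) :
    ∃ g ∈ Ideal.span {a : A | ∃ n : ℤ, n ≠ 0 ∧ a ∈ 𝒜 n},
      f - eulerZ 𝒜 g ∈ Ideal.span {a : A | ∃ n : ℤ, n ≠ 0 ∧ a ∈ 𝒜 n} ^ 2 := by
  induction hf using Submodule.span_induction with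
  | mem y hy =>
    obtain ⟨n, hn, hy⟩ := hy
    refine ⟨(n : k)⁻¹ • y, Ideal.subset_span ⟨n, hn, (𝒜 n).smul_mem _ hy⟩, ?_⟩
    rw [eulerZ_of_mem 𝒜 ((𝒜 n).smul_mem _ hy), smul_smul,
      mul_inv_cancel₀ (Int.cast_ne_zero.2 hn), one_smul, sub_self]
    exact Ideal.zero_mem _
  | zero => exact ⟨0, Ideal.zero_mem _, by rw [map_zero, sub_self]; exact Ideal.zero_mem _⟩
  | add x y _ _ hx hy =>
    obtain ⟨g₁, hg₁, h₁⟩ := hx
    obtain ⟨g₂, hg₂, h₂⟩ := hy
    refine ⟨g₁ + g₂, Ideal.add_mem _ hg₁ hg₂, ?_⟩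
    have : x + y - eulerZ 𝒜 (g₁ + g₂) = (x - eulerZ 𝒜 g₁) + (y - eulerZ 𝒜 g₂) := by
      rw [map_add]; ring
    rw [this]
    exact Ideal.add_mem _ h₁ h₂
  | smul r x _ hx =>
    obtain ⟨g, hg, h⟩ := hx
    refine ⟨r * g, Ideal.mul_mem_left _ _ hg, ?_⟩
    have : r • x - eulerZ 𝒜 (r * g) = r * (x - eulerZ 𝒜 g) - g * eulerZ 𝒜 r := by
      rw [Derivation.leibniz, smul_eq_mul, smul_eq_mul, smul_eq_mul]; ring
    rw [this]
    refine Ideal.sub_mem _ (Ideal.mul_mem_left _ _ h) ?_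
    rw [pow_two]
    exact Ideal.mul_mem_mul hg (eulerZ_mem_span 𝒜 r)

end GradedZ

end Vale.Agent.H71
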